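import Mathlib.MeasureTheory.Measure.WithDensity
import Mathlib.MeasureTheory.Measure.Prod
import Mathlib.Analysis.SpecialFunctions.Exp
import Mathlib.MeasureTheory.Constructions.BorelSpace.Basic
import Mathlib.Topology.MetricSpace.Basic

/-!
P233, stage 3b: interface of the contraction chains (helper227). `mV m K p` is the measure `V m`
with `V = exp (K d(·,p)²/6)`; `OS m n K`: one step contraction plans towards `p`.
-/

open MeasureTheory Metric Set
open scoped ENNReal NNReal

universe u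

namespace Vale.Agent.P233.H227.Ch

variable {M : Type u} [MetricSpace M] [MeasurableSpace M]

/-- the weight `exp (K d(x,p)²/6)` -/
noncomputable def VV (K : ℝ) (p x : M) : ℝ := Real.exp (K * dist x p ^ 2 / 6)

/-- the measure `exp (K d(·,p)²/6) m` -/
noncomputable def mV (m : Measure M) (K : ℝ) (p : M) : Measure M :=
  m.withDensity fun x => ENNReal.ofReal (VV K p x)

/-- One step contraction plans towards `p`. -/
def OS (m : Measure M) (n : ℕ) (K : ℝ) : Prop :=
  ∀ (p : M) (t : ℝ), 0 < t → t < 1 → ∀ (ν : Measure M) (c : ℝ≥0) (R : ℝ),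
    ν ≤ c • mV m K p → ν (closedBall p R)ᶜ = 0 →
    ∃ π : Measure (M × M), π.map Prod.fst = ν ∧
      (∀ᵐ q ∂π, dist q.1 q.2 = t * dist q.1 p ∧ dist q.2 p = (1 - t) * dist q.1 p) ∧
      π.map Prod.snd ≤ (c * Real.toNNReal (((1 - t) ^ n)⁻¹)) • mV m K p

/-- Set form: `∫_{Z_t(A)} V dm ≥ (1-t)ⁿ ∫_A V dm` for compact `A`. -/
def BMV (m : Measure M) (n : ℕ) (K : ℝ) : Prop :=
  ∀ (p : M) (t : ℝ), 0 < t → t < 1 → ∀ A : Set M, IsCompact A →
    ENNReal.ofReal ((1 - t) ^ n) * mV m K p A ≤
      mV m K p {z | ∃ x ∈ A, dist x z = t * dist x p ∧ dist z p = (1 - t) * dist x p}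

end Vale.Agent.P233.H227.Ch
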