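import Vale.Agent.P233.Gig.IfC

/-! P233: the assembly of part B as a proposition. -/

set_option linter.all false

open MeasureTheory Filter Topology Set
open scoped ENNReal NNReal InnerProductSpace

universe u

namespace Vale.Agent.P233.PC

open Vale.Agent.P233.PA (en OutA PotLim)

/-- Assembly of part B: the output of part A gives the output of part B. -/
def Blk_AsmB : Prop :=
  ∀ (M : Type u) [MetricSpace M] [CompleteSpace M] [SecondCountableTopology M] [MeasurableSpace M]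
    [BorelSpace M] (m : Measure M) (K N κ : ℝ) (P : ℝ → (M →ₘ[m] ℝ) → (M →ₘ[m] ℝ))
    (p : M) (s₀ C₀ : ℝ), CHyp M m K N P p s₀ C₀ →
    ∀ (E : Type) [NormedAddCommGroup E] [InnerProductSpace ℝ E] [CompleteSpace E]
    (Gr : (M →ₘ[m] ℝ) → M → E) (V : (M →ₘ[m] ℝ) → (M →ₘ[m] ℝ) → M → E)
    (D : (M →ₘ[m] ℝ) → (M →ₘ[m] ℝ)), CtB (sob m) K N Gr V D → (sob m).Sec V κ →
    ∀ (u : ℕ → ℝ → M →ₘ[m] ℝ) (φ : (M →ₘ[m] ℝ) → ℕ → ℝ → M →ₘ[m] ℝ),
      OutA m K N P p s₀ C₀ u φ → LevB m Gr V D κ u φ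

end Vale.Agent.P233.PC
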