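import Vale.Agent.P233.H227.ChDef
import Vale.Agent.P233.Bd3.B1

/-!
P233, stage 3b (helper227): chains of contraction plans, and the local slopes at scale `η`.
-/

set_option linter.all false

open MeasureTheory Metric Set Filter Topology
open scoped ENNReal NNReal

universe u

namespace Vale.Agent.P233.H227.Ch

section lipE

variable {M : Type u} [MetricSpace M]

/-- the slope at scale `η` -/
noncomputable def LE (η : ℝ) (h : M → ℝ) (x : M) : ℝ≥0∞ :=
  ⨆ y : M, if dist y x < η then ENNReal.ofReal (|h y - h x| / dist y x) else 0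

theorem LE_le {L : ℝ≥0} {h : M → ℝ} (hh : LipschitzWith L h) (η : ℝ) (x : M) : LE η h x ≤ L := by
  refine iSup_le fun y => ?_
  split_ifs
  · rw [← ENNReal.ofReal_coe_nnreal]
    refine ENNReal.ofReal_le_ofReal ?_
    rcases eq_or_ne y x with rfl | hne
    · simp
    · rw [div_le_iff₀ (dist_pos.2 hne)]
      have := hh.dist_le_mul y x
      rwa [Real.dist_eq] at this
  · exact zero_le

theorem LE_mono (h : M → ℝ) (x : M) {η η' : ℝ} (hη : η ≤ η') : LE η h x ≤ LE η' h x := by
  refine iSup_mono fun y => ?_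
  by_cases h1 : dist y x < η
  · rw [if_pos h1, if_pos (h1.trans_le hη)]
  · rw [if_neg h1]; exact zero_le

theorem LE_lsc {h : M → ℝ} (hh : Continuous h) (η : ℝ) : LowerSemicontinuous (LE η h) := by
  refine lowerSemicontinuous_iSup fun y => ?_
  rw [lowerSemicontinuous_iff_isOpen_preimage]
  intro a
  have : (fun x => if dist y x < η then ENNReal.ofReal (|h y - h x| / dist y x) else 0) ⁻¹' Ioi a
      = {x | x ≠ y} ∩ ({x | dist y x < η} ∩ {x | x ∈ {x | x ≠ y} → a < ENNReal.ofReal (|h y - h x| / dist y x)}) := by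
    ext x
    simp only [mem_preimage, mem_Ioi, mem_inter_iff, mem_setOf_eq]
    constructor
    · intro h1
      by_cases h2 : dist y x < η
      · rw [if_pos h2] at h1
        refine ⟨?_, h2, fun _ => h1⟩
        rintro rfl
        simp at h1
      · rw [if_neg h2] at h1
        exact absurd h1 not_lt_zero'
    · rintro ⟨h1, h2, h3⟩
      rw [if_pos h2]
      exact h3 h1
  rw [this]
  have e : {x | x ≠ y} ∩ ({x | dist y x < η} ∩ {x | x ∈ {x | x ≠ y} → a < ENNReal.ofReal (|h y - h x| / dist y x)})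
      = {x | dist y x < η} ∩ ({x | x ≠ y} ∩ (fun x => ENNReal.ofReal (|h y - h x| / dist y x)) ⁻¹' Ioi a) := by
    ext x
    simp only [mem_inter_iff, mem_setOf_eq, mem_preimage, mem_Ioi]
    tauto
  rw [e]
  refine (isOpen_lt (by fun_prop) continuous_const).inter ?_
  refine ContinuousOn.isOpen_inter_preimage ?_ isOpen_ne isOpen_Ioi
  refine ENNReal.continuous_ofReal.comp_continuousOn ?_
  refine ContinuousOn.div (by fun_prop) (by fun_prop) ?_
  intro x hx
  exact (dist_pos.2 (Ne.symm hx)).ne'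

theorem LE_meas [MeasurableSpace M] [BorelSpace M] {h : M → ℝ} (hh : Continuous h) (η : ℝ) :
    Measurable (LE η h) := (LE_lsc hh η).measurable

theorem lipAt_eq_iInf (h : M → ℝ) (x : M) : lipAt h x = ⨅ η : ℝ, ⨅ _ : 0 < η, LE η h x := by
  have hb : (𝓝[≠] x).HasBasis (fun η : ℝ => 0 < η) fun η => ball x η ∩ {x}ᶜ :=
    nhdsWithin_hasBasis nhds_basis_ball _
  rw [lipAt, hb.limsup_eq_iInf_iSup]
  refine iInf_congr fun η => iInf_congr fun hη => ?_
  refine le_antisymm ?_ ?_
  · refine iSup₂_le fun y hy => ?_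
    refine le_iSup_of_le y ?_
    rw [if_pos (by simpa using hy.1)]
  · refine iSup_le fun y => ?_
    split_ifs with h1
    · rcases eq_or_ne y x with rfl | hne
      · simp
      · exact le_iSup₂_of_le y ⟨by simpa using h1, hne⟩ le_rfl
    · exact zero_le

theorem lipAt_le_LE (h : M → ℝ) (x : M) {η : ℝ} (hη : 0 < η) : lipAt h x ≤ LE η h x := by
  rw [lipAt_eq_iInf]
  exact iInf₂_le η hη

theorem tendsto_LE (h : M → ℝ) (x : M) :
    Tendsto (fun k : ℕ => LE (1 / ((k : ℝ) + 1)) h x) atTop (𝓝 (lipAt h x)) := by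
  have hanti : Antitone fun k : ℕ => LE (1 / ((k : ℝ) + 1)) h x := by
    intro i j hij
    refine LE_mono h x ?_
    have : (i : ℝ) ≤ j := by exact_mod_cast hij
    exact one_div_le_one_div_of_le (by positivity) (by linarith)
  have h1 := tendsto_atTop_iInf hanti
  have h2 : (⨅ k : ℕ, LE (1 / ((k : ℝ) + 1)) h x) = lipAt h x := by
    rw [lipAt_eq_iInf]
    refine le_antisymm ?_ ?_
    · refine le_iInf₂ fun η hη => ?_
      obtain ⟨k, hk⟩ := exists_nat_one_div_lt hη
      exact iInf_le_of_le k (LE_mono h x hk.le)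
    · refine le_iInf fun k => ?_
      exact iInf₂_le _ (by positivity)
  rwa [h2] at h1

theorem abs_sub_le_LE {L : ℝ≥0} {h : M → ℝ} (hh : LipschitzWith L h) {η : ℝ} {x z : M}
    (hz : dist z x < η) : |h x - h z| ≤ (LE η h x).toReal * dist x z := by
  rcases eq_or_ne z x with rfl | hne
  · simp
  have hd := dist_pos.2 hne
  have h1 : ENNReal.ofReal (|h z - h x| / dist z x) ≤ LE η h x := by
    refine le_iSup_of_le z ?_
    rw [if_pos hz]
  have h2 : LE η h x ≠ ∞ := ((LE_le hh η x).trans_lt ENNReal.coe_lt_top).ne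
  have h3 := (ENNReal.ofReal_le_iff_le_toReal h2).1 h1
  rw [div_le_iff₀ hd, dist_comm z x, abs_sub_comm] at h3
  exact h3

theorem LE_toReal_le {L : ℝ≥0} {h : M → ℝ} (hh : LipschitzWith L h) (η : ℝ) (x : M) :
    (LE η h x).toReal ≤ L := by
  have := ENNReal.toReal_mono ENNReal.coe_ne_top (LE_le hh η x)
  simpa using this

end lipE

section chain

variable {M : Type u} [MetricSpace M] [MeasurableSpace M] {m : Measure M}

/-- A chain of contraction plans towards `p`. -/
structure Chn (m : Measure M) (n : ℕ) (K : ℝ) (p : M) (t R : ℝ) (c : ℝ≥0)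
    (ν : ℕ → Measure M) (π : ℕ → Measure (M × M)) : Prop where
  fst : ∀ j, (π j).map Prod.fst = ν j
  snd : ∀ j, (π j).map Prod.snd = ν (j + 1)
  rel : ∀ j, ∀ᵐ q ∂π j, dist q.1 q.2 = t * dist q.1 p ∧ dist q.2 p = (1 - t) * dist q.1 p
  le : ∀ j, ν j ≤ (c * (Real.toNNReal (((1 - t) ^ n)⁻¹)) ^ j) • mV m K p
  supp : ∀ j, ν j (closedBall p ((1 - t) ^ j * R))ᶜ = 0

variable [BorelSpace M]

theorem chn_exists {n : ℕ} {K : ℝ} (h : OS m n K) (p : M) {t : ℝ} (ht : 0 < t) (ht1 : t < 1)
    (R : ℝ) (c : ℝ≥0) (ν₀ : Measure M) (h1 : ν₀ ≤ c • mV m K p)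
    (h2 : ν₀ (closedBall p R)ᶜ = 0) :
    ∃ ν π, Chn m n K p t R c ν π ∧ ν 0 = ν₀ := by
  classical
  set a : ℝ≥0 := Real.toNNReal (((1 - t) ^ n)⁻¹) with ha
  let P : ℕ → Measure M → Prop := fun j ν => ν ≤ (c * a ^ j) • mV m K p ∧
    ν (closedBall p ((1 - t) ^ j * R))ᶜ = 0
  have step : ∀ (j : ℕ) (ν : Measure M), P j ν → ∃ π : Measure (M × M), π.map Prod.fst = ν ∧
      (∀ᵐ q ∂π, dist q.1 q.2 = t * dist q.1 p ∧ dist q.2 p = (1 - t) * dist q.1 p) ∧
      P (j + 1) (π.map Prod.snd) := by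
    intro j ν hν
    obtain ⟨π, e1, e2, e3⟩ := h p t ht ht1 ν (c * a ^ j) _ hν.1 hν.2
    refine ⟨π, e1, e2, ?_, ?_⟩
    · rw [pow_succ, ← mul_assoc]
      exact e3
    · rw [Measure.map_apply measurable_snd isClosed_closedBall.measurableSet.compl]
      have e4 : ∀ᵐ q ∂π, q.1 ∈ closedBall p ((1 - t) ^ j * R) := by
        have : π (Prod.fst ⁻¹' (closedBall p ((1 - t) ^ j * R))ᶜ) = 0 := by
          rw [← Measure.map_apply measurable_fst isClosed_closedBall.measurableSet.compl, e1]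
          exact hν.2
        rw [ae_iff]
        exact this
      have e5 : ∀ᵐ q ∂π, ¬ (q ∈ Prod.snd ⁻¹' (closedBall p ((1 - t) ^ (j + 1) * R))ᶜ) := by
        filter_upwards [e2, e4] with q q1 q2
        simp only [mem_preimage, mem_compl_iff, mem_closedBall, not_not] at q2 ⊢
        rw [q1.2, pow_succ, mul_comm ((1 - t) ^ j), mul_assoc]
        exact mul_le_mul_of_nonneg_left q2 (by linarith)
      rw [ae_iff] at e5
      convert e5 using 2
      ext q
      simp
  choose F hF using step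
  have h0 : P 0 ν₀ := by
    refine ⟨by simpa using h1, by simpa using h2⟩
  let s : (j : ℕ) → {ν : Measure M // P j ν} := fun j =>
    Nat.rec (motive := fun j => {ν : Measure M // P j ν}) ⟨ν₀, h0⟩
      (fun j ν => ⟨(F j ν.1 ν.2).map Prod.snd, (hF j ν.1 ν.2).2.2⟩) j
  refine ⟨fun j => (s j).1, fun j => F j (s j).1 (s j).2, ?_, rfl⟩
  constructor
  · intro j
    exact (hF j (s j).1 (s j).2).1
  · intro j
    rfl
  · intro j
    exact (hF j (s j).1 (s j).2).2.1
  · intro j
    exact (s j).2.1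
  · intro j
    exact (s j).2.2

end chain

end Vale.Agent.P233.H227.Ch
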