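import Vale.Agent.P233.H227.Ch1

/-!
P233, stage 3b (helper227): the energy inequality along chains of contraction plans.
-/

set_option linter.all false

open MeasureTheory Metric Set Filter Topology
open scoped ENNReal NNReal

universe u

namespace Vale.Agent.P233.H227.Ch

variable {M : Type u} [MetricSpace M] [MeasurableSpace M] [BorelSpace M]
  [SecondCountableTopology M] {m : Measure M}

theorem VV_cont (K : ℝ) (p : M) : Continuous (VV K p) := by
  unfold VV
  fun_prop

theorem VV_pos (K : ℝ) (p x : M) : 0 < VV K p x := Real.exp_pos _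

theorem VV_le (K : ℝ) (p x : M) {R : ℝ} (hx : x ∈ closedBall p R) :
    VV K p x ≤ Real.exp (|K| * R ^ 2 / 6) := by
  unfold VV
  refine Real.exp_le_exp.2 ?_
  have h0 : 0 ≤ dist x p := dist_nonneg
  have h1 : dist x p ≤ R := hx
  have h2 : dist x p ^ 2 ≤ R ^ 2 := by gcongr
  have h3 : K * dist x p ^ 2 ≤ |K| * R ^ 2 :=
    (mul_le_mul_of_nonneg_right (le_abs_self K) (sq_nonneg _)).trans
      (mul_le_mul_of_nonneg_left h2 (abs_nonneg K))
  linarith

theorem mV_restrict_le (m : Measure M) (K : ℝ) (p : M) (R : ℝ) :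
    (mV m K p).restrict (closedBall p R) ≤
      ENNReal.ofReal (Real.exp (|K| * R ^ 2 / 6)) • m := by
  refine Measure.le_iff.2 fun s hs => ?_
  rw [Measure.restrict_apply hs, mV, withDensity_apply _ (hs.inter isClosed_closedBall.measurableSet),
    Measure.smul_apply, smul_eq_mul]
  calc ∫⁻ x in s ∩ closedBall p R, ENNReal.ofReal (VV K p x) ∂m
      ≤ ∫⁻ x in s ∩ closedBall p R, ENNReal.ofReal (Real.exp (|K| * R ^ 2 / 6)) ∂m := by
        refine setLIntegral_mono' (hs.inter isClosed_closedBall.measurableSet) fun x hx => ?_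
        exact ENNReal.ofReal_le_ofReal (VV_le K p x hx.2)
    _ = ENNReal.ofReal (Real.exp (|K| * R ^ 2 / 6)) * m (s ∩ closedBall p R) := by
        rw [setLIntegral_const]
    _ ≤ _ := by gcongr; exact inter_subset_left

theorem mV_fin (hfin : ∀ (x : M) (r : ℝ), m (ball x r) < ∞) (K : ℝ) (p : M) (R : ℝ) :
    mV m K p (closedBall p R) < ∞ := by
  have h1 := Measure.le_iff.1 (mV_restrict_le m K p R) (closedBall p R)
    isClosed_closedBall.measurableSet
  rw [Measure.restrict_apply isClosed_closedBall.measurableSet, inter_self,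
    Measure.smul_apply, smul_eq_mul] at h1
  refine h1.trans_lt (ENNReal.mul_lt_top ENNReal.ofReal_lt_top ?_)
  exact (measure_mono (closedBall_subset_ball (lt_add_one R))).trans_lt (hfin p _)

/-- integrals with respect to a measure with bounded density -/
theorem lint_le {ν : Measure M} {C : ℝ≥0} {K R : ℝ} {p : M} (h1 : ν ≤ C • mV m K p)
    (h2 : ν (closedBall p R)ᶜ = 0) (F : M → ℝ≥0∞) :
    ∫⁻ x, F x ∂ν ≤ C * ∫⁻ x in closedBall p R, F x ∂(mV m K p) := by
  have e1 : ν = ν.restrict (closedBall p R) := by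
    rw [Measure.restrict_eq_self_of_ae_mem]
    rw [ae_iff]; exact h2
  rw [e1]
  calc ∫⁻ x, F x ∂ν.restrict (closedBall p R)
      ≤ ∫⁻ x, F x ∂(C • mV m K p).restrict (closedBall p R) := by
        exact lintegral_mono' (Measure.restrict_mono le_rfl h1) le_rfl
    _ = C * ∫⁻ x in closedBall p R, F x ∂(mV m K p) := by
        rw [Measure.restrict_smul, lintegral_smul_measure]
        rfl

theorem finite_of {ν : Measure M} {C : ℝ≥0} {K R : ℝ} {p : M}
    (hfin : ∀ (x : M) (r : ℝ), m (ball x r) < ∞) (h1 : ν ≤ C • mV m K p)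
    (h2 : ν (closedBall p R)ᶜ = 0) : IsFiniteMeasure ν := by
  constructor
  have := lint_le (m := m) h1 h2 (fun _ => 1)
  rw [lintegral_one, lintegral_one, Measure.restrict_apply_univ] at this
  exact this.trans_lt (ENNReal.mul_lt_top ENNReal.coe_lt_top (mV_fin hfin K p R))

theorem integrable_of {ν : Measure M} {C : ℝ≥0} {K R : ℝ} {p : M} (h1 : ν ≤ C • mV m K p)
    (h2 : ν (closedBall p R)ᶜ = 0) {F : M → ℝ} (hF : IntegrableOn F (closedBall p R) (mV m K p)) :
    Integrable F ν := by
  have e1 : ν = ν.restrict (closedBall p R) := by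
    rw [Measure.restrict_eq_self_of_ae_mem]
    rw [ae_iff]; exact h2
  rw [e1]
  have h3 : ν.restrict (closedBall p R) ≤ C • (mV m K p).restrict (closedBall p R) := by
    rw [← Measure.restrict_smul]
    exact Measure.restrict_mono le_rfl h1
  exact (hF.smul_measure_nnreal (c := C)).mono_measure h3

theorem int_le {ν : Measure M} {C : ℝ≥0} {K R : ℝ} {p : M} (h1 : ν ≤ C • mV m K p)
    (h2 : ν (closedBall p R)ᶜ = 0) {F : M → ℝ} (hF : IntegrableOn F (closedBall p R) (mV m K p))
    (hF0 : ∀ x, 0 ≤ F x) :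
    ∫ x, F x ∂ν ≤ C * ∫ x in closedBall p R, F x ∂(mV m K p) := by
  have hν := integrable_of h1 h2 hF
  have h3 := lint_le (m := m) h1 h2 (fun x => ENNReal.ofReal (F x))
  rw [← ofReal_integral_eq_lintegral_ofReal hν (Eventually.of_forall hF0),
    ← ofReal_integral_eq_lintegral_ofReal hF (Eventually.of_forall hF0)] at h3
  have h4 : (C : ℝ≥0∞) * ENNReal.ofReal (∫ x in closedBall p R, F x ∂(mV m K p))
      = ENNReal.ofReal (C * ∫ x in closedBall p R, F x ∂(mV m K p)) := by
    rw [ENNReal.ofReal_mul C.coe_nonneg, ENNReal.ofReal_coe_nnreal]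
  rw [h4] at h3
  refine (ENNReal.ofReal_le_ofReal_iff ?_).1 h3
  exact mul_nonneg C.coe_nonneg (integral_nonneg hF0)

theorem integrable_cont {ν : Measure M} [IsFiniteMeasure ν] {R : ℝ} {p : M}
    (h2 : ν (closedBall p R)ᶜ = 0) {F : M → ℝ} (hF : AEStronglyMeasurable F ν) {B : ℝ}
    (hB : ∀ x ∈ closedBall p R, |F x| ≤ B) : Integrable F ν := by
  refine Integrable.of_bound hF B ?_
  have : ∀ᵐ x ∂ν, x ∈ closedBall p R := by rw [ae_iff]; exact h2
  filter_upwards [this] with x hx
  exact hB x hx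

theorem lip_bdd {L : ℝ≥0} {h : M → ℝ} (hh : LipschitzWith L h) (p : M) {R : ℝ} {x : M}
    (hx : x ∈ closedBall p R) : |h x| ≤ |h p| + L * R := by
  have h1 := hh.dist_le_mul x p
  rw [Real.dist_eq] at h1
  have h2 : (L : ℝ) * dist x p ≤ L * R := mul_le_mul_of_nonneg_left hx L.coe_nonneg
  have h3 : |h x| ≤ |h x - h p| + |h p| := by
    have := abs_add_le (h x - h p) (h p)
    simpa using this
  linarith

section step

variable {n : ℕ} {K t R : ℝ} {p : M} {c : ℝ≥0} {ν : ℕ → Measure M} {π : ℕ → Measure (M × M)}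

theorem Chn.ae_mem (hC : Chn m n K p t R c ν π) (ht : 0 < t) (ht1 : t < 1) (hR : 0 ≤ R) (j : ℕ) :
    ν j (closedBall p R)ᶜ = 0 := by
  refine measure_mono_null ?_ (hC.supp j)
  refine compl_subset_compl.2 (closedBall_subset_closedBall ?_)
  have : (1 - t) ^ j ≤ 1 := pow_le_one₀ (by linarith) (by linarith)
  nlinarith

theorem Chn.fin (hC : Chn m n K p t R c ν π) (hfin : ∀ (x : M) (r : ℝ), m (ball x r) < ∞) (j : ℕ) :
    IsFiniteMeasure (ν j) := finite_of hfin (hC.le j) (hC.supp j)

theorem Chn.finπ (hC : Chn m n K p t R c ν π) (hfin : ∀ (x : M) (r : ℝ), m (ball x r) < ∞)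
    (j : ℕ) : IsFiniteMeasure (π j) := by
  constructor
  have h1 := hC.fin hfin j
  have h2 : π j univ = ν j univ := by
    rw [← hC.fst j, Measure.map_apply measurable_fst MeasurableSet.univ, preimage_univ]
  rw [h2]
  exact measure_lt_top _ _

theorem Chn.radial (hC : Chn m n K p t R c ν π) {F : ℝ → ℝ} (hF : Continuous F) (j : ℕ) :
    ∫ x, F (dist x p) ∂ν (j + 1) = ∫ x, F ((1 - t) * dist x p) ∂ν j := by
  rw [← hC.snd j, ← hC.fst j]
  rw [integral_map measurable_snd.aemeasurable (by fun_prop),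
    integral_map measurable_fst.aemeasurable (by fun_prop)]
  refine integral_congr_ae ?_
  filter_upwards [hC.rel j] with q hq
  rw [hq.2]

theorem Chn.radial' (hC : Chn m n K p t R c ν π) {F : ℝ → ℝ} (hF : Continuous F) (N : ℕ) :
    ∫ x, F (dist x p) ∂ν N = ∫ x, F ((1 - t) ^ N * dist x p) ∂ν 0 := by
  induction N generalizing F with
  | zero => simp
  | succ N ih =>
    rw [hC.radial hF N, ih (F := fun r => F ((1 - t) * r)) (by fun_prop)]
    refine integral_congr_ae (Eventually.of_forall fun x => ?_)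
    simp only
    congr 1
    rw [pow_succ]
    ring

theorem Chn.step (hC : Chn m n K p t R c ν π) (hfin : ∀ (x : M) (r : ℝ), m (ball x r) < ∞)
    (ht : 0 < t) (ht1 : t < 1) (hR : 0 ≤ R) {L : ℝ≥0} {h : M → ℝ} (hh : LipschitzWith L h)
    {η : ℝ} (hη : t * R < η) (j : ℕ) :
    ∫ x, h x ∂ν j - ∫ x, h x ∂ν (j + 1) ≤ ∫ x, (LE η h x).toReal * (t * dist x p) ∂ν j := by
  haveI := hC.fin hfin j
  haveI := hC.fin hfin (j + 1)
  haveI := hC.finπ hfin j
  have a0 := hC.ae_mem ht ht1 hR j
  have a1 := hC.ae_mem ht ht1 hR (j + 1)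
  have i0 : Integrable h (ν j) := integrable_cont a0 hh.continuous.aestronglyMeasurable
    fun x hx => lip_bdd hh p hx
  have i1 : Integrable h (ν (j + 1)) := integrable_cont a1 hh.continuous.aestronglyMeasurable
    fun x hx => lip_bdd hh p hx
  have hm : Measurable fun x => (LE η h x).toReal * (t * dist x p) :=
    (LE_meas hh.continuous η).ennreal_toReal.mul (by fun_prop)
  have i2 : Integrable (fun x => (LE η h x).toReal * (t * dist x p)) (ν j) := by
    refine integrable_cont a0 hm.aestronglyMeasurable (B := L * (t * R)) fun x hx => ?_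
    have hx' : dist x p ≤ R := hx
    rw [abs_mul, abs_of_nonneg ENNReal.toReal_nonneg, abs_of_nonneg (by positivity)]
    exact mul_le_mul (LE_toReal_le hh η x) (mul_le_mul_of_nonneg_left hx' ht.le) (by positivity)
      L.coe_nonneg
  rw [← hC.snd j] at i1 ⊢
  rw [← hC.fst j] at i0 i2 ⊢
  have a0' : ∀ᵐ q ∂π j, q.1 ∈ closedBall p R := by
    rw [ae_iff]
    rw [← hC.fst j, Measure.map_apply measurable_fst isClosed_closedBall.measurableSet.compl] at a0
    exact a0
  rw [integral_map measurable_snd.aemeasurable i1.1, integral_map measurable_fst.aemeasurable i0.1,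
    integral_map measurable_fst.aemeasurable i2.1]
  have j0 := (integrable_map_measure i0.1 measurable_fst.aemeasurable).1 i0
  have j1 := (integrable_map_measure i1.1 measurable_snd.aemeasurable).1 i1
  have j2 := (integrable_map_measure i2.1 measurable_fst.aemeasurable).1 i2
  simp only [Function.comp_def] at j0 j1 j2
  rw [← integral_sub j0 j1]
  refine integral_mono_ae (j0.sub j1) j2 ?_
  filter_upwards [hC.rel j, a0'] with q hq hq'
  have hq1 : dist q.1 p ≤ R := hq'
  have h3 : dist q.2 q.1 < η := by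
    rw [dist_comm, hq.1]
    exact (mul_le_mul_of_nonneg_left hq1 ht.le).trans_lt hη
  have h4 := abs_sub_le_LE hh h3
  rw [hq.1] at h4
  exact (le_abs_self _).trans h4

theorem Chn.sum (hC : Chn m n K p t R c ν π) (hfin : ∀ (x : M) (r : ℝ), m (ball x r) < ∞)
    (ht : 0 < t) (ht1 : t < 1) (hR : 0 ≤ R) {L : ℝ≥0} {h : M → ℝ} (hh : LipschitzWith L h)
    {η : ℝ} (hη : t * R < η) (N : ℕ) :
    ∫ x, h x ∂ν 0 - ∫ x, h x ∂ν N
      ≤ ∑ j ∈ Finset.range N, ∫ x, (LE η h x).toReal * (t * dist x p) ∂ν j := by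
  induction N with
  | zero => simp
  | succ N ih =>
    rw [Finset.sum_range_succ]
    have := hC.step hfin ht ht1 hR hh hη N
    linarith

end step

end Vale.Agent.P233.H227.Ch
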