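import Vale.Agent.P233.H227.Ch2

/-!
P233, stage 3b (helper227): the energy inequality along chains of contraction plans, fine mesh.
-/

set_option linter.all false

open MeasureTheory Metric Set Filter Topology
open scoped ENNReal NNReal

universe u

namespace Vale.Agent.P233.H227.Ch

variable {M : Type u} [MetricSpace M] [MeasurableSpace M] [BorelSpace M]
  [SecondCountableTopology M] {m : Measure M}

section sums

variable {n : ℕ} {K t R : ℝ} {p : M} {c : ℝ≥0} {ν : ℕ → Measure M} {π : ℕ → Measure (M × M)}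

theorem one_le_a {n : ℕ} {t : ℝ} (ht : 0 < t) (ht1 : t < 1) :
    (1 : ℝ≥0) ≤ Real.toNNReal (((1 - t) ^ n)⁻¹) := by
  rw [Real.one_le_toNNReal]
  refine (one_le_inv₀ (pow_pos (by linarith) n)).2 ?_
  exact pow_le_one₀ (by linarith) (by linarith)

theorem Chn.le' (hC : Chn m n K p t R c ν π) (ht : 0 < t) (ht1 : t < 1) {j N : ℕ} (hj : j ≤ N) :
    ν j ≤ (c * (Real.toNNReal (((1 - t) ^ n)⁻¹)) ^ N) • mV m K p := by
  refine (hC.le j).trans ?_
  refine Measure.le_iff.2 fun s hs => ?_
  rw [Measure.smul_apply, Measure.smul_apply]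
  have h1 : (c * (Real.toNNReal (((1 - t) ^ n)⁻¹)) ^ j) ≤
      (c * (Real.toNNReal (((1 - t) ^ n)⁻¹)) ^ N) :=
    mul_le_mul_right (pow_le_pow_right₀ (one_le_a ht ht1) hj) c
  exact mul_le_mul_left (ENNReal.coe_le_coe.2 h1) _

theorem ion_bdd (hfin : ∀ (x : M) (r : ℝ), m (ball x r) < ∞) (K : ℝ) (p : M) (R : ℝ)
    {F : M → ℝ} (hF : Measurable F) {B : ℝ} (hB : ∀ x ∈ closedBall p R, |F x| ≤ B) :
    IntegrableOn F (closedBall p R) (mV m K p) := by
  have h1 := mV_fin hfin K p R
  refine Measure.integrableOn_of_bounded (M := B) h1.ne hF.aestronglyMeasurable ?_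
  rw [ae_restrict_iff' isClosed_closedBall.measurableSet]
  exact Eventually.of_forall hB

theorem Chn.E1 (hC : Chn m n K p t R c ν π) (hfin : ∀ (x : M) (r : ℝ), m (ball x r) < ∞)
    (ht : 0 < t) (ht1 : t < 1) (hR : 0 ≤ R) {L : ℝ≥0} {h : M → ℝ} (hh : LipschitzWith L h)
    {η : ℝ} (hη : t * R < η) (N : ℕ) :
    ∫ x, h x ∂ν 0 - ∫ x, h x ∂ν N
      ≤ N * t / 2 * ((c * (Real.toNNReal (((1 - t) ^ n)⁻¹)) ^ N : ℝ≥0) : ℝ) *
        (∫ x in closedBall p R, (LE η h x).toReal ^ 2 ∂(mV m K p)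
          + ∫ x in closedBall p R, dist x p ^ 2 ∂(mV m K p)) := by
  refine (hC.sum hfin ht ht1 hR hh hη N).trans ?_
  set C : ℝ≥0 := c * (Real.toNNReal (((1 - t) ^ n)⁻¹)) ^ N with hCdef
  have hm : Measurable fun x => (LE η h x).toReal := (LE_meas hh.continuous η).ennreal_toReal
  have b1 : ∀ x ∈ closedBall p R, |(LE η h x).toReal ^ 2| ≤ (L : ℝ) ^ 2 := by
    intro x _
    rw [abs_of_nonneg (sq_nonneg _)]
    exact pow_le_pow_left₀ ENNReal.toReal_nonneg (LE_toReal_le hh η x) 2
  have b2 : ∀ x ∈ closedBall p R, |dist x p ^ 2| ≤ R ^ 2 := by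
    intro x hx
    rw [abs_of_nonneg (sq_nonneg _)]
    exact pow_le_pow_left₀ dist_nonneg hx 2
  have i1 := ion_bdd (m := m) hfin K p R (hm.pow_const 2) b1
  have i2 := ion_bdd (m := m) hfin K p R (F := fun x => dist x p ^ 2) (by fun_prop) b2
  have key : ∀ j ∈ Finset.range N, ∫ x, (LE η h x).toReal * (t * dist x p) ∂ν j
      ≤ t / 2 * (C * (∫ x in closedBall p R, (LE η h x).toReal ^ 2 ∂(mV m K p)
          + ∫ x in closedBall p R, dist x p ^ 2 ∂(mV m K p))) := by
    intro j hj
    have hj' : j ≤ N := (Finset.mem_range.1 hj).le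
    have a0 := hC.ae_mem ht ht1 hR j
    have l0 := hC.le' ht ht1 hj'
    haveI := hC.fin hfin j
    have i3 : IntegrableOn (fun x => (LE η h x).toReal ^ 2 + dist x p ^ 2) (closedBall p R)
      (mV m K p) := i1.add i2
    have h1 := int_le l0 a0 i3 (fun x => by positivity)
    rw [integral_add i1 i2] at h1
    have h2 : ∫ x, (LE η h x).toReal * (t * dist x p) ∂ν j
        ≤ ∫ x, t / 2 * ((LE η h x).toReal ^ 2 + dist x p ^ 2) ∂ν j := by
      refine integral_mono_of_nonneg (Eventually.of_forall fun x => by positivity)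
        ((integrable_of l0 a0 i3).const_mul _) (Eventually.of_forall fun x => ?_)
      simp only
      nlinarith [mul_nonneg ht.le (sq_nonneg ((LE η h x).toReal - dist x p))]
    rw [integral_const_mul] at h2
    exact h2.trans (mul_le_mul_of_nonneg_left h1 (by positivity))
  refine (Finset.sum_le_sum key).trans (le_of_eq ?_)
  rw [Finset.sum_const, Finset.card_range, nsmul_eq_mul]
  ring

theorem Chn.E2 (hC : Chn m n K p t R c ν π) (hfin : ∀ (x : M) (r : ℝ), m (ball x r) < ∞)
    (ht : 0 < t) (ht1 : t < 1) (hR : 0 ≤ R) {L : ℝ≥0} {h : M → ℝ} (hh : LipschitzWith L h)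
    {η : ℝ} (hη : t * R < η) (N : ℕ) :
    ∫ x, h x ∂ν 0 - ∫ x, h x ∂ν N
      ≤ (∫ x, dist x p ∂ν 0 - ∫ x, dist x p ∂ν N) +
      N * t * R * ((c * (Real.toNNReal (((1 - t) ^ n)⁻¹)) ^ N : ℝ≥0) : ℝ) *
        ∫ x in closedBall p R, max ((LE η h x).toReal - 1) 0 ∂(mV m K p) := by
  refine (hC.sum hfin ht ht1 hR hh hη N).trans ?_
  set C : ℝ≥0 := c * (Real.toNNReal (((1 - t) ^ n)⁻¹)) ^ N with hCdef
  have hm : Measurable fun x => (LE η h x).toReal := (LE_meas hh.continuous η).ennreal_toReal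
  have hm' : Measurable fun x => max ((LE η h x).toReal - 1) 0 := (hm.sub_const 1).max measurable_const
  have b1 : ∀ x ∈ closedBall p R, |max ((LE η h x).toReal - 1) 0| ≤ (L : ℝ) + 1 := by
    intro x _
    have := LE_toReal_le hh η x
    rw [abs_of_nonneg (le_max_right _ _)]
    exact max_le (by linarith) (by positivity)
  have i1 := ion_bdd (m := m) hfin K p R hm' b1
  have key : ∀ j ∈ Finset.range N, ∫ x, (LE η h x).toReal * (t * dist x p) ∂ν j
      ≤ (∫ x, dist x p ∂ν j - ∫ x, dist x p ∂ν (j + 1)) + t * R * (C *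
        ∫ x in closedBall p R, max ((LE η h x).toReal - 1) 0 ∂(mV m K p)) := by
    intro j hj
    have hj' : j ≤ N := (Finset.mem_range.1 hj).le
    have a0 := hC.ae_mem ht ht1 hR j
    have l0 := hC.le' ht ht1 hj'
    haveI := hC.fin hfin j
    have h1 := int_le l0 a0 i1 (fun x => le_max_right _ _)
    have hr := hC.radial (F := id) continuous_id j
    simp only [id] at hr
    rw [integral_const_mul] at hr
    have i4 : Integrable (fun x => dist x p) (ν j) := integrable_cont a0
      (by fun_prop) (B := R) fun x hx => by rw [abs_of_nonneg dist_nonneg]; exact hx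
    have h2 : ∫ x, (LE η h x).toReal * (t * dist x p) ∂ν j
        ≤ ∫ x, (t * dist x p + t * R * max ((LE η h x).toReal - 1) 0) ∂ν j := by
      refine integral_mono_of_nonneg (Eventually.of_forall fun x => by positivity)
        ((i4.const_mul _).add ((integrable_of l0 a0 i1).const_mul _)) ?_
      have : ∀ᵐ x ∂ν j, x ∈ closedBall p R := by rw [ae_iff]; exact a0
      filter_upwards [this] with x hx
      have hx' : dist x p ≤ R := hx
      have d0 : 0 ≤ dist x p := dist_nonneg
      have e1 : (LE η h x).toReal ≤ 1 + max ((LE η h x).toReal - 1) 0 := by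
        have := le_max_left ((LE η h x).toReal - 1) 0
        linarith
      have e2 := mul_le_mul_of_nonneg_right e1 (mul_nonneg ht.le d0)
      have e3 : max ((LE η h x).toReal - 1) 0 * (t * dist x p)
          ≤ max ((LE η h x).toReal - 1) 0 * (t * R) :=
        mul_le_mul_of_nonneg_left (mul_le_mul_of_nonneg_left hx' ht.le) (le_max_right _ _)
      nlinarith
    rw [integral_add (i4.const_mul _) ((integrable_of l0 a0 i1).const_mul _), integral_const_mul,
      integral_const_mul] at h2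
    have h3 := mul_le_mul_of_nonneg_left h1 (mul_nonneg ht.le hR)
    rw [hr]
    linarith
  refine (Finset.sum_le_sum key).trans (le_of_eq ?_)
  rw [Finset.sum_add_distrib, Finset.sum_range_sub', Finset.sum_const, Finset.card_range,
    nsmul_eq_mul]
  ring

end sums

/-- admissible result of a contraction of total length `S` -/
structure Adm (m : Measure M) (n : ℕ) (K : ℝ) (p : M) (S R : ℝ) (c : ℝ≥0) (ν₀ ν : Measure M) :
    Prop where
  le : ν ≤ (c * Real.toNNReal (Real.exp (n * S))) • mV m K p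
  supp : ν (closedBall p (Real.exp (-S) * R))ᶜ = 0
  rad : ∀ F : ℝ → ℝ, Continuous F →
    ∫ x, F (dist x p) ∂ν = ∫ x, F (Real.exp (-S) * dist x p) ∂ν₀

theorem one_sub_exp (S : ℝ) (N : ℕ) (hN : 0 < N) :
    (1 - (1 - Real.exp (-(S / N)))) ^ N = Real.exp (-S) := by
  have : (N : ℝ) ≠ 0 := by positivity
  rw [sub_sub_cancel, ← Real.exp_nat_mul]
  congr 1
  field_simp

theorem a_pow (n : ℕ) (S : ℝ) (N : ℕ) (hN : 0 < N) :
    (Real.toNNReal (((1 - (1 - Real.exp (-(S / N)))) ^ n)⁻¹)) ^ N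
      = Real.toNNReal (Real.exp (n * S)) := by
  have : (N : ℝ) ≠ 0 := by positivity
  rw [sub_sub_cancel, ← Real.exp_nat_mul, ← Real.exp_neg, ← Real.toNNReal_pow (Real.exp_pos _).le,
    ← Real.exp_nat_mul]
  congr 2
  field_simp

theorem Nt_le {S : ℝ} {N : ℕ} (hN : 0 < N) : N * (1 - Real.exp (-(S / N))) ≤ S := by
  have h0 : (0 : ℝ) < N := by positivity
  have h1 := Real.add_one_le_exp (-(S / N))
  have h2 : 1 - Real.exp (-(S / N)) ≤ S / N := by linarith
  calc N * (1 - Real.exp (-(S / N))) ≤ N * (S / N) := mul_le_mul_of_nonneg_left h2 h0.le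
    _ = S := by field_simp

theorem tendsto_int_LE (hfin : ∀ (x : M) (r : ℝ), m (ball x r) < ∞) (K : ℝ) (p : M) (R : ℝ)
    {L : ℝ≥0} {h : M → ℝ} (hh : LipschitzWith L h) {Φ : ℝ → ℝ} (hΦ : Continuous Φ) :
    Tendsto (fun k : ℕ => ∫ x in closedBall p R, Φ (LE (1 / ((k : ℝ) + 1)) h x).toReal ∂(mV m K p))
      atTop (𝓝 (∫ x in closedBall p R, Φ (lipAt h x).toReal ∂(mV m K p))) := by
  obtain ⟨B, hB⟩ := (isCompact_Icc (a := (0 : ℝ)) (b := L)).exists_bound_of_continuousOn
    hΦ.continuousOn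
  have hf : IsFiniteMeasure ((mV m K p).restrict (closedBall p R)) :=
    ⟨by rw [Measure.restrict_apply_univ]; exact mV_fin hfin K p R⟩
  refine tendsto_integral_of_dominated_convergence (fun _ => B) (fun k => ?_)
    (integrable_const B) (fun k => ?_) ?_
  · exact (hΦ.measurable.comp (LE_meas hh.continuous _).ennreal_toReal).aestronglyMeasurable
  · exact Eventually.of_forall fun x => hB _ ⟨ENNReal.toReal_nonneg, LE_toReal_le hh _ x⟩
  · refine Eventually.of_forall fun x => ?_
    have h1 : lipAt h x ≠ ∞ :=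
      ((lipAt_le_LE h x one_pos).trans_lt ((LE_le hh 1 x).trans_lt ENNReal.coe_lt_top)).ne
    exact (hΦ.tendsto _).comp ((ENNReal.tendsto_toReal h1).comp (tendsto_LE h x))

end Vale.Agent.P233.H227.Ch
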