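import Vale.Agent.P233.H227.Ch3

/-!
P233, stage 3b (helper227): the energy inequality for Lipschitz functions and for Sobolev functions.
-/

set_option linter.all false

open MeasureTheory Metric Set Filter Topology
open scoped ENNReal NNReal

universe u

namespace Vale.Agent.P233.H227.Ch

variable {M : Type u} [MetricSpace M] [MeasurableSpace M] [BorelSpace M]
  [SecondCountableTopology M] {m : Measure M}

section mesh

variable {n : ℕ} {K R : ℝ} {p : M} {c : ℝ≥0}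

/-- fine mesh -/
theorem mesh (h : OS m n K) (hfin : ∀ (x : M) (r : ℝ), m (ball x r) < ∞) (hR : 0 ≤ R) {S : ℝ}
    (hS : 0 < S) {ν₀ : Measure M} (h1 : ν₀ ≤ c • mV m K p) (h2 : ν₀ (closedBall p R)ᶜ = 0)
    {η : ℝ} (hη : 0 < η) :
    ∃ (N : ℕ) (t : ℝ) (ν : ℕ → Measure M) (π : ℕ → Measure (M × M)),
      0 < t ∧ t < 1 ∧ t * R < η ∧ N * t ≤ S ∧ Chn m n K p t R c ν π ∧ ν 0 = ν₀ ∧
      (Real.toNNReal (((1 - t) ^ n)⁻¹)) ^ N = Real.toNNReal (Real.exp (n * S)) ∧
      Adm m n K p S R c ν₀ (ν N) := by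
  obtain ⟨N, hN⟩ := exists_nat_gt (max (S * R / η) 0)
  have hN0 : (0 : ℝ) < N := (le_max_right _ _).trans_lt hN
  have hN1 : S * R / η < N := (le_max_left _ _).trans_lt hN
  have hN2 : 0 < N := by exact_mod_cast hN0
  set t : ℝ := 1 - Real.exp (-(S / N)) with ht
  have hSN : 0 < S / N := by positivity
  have ht0 : 0 < t := by
    have : Real.exp (-(S / N)) < 1 := by
      simpa using Real.exp_lt_exp.2 (by linarith : -(S / N) < 0)
    linarith
  have ht1 : t < 1 := by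
    have := Real.exp_pos (-(S / N))
    linarith
  have htR : t * R < η := by
    have h3 : t ≤ S / N := by
      have := Real.add_one_le_exp (-(S / N))
      linarith
    calc t * R ≤ S / N * R := mul_le_mul_of_nonneg_right h3 hR
      _ = S * R / N := by ring
      _ < η := by
        rw [div_lt_iff₀ hN0]
        rw [div_lt_iff₀ hη] at hN1
        linarith
  obtain ⟨ν, π, hC, h0⟩ := chn_exists h p ht0 ht1 R c ν₀ h1 h2
  have hp : (1 - t) ^ N = Real.exp (-S) := one_sub_exp S N hN2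
  have ha : (Real.toNNReal (((1 - t) ^ n)⁻¹)) ^ N = Real.toNNReal (Real.exp (n * S)) :=
    a_pow n S N hN2
  refine ⟨N, t, ν, π, ht0, ht1, htR, Nt_le hN2, hC, h0, ha, ?_, ?_, ?_⟩
  · have := hC.le N
    rwa [ha] at this
  · have := hC.supp N
    rwa [hp] at this
  · intro F hF
    rw [hC.radial' hF N, hp, h0]

/-- the energy inequality for Lipschitz functions -/
theorem lip_E1 (h : OS m n K) (hfin : ∀ (x : M) (r : ℝ), m (ball x r) < ∞) (hR : 0 ≤ R) {S : ℝ}
    (hS : 0 < S) {ν₀ : Measure M} (h1 : ν₀ ≤ c • mV m K p) (h2 : ν₀ (closedBall p R)ᶜ = 0)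
    {L : ℝ≥0} {u : M → ℝ} (hu : LipschitzWith L u) {ε : ℝ} (hε : 0 < ε) :
    ∃ ν, Adm m n K p S R c ν₀ ν ∧ ∫ x, u x ∂ν₀ - ∫ x, u x ∂ν
      ≤ S / 2 * (c * Real.exp (n * S)) *
        (∫ x in closedBall p R, (lipAt u x).toReal ^ 2 ∂(mV m K p)
          + ∫ x in closedBall p R, dist x p ^ 2 ∂(mV m K p)) + ε := by
  set D : ℝ := S / 2 * (c * Real.exp (n * S)) with hD
  have hD0 : 0 ≤ D := by positivity
  have hlim := (tendsto_int_LE hfin K p R hu (Φ := fun s => s ^ 2) (by fun_prop)).const_mul D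
  obtain ⟨k, hk⟩ := ((tendsto_order.1 hlim).2 _ (lt_add_of_pos_right _ hε)).exists
  obtain ⟨N, t, ν, π, ht0, ht1, htR, hNt, hC, h0, ha, hA⟩ :=
    mesh h hfin hR hS h1 h2 (η := 1 / ((k : ℝ) + 1)) (by positivity)
  refine ⟨ν N, hA, ?_⟩
  have e1 := hC.E1 hfin ht0 ht1 hR hu htR N
  rw [h0, ha] at e1
  have hI0 : 0 ≤ ∫ x in closedBall p R, (LE (1 / ((k : ℝ) + 1)) u x).toReal ^ 2 ∂(mV m K p) :=
    integral_nonneg fun x => by positivity
  have hI1 : 0 ≤ ∫ x in closedBall p R, dist x p ^ 2 ∂(mV m K p) :=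
    integral_nonneg fun x => by positivity
  have e2 : ((c * Real.toNNReal (Real.exp (n * S)) : ℝ≥0) : ℝ) = c * Real.exp (n * S) := by
    rw [NNReal.coe_mul, Real.coe_toNNReal _ (Real.exp_pos _).le]
  rw [e2] at e1
  have e3 : N * t / 2 * (c * Real.exp (n * S)) ≤ D := by
    rw [hD]
    refine mul_le_mul_of_nonneg_right ?_ (by positivity)
    linarith
  have e4 := mul_le_mul_of_nonneg_right e3 (add_nonneg hI0 hI1)
  calc _ ≤ _ := e1
    _ ≤ _ := e4
    _ ≤ _ := by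
      rw [mul_add, mul_add]
      linarith

/-- the energy inequality for Lipschitz functions, second form -/
theorem lip_E2 (h : OS m n K) (hfin : ∀ (x : M) (r : ℝ), m (ball x r) < ∞) (hR : 0 ≤ R) {S : ℝ}
    (hS : 0 < S) {ν₀ : Measure M} (h1 : ν₀ ≤ c • mV m K p) (h2 : ν₀ (closedBall p R)ᶜ = 0)
    {L : ℝ≥0} {u : M → ℝ} (hu : LipschitzWith L u) {ε : ℝ} (hε : 0 < ε) :
    ∃ ν, Adm m n K p S R c ν₀ ν ∧ ∫ x, u x ∂ν₀ - ∫ x, u x ∂ν
      ≤ (1 - Real.exp (-S)) * ∫ x, dist x p ∂ν₀ + S * R * (c * Real.exp (n * S)) *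
        ∫ x in closedBall p R, max ((lipAt u x).toReal - 1) 0 ∂(mV m K p) + ε := by
  set D : ℝ := S * R * (c * Real.exp (n * S)) with hD
  have hD0 : 0 ≤ D := by positivity
  have hlim := (tendsto_int_LE hfin K p R hu (Φ := fun s => max (s - 1) 0) (by fun_prop)).const_mul D
  obtain ⟨k, hk⟩ := ((tendsto_order.1 hlim).2 _ (lt_add_of_pos_right _ hε)).exists
  obtain ⟨N, t, ν, π, ht0, ht1, htR, hNt, hC, h0, ha, hA⟩ :=
    mesh h hfin hR hS h1 h2 (η := 1 / ((k : ℝ) + 1)) (by positivity)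
  refine ⟨ν N, hA, ?_⟩
  have e1 := hC.E2 hfin ht0 ht1 hR hu htR N
  have e0 := hA.rad (fun r => r) continuous_id
  rw [integral_const_mul] at e0
  rw [h0, ha, e0] at e1
  have hI0 : 0 ≤ ∫ x in closedBall p R, max ((LE (1 / ((k : ℝ) + 1)) u x).toReal - 1) 0 ∂(mV m K p) :=
    integral_nonneg fun x => le_max_right _ _
  have e2 : ((c * Real.toNNReal (Real.exp (n * S)) : ℝ≥0) : ℝ) = c * Real.exp (n * S) := by
    rw [NNReal.coe_mul, Real.coe_toNNReal _ (Real.exp_pos _).le]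
  rw [e2] at e1
  have e3 : N * t * R * (c * Real.exp (n * S)) ≤ D := by
    rw [hD]
    refine mul_le_mul_of_nonneg_right ?_ (by positivity)
    exact mul_le_mul_of_nonneg_right hNt hR
  have e4 := mul_le_mul_of_nonneg_right e3 hI0
  linarith

end mesh

/-! ### relaxation -/

theorem memLp_mV {K : ℝ} {p : M} (R : ℝ) {f : M → ℝ} {q : ℝ≥0∞} (hf : MemLp f q m) :
    MemLp f q ((mV m K p).restrict (closedBall p R)) :=
  (hf.smul_measure ENNReal.ofReal_ne_top).mono_measure (mV_restrict_le m K p R)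

theorem tendsto_mV {K : ℝ} {p : M} (R : ℝ) {f : ℕ → M → ℝ}
    (hf : Tendsto (fun k => eLpNorm (f k) 2 m) atTop (𝓝 0)) :
    Tendsto (fun k => eLpNorm (f k) 2 ((mV m K p).restrict (closedBall p R))) atTop (𝓝 0) := by
  set C := ENNReal.ofReal (Real.exp (|K| * R ^ 2 / 6)) with hC
  have h1 : ∀ k, eLpNorm (f k) 2 ((mV m K p).restrict (closedBall p R))
      ≤ C ^ (1 / (2 : ℝ≥0∞)).toReal • eLpNorm (f k) 2 m := by
    intro k
    refine (eLpNorm_mono_measure _ (mV_restrict_le m K p R)).trans ?_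
    rw [eLpNorm_smul_measure_of_ne_top (by norm_num)]
  have h2 : Tendsto (fun k => C ^ (1 / (2 : ℝ≥0∞)).toReal • eLpNorm (f k) 2 m) atTop (𝓝 0) := by
    have h3 : C ^ (1 / (2 : ℝ≥0∞)).toReal ≠ ∞ :=
      ENNReal.rpow_ne_top_of_nonneg ENNReal.toReal_nonneg ENNReal.ofReal_ne_top
    have := ENNReal.Tendsto.const_mul hf (Or.inr h3)
    simpa [smul_eq_mul] using this
  exact tendsto_of_tendsto_of_tendsto_of_le_of_le tendsto_const_nhds h2 (fun _ => zero_le) h1

/-- `∫ F² = ‖F‖²` -/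
theorem int_sq_eq {μ : Measure M} {F : M → ℝ} (hF : MemLp F 2 μ) :
    ∫ x, F x ^ 2 ∂μ = (eLpNorm F 2 μ).toReal ^ 2 := by
  have h1 := hF.eLpNorm_eq_integral_rpow_norm (by norm_num) (by norm_num)
  rw [h1, ENNReal.toReal_ofReal (by positivity)]
  simp only [ENNReal.toReal_ofNat, Real.norm_eq_abs, Real.rpow_ofNat, sq_abs]
  rw [← Real.rpow_natCast, ← Real.rpow_mul (integral_nonneg fun x => sq_nonneg _)]
  norm_num

theorem tendsto_int_sq {μ : Measure M} {F : ℕ → M → ℝ} (hF : ∀ k, MemLp (F k) 2 μ)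
    (h : Tendsto (fun k => eLpNorm (F k) 2 μ) atTop (𝓝 0)) :
    Tendsto (fun k => ∫ x, F k x ^ 2 ∂μ) atTop (𝓝 0) := by
  have h1 := ((ENNReal.tendsto_toReal ENNReal.zero_ne_top).comp h).pow 2
  simp only [ENNReal.toReal_zero, ne_eq, OfNat.ofNat_ne_zero, not_false_eq_true, zero_pow] at h1
  refine h1.congr fun k => ?_
  rw [int_sq_eq (hF k)]
  rfl

theorem tendsto_int_abs {μ : Measure M} [IsFiniteMeasure μ] {F : ℕ → M → ℝ}
    (hF : ∀ k, MemLp (F k) 2 μ) (h : Tendsto (fun k => eLpNorm (F k) 2 μ) atTop (𝓝 0)) :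
    Tendsto (fun k => ∫ x, |F k x| ∂μ) atTop (𝓝 0) := by
  have h1 : ∀ k, eLpNorm (F k) 1 μ ≤ eLpNorm (F k) 2 μ * μ univ ^ (1 / (1 : ℝ≥0∞).toReal - 1 / (2 : ℝ≥0∞).toReal) :=
    fun k => eLpNorm_le_eLpNorm_mul_rpow_measure_univ (by norm_num) (hF k).1
  have h2 : Tendsto (fun k => eLpNorm (F k) 1 μ) atTop (𝓝 0) := by
    have h3 : μ univ ^ (1 / (1 : ℝ≥0∞).toReal - 1 / (2 : ℝ≥0∞).toReal) ≠ ∞ :=
      ENNReal.rpow_ne_top_of_nonneg (by norm_num) (measure_ne_top _ _)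
    have := ENNReal.Tendsto.mul_const h (Or.inr h3)
    rw [zero_mul] at this
    exact tendsto_of_tendsto_of_tendsto_of_le_of_le tendsto_const_nhds this (fun _ => zero_le) h1
  have h4 := (ENNReal.tendsto_toReal ENNReal.zero_ne_top).comp h2
  simp only [ENNReal.toReal_zero] at h4
  refine h4.congr fun k => ?_
  simp only [Function.comp]
  rw [eLpNorm_one_eq_lintegral_enorm, ← integral_norm_eq_lintegral_enorm (hF k).1]
  rfl

section relax

variable {n : ℕ} {K R : ℝ} {p : M} {c : ℝ≥0}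

/-- difference of integrals of two functions with respect to measures of bounded density -/
theorem int_diff (hfin : ∀ (x : M) (r : ℝ), m (ball x r) < ∞) {ν : Measure M} {C : ℝ≥0}
    (h1 : ν ≤ C • mV m K p) (h2 : ν (closedBall p R)ᶜ = 0) {F G : M → ℝ}
    (hF : IntegrableOn F (closedBall p R) (mV m K p))
    (hG : IntegrableOn G (closedBall p R) (mV m K p)) :
    |∫ x, F x ∂ν - ∫ x, G x ∂ν| ≤ C * ∫ x in closedBall p R, |F x - G x| ∂(mV m K p) := by
  have i1 := integrable_of h1 h2 hF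
  have i2 := integrable_of h1 h2 hG
  rw [← integral_sub i1 i2]
  refine (abs_integral_le_integral_abs).trans ?_
  exact int_le h1 h2 (hF.sub hG).abs (fun x => abs_nonneg _)

theorem adm_supp {S : ℝ} (hS : 0 < S) (hR : 0 ≤ R) {n : ℕ} {ν₀ ν : Measure M}
    (h : Adm m n K p S R c ν₀ ν) : ν (closedBall p R)ᶜ = 0 := by
  refine measure_mono_null ?_ h.supp
  refine compl_subset_compl.2 (closedBall_subset_closedBall ?_)
  have : Real.exp (-S) ≤ 1 := by
    simpa using Real.exp_le_exp.2 (by linarith : -S ≤ 0)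
  nlinarith

theorem fin_res (hfin : ∀ (x : M) (r : ℝ), m (ball x r) < ∞) (K : ℝ) (p : M) (R : ℝ) :
    IsFiniteMeasure ((mV m K p).restrict (closedBall p R)) :=
  ⟨by rw [Measure.restrict_apply_univ]; exact mV_fin hfin K p R⟩

/-- the energy inequality for Sobolev functions -/
theorem rel_E1 (h : OS m n K) (hfin : ∀ (x : M) (r : ℝ), m (ball x r) < ∞) (hR : 0 ≤ R) {S : ℝ}
    (hS : 0 < S) {ν₀ : Measure M} (h1 : ν₀ ≤ c • mV m K p) (h2 : ν₀ (closedBall p R)ᶜ = 0)
    {f G : M →ₘ[m] ℝ} (hf : IsRelaxedSlope f G) {ε : ℝ} (hε : 0 < ε) :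
    ∃ ν, Adm m n K p S R c ν₀ ν ∧ ∫ x, f x ∂ν₀ - ∫ x, f x ∂ν
      ≤ S / 2 * (c * Real.exp (n * S)) *
        (∫ x in closedBall p R, G x ^ 2 ∂(mV m K p)
          + ∫ x in closedBall p R, dist x p ^ 2 ∂(mV m K p)) + ε := by
  obtain ⟨f2, G2, u, g, hu, hlu, hlg⟩ := hf
  haveI := fin_res (m := m) hfin K p R
  set μ := (mV m K p).restrict (closedBall p R) with hμ
  set D : ℝ := S / 2 * (c * Real.exp (n * S)) with hD
  have hD0 : 0 ≤ D := by positivity
  set c' : ℝ := c + c * Real.exp (n * S) with hc'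
  have hc0 : 0 ≤ c' := by positivity
  have mf : MemLp f 2 μ := memLp_mV R f2
  have mG : MemLp G 2 μ := memLp_mV R G2
  have mu : ∀ k, MemLp (u k) 2 μ := fun k => memLp_mV R (hu k).2.1
  have mg : ∀ k, MemLp (g k) 2 μ := fun k => memLp_mV R (hu k).2.2.1
  have t1 := tendsto_int_abs (fun k => (mu k).sub mf) (tendsto_mV (K := K) (p := p) R hlu)
  have t2 := tendsto_int_sq (fun k => (mg k).sub mG) (tendsto_mV (K := K) (p := p) R hlg)
  -- choice of lam
  set A : ℝ := ∫ x, G x ^ 2 ∂μ with hA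
  have hA0 : 0 ≤ A := integral_nonneg fun x => sq_nonneg _
  obtain ⟨lam, hlam, hlamA⟩ : ∃ lam : ℝ, 0 < lam ∧ D * (lam * A) ≤ ε / 4 := by
    refine ⟨ε / 4 / (D * A + 1), by positivity, ?_⟩
    have : D * (ε / 4 / (D * A + 1) * A) = ε / 4 * (D * A / (D * A + 1)) := by
      field_simp
    rw [this]
    have h3 : D * A / (D * A + 1) ≤ 1 := by
      rw [div_le_one (by positivity)]
      linarith
    nlinarith
  have t1' := t1.const_mul c'
  have t2' := t2.const_mul (D * (1 + lam⁻¹))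
  rw [mul_zero] at t1' t2'
  obtain ⟨k, hk1, hk2⟩ := (((tendsto_order.1 t1').2 (ε / 4) (by positivity)).and
    ((tendsto_order.1 t2').2 (ε / 4) (by positivity))).exists
  obtain ⟨⟨L, hL⟩, hk3, hk4, hk5⟩ := hu k
  obtain ⟨ν, hν, hE⟩ := lip_E1 h hfin hR hS h1 h2 hL (ε := ε / 4) (by positivity)
  refine ⟨ν, hν, ?_⟩
  have iu : IntegrableOn (u k) (closedBall p R) (mV m K p) := (mu k).integrable (by norm_num)
  have i_f : IntegrableOn f (closedBall p R) (mV m K p) := mf.integrable (by norm_num)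
  have d1 := int_diff hfin h1 h2 iu i_f
  have d2 := int_diff hfin hν.le (adm_supp hS hR hν) iu i_f
  rw [NNReal.coe_mul, Real.coe_toNNReal _ (Real.exp_pos _).le] at d2
  have d3 := (abs_le.1 d1).1
  have d4 := (abs_le.1 d2).2
  have hsum : (c : ℝ) * ∫ x in closedBall p R, |u k x - f x| ∂(mV m K p)
      + (c * Real.exp (n * S)) * ∫ x in closedBall p R, |u k x - f x| ∂(mV m K p) < ε / 4 := by
    rw [← add_mul]
    exact hk1
  -- slopes
  have s1 : ∫ x, (lipAt (u k) x).toReal ^ 2 ∂μ ≤ ∫ x, g k x ^ 2 ∂μ := by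
    refine integral_mono_of_nonneg (Eventually.of_forall fun x => sq_nonneg _)
      (mg k).integrable_sq ?_
    have hac : μ ≪ m := (Measure.absolutelyContinuous_of_le (mV_restrict_le m K p R)).trans
      (Measure.smul_absolutelyContinuous)
    filter_upwards [hac.ae_le hk5] with x hx
    exact pow_le_pow_left₀ ENNReal.toReal_nonneg (ENNReal.toReal_le_of_le_ofReal hx.1 hx.2) 2
  have s2 : ∫ x, g k x ^ 2 ∂μ ≤ (1 + lam) * A + (1 + lam⁻¹) * ∫ x, (g k x - G x) ^ 2 ∂μ := by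
    have i5 : Integrable (fun x => (g k x - G x) ^ 2) μ := ((mg k).sub mG).integrable_sq
    rw [hA, ← integral_const_mul, ← integral_const_mul, ← integral_add
      (mG.integrable_sq.const_mul _) (i5.const_mul _)]
    refine integral_mono (mg k).integrable_sq
      ((mG.integrable_sq.const_mul _).add (i5.const_mul _)) fun x => ?_
    simp only
    have e1 : (1 + lam) * G x ^ 2 + (1 + lam⁻¹) * (g k x - G x) ^ 2 - g k x ^ 2
        = (lam * G x - (g k x - G x)) ^ 2 / lam := by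
      field_simp
      ring
    have e2 : 0 ≤ (lam * G x - (g k x - G x)) ^ 2 / lam := by positivity
    linarith
  have hk2' : D * (1 + lam⁻¹) * ∫ x, (g k x - G x) ^ 2 ∂μ < ε / 4 := hk2
  have s3 : D * ∫ x, (lipAt (u k) x).toReal ^ 2 ∂μ ≤ D * A + ε / 4 + ε / 4 := by
    have := mul_le_mul_of_nonneg_left (s1.trans s2) hD0
    nlinarith
  rw [← hD, mul_add] at hE
  rw [mul_add]
  linarith

/-- second form: slope at most one -/
theorem rel_E2 (h : OS m n K) (hfin : ∀ (x : M) (r : ℝ), m (ball x r) < ∞) (hR : 0 ≤ R) {S : ℝ}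
    (hS : 0 < S) {ν₀ : Measure M} (h1 : ν₀ ≤ c • mV m K p) (h2 : ν₀ (closedBall p R)ᶜ = 0)
    {f G : M →ₘ[m] ℝ} (hf : IsRelaxedSlope f G) (hG : ∀ᵐ x ∂m, G x ≤ 1) {ε : ℝ} (hε : 0 < ε) :
    ∃ ν, Adm m n K p S R c ν₀ ν ∧ ∫ x, f x ∂ν₀ - ∫ x, f x ∂ν
      ≤ (1 - Real.exp (-S)) * ∫ x, dist x p ∂ν₀ + ε := by
  obtain ⟨f2, G2, u, g, hu, hlu, hlg⟩ := hf
  haveI := fin_res (m := m) hfin K p R
  set μ := (mV m K p).restrict (closedBall p R) with hμ
  set D : ℝ := S * R * (c * Real.exp (n * S)) with hD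
  have hD0 : 0 ≤ D := by positivity
  set c' : ℝ := c + c * Real.exp (n * S) with hc'
  have hc0 : 0 ≤ c' := by positivity
  have mf : MemLp f 2 μ := memLp_mV R f2
  have mG : MemLp G 2 μ := memLp_mV R G2
  have mu : ∀ k, MemLp (u k) 2 μ := fun k => memLp_mV R (hu k).2.1
  have mg : ∀ k, MemLp (g k) 2 μ := fun k => memLp_mV R (hu k).2.2.1
  have t1 := tendsto_int_abs (fun k => (mu k).sub mf) (tendsto_mV (K := K) (p := p) R hlu)
  have t2 := tendsto_int_abs (fun k => (mg k).sub mG) (tendsto_mV (K := K) (p := p) R hlg)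
  have t1' := t1.const_mul c'
  have t2' := t2.const_mul D
  rw [mul_zero] at t1' t2'
  obtain ⟨k, hk1, hk2⟩ := (((tendsto_order.1 t1').2 (ε / 3) (by positivity)).and
    ((tendsto_order.1 t2').2 (ε / 3) (by positivity))).exists
  obtain ⟨⟨L, hL⟩, hk3, hk4, hk5⟩ := hu k
  obtain ⟨ν, hν, hE⟩ := lip_E2 h hfin hR hS h1 h2 hL (ε := ε / 3) (by positivity)
  refine ⟨ν, hν, ?_⟩
  have iu : IntegrableOn (u k) (closedBall p R) (mV m K p) := (mu k).integrable (by norm_num)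
  have i_f : IntegrableOn f (closedBall p R) (mV m K p) := mf.integrable (by norm_num)
  have d1 := int_diff hfin h1 h2 iu i_f
  have d2 := int_diff hfin hν.le (adm_supp hS hR hν) iu i_f
  rw [NNReal.coe_mul, Real.coe_toNNReal _ (Real.exp_pos _).le] at d2
  have d3 := (abs_le.1 d1).1
  have d4 := (abs_le.1 d2).2
  have hsum : (c : ℝ) * ∫ x in closedBall p R, |u k x - f x| ∂(mV m K p)
      + (c * Real.exp (n * S)) * ∫ x in closedBall p R, |u k x - f x| ∂(mV m K p) < ε / 3 := by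
    rw [← add_mul]
    exact hk1
  have s1 : ∫ x, max ((lipAt (u k) x).toReal - 1) 0 ∂μ ≤ ∫ x, |g k x - G x| ∂μ := by
    refine integral_mono_of_nonneg (Eventually.of_forall fun x => le_max_right _ _)
      (((mg k).sub mG).integrable (by norm_num)).abs ?_
    have hac : μ ≪ m := (Measure.absolutelyContinuous_of_le (mV_restrict_le m K p R)).trans
      (Measure.smul_absolutelyContinuous)
    filter_upwards [hac.ae_le hk5, hac.ae_le hG] with x hx hx'
    have := ENNReal.toReal_le_of_le_ofReal hx.1 hx.2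
    refine max_le ?_ (abs_nonneg _)
    exact le_trans (by linarith) (le_abs_self _)
  have s3 := mul_le_mul_of_nonneg_left s1 hD0
  have hk2' : D * ∫ x, |g k x - G x| ∂μ < ε / 3 := hk2
  linarith

end relax

end Vale.Agent.P233.H227.Ch
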