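import Vale.Agent.P233.H227.Ch4
import Vale.Agent.P233.H339.CY2
import Vale.Agent.P233.RA.IfG

/-!
P233, stage 3b (helper227): Laplacian comparison and `|∇d_p| = 1` from the contraction plans.
-/

set_option linter.all false

open MeasureTheory Metric Set Filter Topology
open scoped ENNReal NNReal

universe u

namespace Vale.Agent.P233.H227.Ch

open Vale.Agent.P233.RA

variable {M : Type u} [MetricSpace M] [MeasurableSpace M] [BorelSpace M]
  [SecondCountableTopology M] {m : Measure M} {n : ℕ} {K δ : ℝ} {p : M}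

theorem mu_ac (m : Measure M) (K : ℝ) (p : M) (R : ℝ) :
    (mV m K p).restrict (closedBall p R) ≪ m :=
  (Measure.absolutelyContinuous_of_le (mV_restrict_le m K p R)).trans
    Measure.smul_absolutelyContinuous

theorem ac_of {ν : Measure M} {C : ℝ≥0} {K : ℝ} {p : M} (h1 : ν ≤ C • mV m K p) : ν ≪ m :=
  ((Measure.absolutelyContinuous_of_le h1).trans (Measure.smul_absolutelyContinuous)).trans
    (withDensity_absolutelyContinuous _ _)

theorem gg_le_iff (hδ : 0 ≤ δ) (p x : M) : gg p x ≤ δ ↔ x ∈ closedBall p √(2 * δ) := by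
  rw [mem_closedBall, Real.le_sqrt dist_nonneg (by positivity)]
  unfold gg
  constructor <;> intro h <;> linarith

theorem lim1 : Tendsto (fun S : ℝ => (1 - Real.exp (-2 * S)) / S) (𝓝[>] 0) (𝓝 2) := by
  have h1 : HasDerivAt (fun S : ℝ => 1 - Real.exp (-2 * S)) 2 0 := by
    have h2 : HasDerivAt (fun S : ℝ => -2 * S) (-2) 0 := by
      simpa using (hasDerivAt_id (0 : ℝ)).const_mul (-2)
    have h3 := h2.exp.const_sub 1
    refine h3.congr_deriv ?_
    simp
  have h2 := h1.tendsto_slope_zero_right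
  refine h2.congr fun S => ?_
  simp [smul_eq_mul]
  ring

theorem lim2 (n : ℕ) : Tendsto (fun S : ℝ => (Real.exp (n * S) - 1) / S) (𝓝[>] 0) (𝓝 n) := by
  have h1 : HasDerivAt (fun S : ℝ => Real.exp (n * S) - 1) n 0 := by
    have h2 : HasDerivAt (fun S : ℝ => (n : ℝ) * S) n 0 := by
      simpa using (hasDerivAt_id (0 : ℝ)).const_mul (n : ℝ)
    have h3 := h2.exp.sub_const 1
    refine h3.congr_deriv ?_
    simp
  have h2 := h1.tendsto_slope_zero_right
  refine h2.congr fun S => ?_
  simp [smul_eq_mul]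
  ring

/-- the main inequality -/
theorem star (h : OS m n K) (hfin : ∀ (x : M) (r : ℝ), m (ball x r) < ∞) (hD : IsDir (sob m))
    (hδ : 0 < δ) (p : M) {φ : M →ₘ[m] ℝ} (hφ : φ ∈ (sob m).W) (hφ0 : 0 ≤ φ) {ε : ℝ} (hε : 0 ≤ ε) :
    ∫ x in closedBall p √(2 * δ), 2 * gg p x ∂(mV m K p)
        - 2 * ε * n * ∫ x in closedBall p √(2 * δ), φ x ∂(mV m K p)
      ≤ ∫ x in closedBall p √(2 * δ), (sob m).Γ (cl m (ww δ p) + ε • φ) (cl m (ww δ p) + ε • φ) x
        ∂(mV m K p) := by
  set R : ℝ := √(2 * δ) with hR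
  have hR0 : 0 ≤ R := Real.sqrt_nonneg _
  haveI := fin_res (m := m) hfin K p R
  set μ := (mV m K p).restrict (closedBall p R) with hμ
  have hac : μ ≪ m := mu_ac m K p R
  have hw : cl m (ww δ p) ∈ (sob m).W := H339.ww_mem hfin hδ p
  set w := cl m (ww δ p) with hwdef
  set f := w + ε • φ with hf
  have hfW : f ∈ (sob m).W := hD.add_mem _ hw _ (hD.smul_mem _ _ hφ)
  have hsl := (exists_minSlope' hfW).1
  have φ2 : MemLp φ 2 m := hD.memLp _ hφ
  have w2 : MemLp w 2 m := hD.memLp _ hw
  have mφ : MemLp φ 2 μ := memLp_mV R φ2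
  have mw : MemLp w 2 μ := memLp_mV R w2
  have iφ : Integrable φ μ := mφ.integrable (by norm_num)
  have iw : Integrable w μ := mw.integrable (by norm_num)
  have hφm : ∀ᵐ x ∂m, 0 ≤ φ x := nonneg_iff_ae.1 hφ0
  -- radial function
  set F : ℝ → ℝ := fun r => min (r ^ 2 / 2) δ - δ with hF
  have hFc : Continuous F := by fun_prop
  have hwF : ∀ᵐ x ∂m, w x = F (dist x p) := by
    filter_upwards [H339.ww_ae (m := m) hδ p] with x hx
    rw [hwdef, hx, hF]
    rfl
  have hsupp : μ (closedBall p R)ᶜ = 0 := by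
    rw [hμ, Measure.restrict_apply isClosed_closedBall.measurableSet.compl]
    simp
  have hle1 : μ ≤ (1 : ℝ≥0) • mV m K p := by
    rw [one_smul]
    exact Measure.restrict_le_self
  -- the slope
  have hslope : ∫ x, slope f x ^ 2 ∂μ = ∫ x, (sob m).Γ f f x ∂μ := by
    refine integral_congr_ae ?_
    have h1 : ∀ᵐ x ∂m, (sob m).Γ f f x = slope f x ^ 2 := by
      filter_upwards [sob_Γ_self_ae hfW, slope_ae hfW] with x h1 h2
      rw [h1, h2]
    filter_upwards [hac.ae_le h1] with x hx
    rw [hx]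
  have hgi : Integrable (fun x => gg p x) μ := by
    have := ion_bdd (m := m) hfin K p R (F := fun x => gg p x)
      (H339.continuous_gg p).measurable (B := δ) (fun x hx => by
        rw [abs_of_nonneg (H339.gg_nonneg p x)]
        exact (gg_le_iff hδ.le p x).2 hx)
    exact this
  have key : ∀ S : ℝ, 0 < S →
      (1 - Real.exp (-2 * S)) * ∫ x, gg p x ∂μ - ε * ((Real.exp (n * S) - 1) * ∫ x, φ x ∂μ)
        ≤ S / 2 * Real.exp (n * S) * (∫ x, (sob m).Γ f f x ∂μ + ∫ x, dist x p ^ 2 ∂μ) + S ^ 2 := by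
    intro S hS
    obtain ⟨ν, hA, hE⟩ := rel_E1 h hfin hR0 hS hle1 hsupp hsl (ε := S ^ 2) (by positivity)
    have hacν : ν ≪ m := ac_of hA.le
    haveI := finite_of hfin hA.le hA.supp
    have iwν : Integrable w ν := integrable_of hA.le (adm_supp hS hR0 hA) iw
    have iφν : Integrable φ ν := integrable_of hA.le (adm_supp hS hR0 hA) iφ
    have e1 : ∫ x, f x ∂μ = ∫ x, w x ∂μ + ε * ∫ x, φ x ∂μ := by
      rw [← integral_const_mul, ← integral_add iw (iφ.const_mul _)]
      refine integral_congr_ae ?_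
      filter_upwards [hac.ae_le (add_ae w (ε • φ)), hac.ae_le (smul_ae φ ε)] with x h1 h2
      rw [hf, h1, h2]
    have e2 : ∫ x, f x ∂ν = ∫ x, w x ∂ν + ε * ∫ x, φ x ∂ν := by
      rw [← integral_const_mul, ← integral_add iwν (iφν.const_mul _)]
      refine integral_congr_ae ?_
      filter_upwards [hacν.ae_le (add_ae w (ε • φ)), hacν.ae_le (smul_ae φ ε)] with x h1 h2
      rw [hf, h1, h2]
    have e3 : ∫ x, w x ∂ν = ∫ x, F (Real.exp (-S) * dist x p) ∂μ := by
      rw [← hA.rad F hFc]
      exact integral_congr_ae (hacν.ae_le hwF)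
    have e4 : ∫ x, w x ∂μ - ∫ x, w x ∂ν = (1 - Real.exp (-2 * S)) * ∫ x, gg p x ∂μ := by
      have e5 : ∫ x, F (Real.exp (-S) * dist x p) ∂μ
          = ∫ x, (w x - (1 - Real.exp (-2 * S)) * gg p x) ∂μ := by
        refine integral_congr_ae ?_
        have hmem : ∀ᵐ x ∂μ, x ∈ closedBall p R := ae_restrict_mem isClosed_closedBall.measurableSet
        filter_upwards [hmem, hac.ae_le hwF] with x hx hx2
        have h1 : gg p x ≤ δ := (gg_le_iff hδ.le p x).2 hx
        have h2 : dist x p ^ 2 / 2 ≤ δ := h1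
        have h3 : (Real.exp (-S) * dist x p) ^ 2 / 2 = Real.exp (-2 * S) * gg p x := by
          have : Real.exp (-2 * S) = Real.exp (-S) ^ 2 := by
            rw [← Real.exp_nat_mul]
            congr 1
            push_cast
            ring
          rw [this]
          unfold gg
          ring
        have h4 : Real.exp (-2 * S) ≤ 1 := by
          simpa using Real.exp_le_exp.2 (by linarith : -2 * S ≤ 0)
        have h5 : Real.exp (-2 * S) * gg p x ≤ δ := by
          have := H339.gg_nonneg p x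
          nlinarith
        rw [hx2]
        simp only [hF]
        rw [h3, min_eq_left h5, min_eq_left h2]
        unfold gg
        ring
      rw [e3, e5, integral_sub iw (hgi.const_mul _), integral_const_mul]
      ring
    have e6 : ∫ x, φ x ∂ν ≤ Real.exp (n * S) * ∫ x, φ x ∂μ := by
      have h1 := int_le hA.le (adm_supp hS hR0 hA) (F := fun x => |φ x|) iφ.abs
        (fun x => abs_nonneg _)
      have h2 : ∫ x, |φ x| ∂ν = ∫ x, φ x ∂ν := by
        refine integral_congr_ae ?_
        filter_upwards [hacν.ae_le hφm] with x hx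
        exact abs_of_nonneg hx
      have h3 : ∫ x, |φ x| ∂μ = ∫ x, φ x ∂μ := by
        refine integral_congr_ae ?_
        filter_upwards [hac.ae_le hφm] with x hx
        exact abs_of_nonneg hx
      rw [h2, ← hμ, h3, one_mul, Real.coe_toNNReal _ (Real.exp_pos _).le] at h1
      exact h1
    rw [e1, e2, hslope, NNReal.coe_one, one_mul] at hE
    have e7 := mul_le_mul_of_nonneg_left e6 hε
    nlinarith
  -- limit
  have hdist : ∫ x, dist x p ^ 2 ∂μ = 2 * ∫ x, gg p x ∂μ := by
    rw [← integral_const_mul]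
    refine integral_congr_ae (Eventually.of_forall fun x => ?_)
    simp only [gg]
    ring
  set A := ∫ x, gg p x ∂μ with hA
  set B := ∫ x, φ x ∂μ with hB
  set G := ∫ x, (sob m).Γ f f x ∂μ with hG
  have hl : Tendsto (fun S : ℝ => (1 - Real.exp (-2 * S)) / S * A
      - ε * ((Real.exp (n * S) - 1) / S * B)) (𝓝[>] 0) (𝓝 (2 * A - ε * (n * B))) :=
    (lim1.mul_const A).sub ((((lim2 n).mul_const B)).const_mul ε)
  have hr : Tendsto (fun S : ℝ => 1 / 2 * Real.exp (n * S) * (G + 2 * A) + S) (𝓝[>] 0)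
      (𝓝 (1 / 2 * Real.exp (n * 0) * (G + 2 * A) + 0)) := by
    refine Tendsto.mono_left ?_ nhdsWithin_le_nhds
    exact Continuous.tendsto (by fun_prop) 0
  have hle : ∀ᶠ S : ℝ in 𝓝[>] 0, (1 - Real.exp (-2 * S)) / S * A
      - ε * ((Real.exp (n * S) - 1) / S * B) ≤ 1 / 2 * Real.exp (n * S) * (G + 2 * A) + S := by
    filter_upwards [self_mem_nhdsWithin] with S hS
    have hS' : 0 < S := hS
    have h1 := key S hS'
    rw [hdist] at h1
    have h2 : (1 - Real.exp (-2 * S)) / S * A - ε * ((Real.exp (n * S) - 1) / S * B)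
        = ((1 - Real.exp (-2 * S)) * A - ε * ((Real.exp (n * S) - 1) * B)) / S := by
      field_simp
    have h3 : 1 / 2 * Real.exp (n * S) * (G + 2 * A) + S
        = (S / 2 * Real.exp (n * S) * (G + 2 * A) + S ^ 2) / S := by
      field_simp
    rw [h2, h3]
    exact div_le_div_of_nonneg_right h1 hS'.le
  have hfinal := le_of_tendsto_of_tendsto hl hr hle
  rw [mul_zero, Real.exp_zero] at hfinal
  have hgg2 : ∫ x, 2 * gg p x ∂μ = 2 * A := by rw [integral_const_mul]
  rw [hgg2]
  linarith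

end Vale.Agent.P233.H227.Ch
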