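import Vale.Agent.P233.H227.Ch5
import Vale.Agent.P233.H719.RL5
import Vale.Agent.P233.CD.If3b

/-!
P233, stage 3b (helper227): Laplacian comparison and `|∇d_p| = 1` from the contraction plans:
block `Blk_Lc`.
-/

set_option linter.all false

open MeasureTheory Metric Set Filter Topology
open scoped ENNReal NNReal

universe u

namespace Vale.Agent.P233.H227.Ch

open Vale.Agent.P233.RA

variable {M : Type u} [MetricSpace M] [MeasurableSpace M] [BorelSpace M]
  [SecondCountableTopology M] {m : Measure M} {n : ℕ} {K δ : ℝ} {p : M}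

theorem lipBd_ww (δ : ℝ) (p x : M) : Met.LipBd (ww δ p) x (dist x p) := by
  intro c' hc'
  have h0 : 0 < c' - dist x p := by linarith
  filter_upwards [ball_mem_nhds x h0] with y hy
  have hy' : dist y x < c' - dist x p := hy
  have h1 : |ww δ p y - ww δ p x| ≤ |gg p y - gg p x| := by
    rw [H339.ww_eq, H339.ww_eq]
    have : min (gg p y) δ - δ - (min (gg p x) δ - δ) = min (gg p y) δ - min (gg p x) δ := by ring
    rw [this]
    have := abs_min_sub_min_le_max (gg p y) δ (gg p x) δ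
    simpa using this
  have h2 : gg p y - gg p x = (dist y p - dist x p) * ((dist y p + dist x p) / 2) := by
    unfold gg; ring
  have h3 : |dist y p - dist x p| ≤ dist y x := abs_dist_sub_le y x p
  have h4 : (dist y p + dist x p) / 2 ≤ c' := by
    have := dist_triangle y x p
    linarith
  rw [h2, abs_mul, abs_of_nonneg (by positivity : 0 ≤ (dist y p + dist x p) / 2)] at h1
  calc |ww δ p y - ww δ p x| ≤ |dist y p - dist x p| * ((dist y p + dist x p) / 2) := h1
    _ ≤ dist y x * c' := mul_le_mul h3 h4 (by positivity) dist_nonneg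
    _ = c' * dist y x := mul_comm _ _

theorem ww_up (hfin : ∀ (x : M) (r : ℝ), m (ball x r) < ∞) (hδ : 0 < δ) (p : M) :
    ∀ᵐ x ∂m, (sob m).Γ (cl m (ww δ p)) (cl m (ww δ p)) x ≤ 2 * gg p x := by
  set u := ww δ p with hu
  have hL := H339.ww_lip hδ p
  set L := Real.toNNReal √(2 * δ) with hLdef
  have hgood := Met.good_of_bounded_support hfin hL (x₀ := p) (R := √(2 * δ))
    fun x hx => H339.ww_zero (by rw [Metric.mem_ball, not_lt] at hx; exact hx)
  set g : M → ℝ := (Metric.ball p (√(2 * δ) + 1)).indicator fun _ => (L : ℝ) with hg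
  have hcl : ⇑(cl m u) =ᵐ[m] u := H183.cl_cont hL.continuous
  have hW : cl m u ∈ (sob m).W := H339.ww_mem hfin hδ p
  set G : M → ℝ := fun x => (lipAt u x).toReal with hG
  have hGm : Measurable G := _root_.Vale.Agent.P233.RA.measurable_lr hL.continuous
  have hle : ∀ᵐ x ∂m, lipAt u x ≤ ENNReal.ofReal (g x) ∧ 0 ≤ g x := by
    filter_upwards [hgood.2.2.2] with x hx using ⟨hx.2, hx.1⟩
  have hG2 : MemLp G 2 m := by
    refine hgood.2.2.1.mono hGm.aestronglyMeasurable ?_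
    filter_upwards [hle] with x hx
    rw [Real.norm_eq_abs, Real.norm_eq_abs, abs_of_nonneg ENNReal.toReal_nonneg,
      abs_of_nonneg hx.2]
    exact ENNReal.toReal_le_of_le_ofReal hx.2 hx.1
  have hGood : Met.Good m u G := by
    refine ⟨⟨L, hL⟩, hgood.2.1, hG2, ?_⟩
    filter_upwards [hle] with x hx
    refine ⟨ENNReal.toReal_nonneg, ?_⟩
    rw [ENNReal.ofReal_toReal (ne_top_of_le_ne_top ENNReal.ofReal_ne_top hx.1)]
  have hRS : Met.RSlope m (cl m u) G := hGood.rSlope.congr hcl.symm Filter.EventuallyEq.rfl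
  filter_upwards [hRS.mslope_le, sob_Γ_self_ae hW, (mem_sob_iff.1 hW).mslope_nonneg]
    with x x1 x3 x4
  rw [x3]
  have h1 : G x ≤ dist x p :=
    ENNReal.toReal_le_of_le_ofReal dist_nonneg
      ((Met.lipAt_le_ofReal_iff dist_nonneg).2 (lipBd_ww δ p x))
  have h2 : Met.mslope m (cl m u) x ≤ dist x p := x1.trans h1
  calc Met.mslope m (cl m u) x ^ 2 ≤ dist x p ^ 2 := pow_le_pow_left₀ x4 h2 2
    _ = 2 * gg p x := by unfold gg; ring

/-- `m` on the ball is absolutely continuous with respect to `V m` on the ball -/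
theorem m_ac (m : Measure M) (K : ℝ) (p : M) (R : ℝ) :
    m.restrict (closedBall p R) ≪ (mV m K p).restrict (closedBall p R) := by
  refine Measure.AbsolutelyContinuous.restrict ?_ _
  unfold mV
  refine withDensity_absolutelyContinuous' ?_ ?_
  · exact ((VV_cont K p).measurable.ennreal_ofReal).aemeasurable
  · refine Eventually.of_forall fun x => ?_
    rw [Ne, ENNReal.ofReal_eq_zero, not_le]
    exact VV_pos K p x

theorem gg_int (hfin : ∀ (x : M) (r : ℝ), m (ball x r) < ∞) (hδ : 0 < δ) (K : ℝ) (p : M) :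
    IntegrableOn (fun x => gg p x) (closedBall p √(2 * δ)) (mV m K p) :=
  ion_bdd (m := m) hfin K p _ (F := fun x => gg p x)
      (H339.continuous_gg p).measurable (B := δ) (fun x hx => by
        rw [abs_of_nonneg (H339.gg_nonneg p x)]
        exact (gg_le_iff hδ.le p x).2 hx)

theorem int1_mV {f : M →ₘ[m] ℝ} (hf : MemLp f 1 m) (K : ℝ) (p : M) (R : ℝ) :
    IntegrableOn f (closedBall p R) (mV m K p) :=
  memLp_one_iff_integrable.1 (memLp_mV R hf)

/-- `Γ(w,w) = 2 g` on the ball -/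
theorem ww_eqE (h : OS m n K) (hfin : ∀ (x : M) (r : ℝ), m (ball x r) < ∞) (hD : IsDir (sob m))
    (hδ : 0 < δ) (p : M) :
    ∀ᵐ x ∂m, gg p x ≤ δ → (sob m).Γ (cl m (ww δ p)) (cl m (ww δ p)) x = 2 * gg p x := by
  have h1 := star h hfin hD hδ p hD.zero_mem le_rfl (le_refl (0 : ℝ))
  have hW : cl m (ww δ p) ∈ (sob m).W := H339.ww_mem hfin hδ p
  set w := cl m (ww δ p) with hw
  rw [zero_smul, add_zero] at h1
  simp only [mul_zero, zero_mul, sub_zero] at h1
  set μ := (mV m K p).restrict (closedBall p √(2 * δ)) with hμ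
  have hac : μ ≪ m := mu_ac m K p _
  have i1 : Integrable (fun x => 2 * gg p x) μ := (gg_int hfin hδ K p).const_mul 2
  have i2 : Integrable ((sob m).Γ w w) μ := int1_mV (hD.mem1 _ hW) K p _
  have h2 : ∀ᵐ x ∂μ, 0 ≤ 2 * gg p x - (sob m).Γ w w x := by
    filter_upwards [hac.ae_le (ww_up hfin hδ p)] with x hx
    linarith
  have h3 : ∫ x, (2 * gg p x - (sob m).Γ w w x) ∂μ = 0 := by
    refine le_antisymm ?_ (integral_nonneg_of_ae h2)
    rw [integral_sub i1 i2]
    linarith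
  have h4 := (integral_eq_zero_iff_of_nonneg_ae h2 (i1.sub i2)).1 h3
  have h5 : ∀ᵐ x ∂m.restrict (closedBall p √(2 * δ)), 2 * gg p x - (sob m).Γ w w x = 0 :=
    (m_ac m K p _).ae_le h4
  rw [ae_restrict_iff' isClosed_closedBall.measurableSet] at h5
  filter_upwards [h5] with x hx hgx
  have := hx ((gg_le_iff hδ.le p x).1 hgx)
  linarith

/-- the derivative of `star` at `ε = 0` -/
theorem star' (h : OS m n K) (hfin : ∀ (x : M) (r : ℝ), m (ball x r) < ∞) (hD : IsDir (sob m))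
    (hδ : 0 < δ) (p : M) {φ : M →ₘ[m] ℝ} (hφ : φ ∈ (sob m).W) (hφ0 : 0 ≤ φ) :
    -∫ x in closedBall p √(2 * δ), (sob m).Γ (cl m (ww δ p)) φ x ∂(mV m K p)
      ≤ n * ∫ x in closedBall p √(2 * δ), φ x ∂(mV m K p) := by
  have hW : cl m (ww δ p) ∈ (sob m).W := H339.ww_mem hfin hδ p
  set w := cl m (ww δ p) with hw
  set μ := (mV m K p).restrict (closedBall p √(2 * δ)) with hμ
  have hac : μ ≪ m := mu_ac m K p _
  have i1 : Integrable (fun x => 2 * gg p x) μ := (gg_int hfin hδ K p).const_mul 2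
  have i2 : Integrable ((sob m).Γ w w) μ := int1_mV (hD.mem1 _ hW) K p _
  have i3 : Integrable ((sob m).Γ w φ) μ := int1_mV (hD.Γ_mem1 hW hφ) K p _
  have i4 : Integrable ((sob m).Γ φ φ) μ := int1_mV (hD.mem1 _ hφ) K p _
  set A := ∫ x, 2 * gg p x ∂μ with hA
  set B := ∫ x, φ x ∂μ with hB
  set G := ∫ x, (sob m).Γ w φ x ∂μ with hG
  set Q := ∫ x, (sob m).Γ φ φ x ∂μ with hQ
  have hle : ∫ x, (sob m).Γ w w x ∂μ ≤ A :=
    integral_mono_ae i2 i1 (hac.ae_le (ww_up hfin hδ p))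
  have key : ∀ ε : ℝ, 0 < ε → -G ≤ n * B + ε / 2 * Q := by
    intro ε hε
    have h1 := star h hfin hD hδ p hφ hφ0 hε.le
    rw [← hw, ← hμ, ← hA, ← hB] at h1
    have h2 : ∫ x, (sob m).Γ (w + ε • φ) (w + ε • φ) x ∂μ
        = ∫ x, (sob m).Γ w w x ∂μ + 2 * ε * G + ε ^ 2 * Q := by
      have i5 : Integrable (fun x => (sob m).Γ w w x + 2 * ε * (sob m).Γ w φ x) μ :=
        i2.add (i3.const_mul _)
      rw [hG, hQ, ← integral_const_mul, ← integral_const_mul, ← integral_add i2 (i3.const_mul _),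
        ← integral_add i5 (i4.const_mul _)]
      rw [hD.Γ_expand ε hW hφ]
      refine integral_congr_ae ?_
      filter_upwards [hac.ae_le (add_ae ((sob m).Γ w w + (2 * ε) • (sob m).Γ w φ)
          ((ε ^ 2) • (sob m).Γ φ φ)),
        hac.ae_le (add_ae ((sob m).Γ w w) ((2 * ε) • (sob m).Γ w φ)),
        hac.ae_le (smul_ae ((sob m).Γ w φ) (2 * ε)), hac.ae_le (smul_ae ((sob m).Γ φ φ) (ε ^ 2))]
        with x a1 a2 a3 a4
      rw [a1, a2, a3, a4]
    rw [h2] at h1
    have h3 : ε * (-G) ≤ ε * (n * B + ε / 2 * Q) := by nlinarith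
    exact le_of_mul_le_mul_left h3 hε
  have hlim : Tendsto (fun ε : ℝ => n * B + ε / 2 * Q) (𝓝[>] 0) (𝓝 (n * B + 0 / 2 * Q)) := by
    refine Tendsto.mono_left ?_ nhdsWithin_le_nhds
    exact Continuous.tendsto (by fun_prop) 0
  have := ge_of_tendsto hlim (by filter_upwards [self_mem_nhdsWithin] with ε hε using key ε hε)
  simpa using this

theorem int_mV (m : Measure M) (K : ℝ) (p : M) (R : ℝ) (F : M → ℝ) :
    ∫ x in closedBall p R, F x ∂(mV m K p) = ∫ x in closedBall p R, VV K p x * F x ∂m := by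
  unfold mV
  rw [restrict_withDensity isClosed_closedBall.measurableSet,
    integral_withDensity_eq_integral_toReal_smul
      ((VV_cont K p).measurable.ennreal_ofReal) (Eventually.of_forall fun x => ENNReal.ofReal_lt_top)]
  refine integral_congr_ae (Eventually.of_forall fun x => ?_)
  simp only [smul_eq_mul]
  rw [ENNReal.toReal_ofReal (VV_pos K p x).le]

theorem lc_main (h : OS m n K) (hfin : ∀ (x : M) (r : ℝ), m (ball x r) < ∞) (hD : IsDir (sob m))
    (hδ : 0 < δ) (p : M) {ψ : M →ₘ[m] ℝ} (hψ : ψ ∈ (sob m).W) (hψ0 : 0 ≤ ψ)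
    (hψE : ∀ᵐ x ∂m, δ ≤ gg p x → ψ x = 0) :
    -I ((sob m).Γ (cl m (ww δ p)) ψ) ≤ ∫ x, (n - 2 * K / 3 * gg p x) * ψ x ∂m := by
  have hW : cl m (ww δ p) ∈ (sob m).W := H339.ww_mem hfin hδ p
  have hwae := H339.ww_ae (m := m) hδ p
  have hΓb := H183.Γ_cl_le hfin (H339.ww_lip hδ p) (x₀ := p) (R := √(2 * δ))
    (fun x hx => H339.ww_zero (by rwa [dist_comm] at hx))
  have hEq := ww_eqE h hfin hD hδ p
  set w := cl m (ww δ p) with hw
  have hwB : ∀ᵐ x ∂m, |w x| ≤ δ := by
    filter_upwards [hwae] with x hx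
    rw [hx, abs_le]
    have h1 : 0 ≤ min (gg p x) δ := le_min (H339.gg_nonneg p x) hδ.le
    have h2 : min (gg p x) δ ≤ δ := min_le_right _ _
    constructor <;> linarith
  obtain ⟨e, heA, he, heΓ⟩ := H339.exists_exp hD hW hwB (-(K / 3))
  set a : ℝ := -(K / 3) with ha
  have hee : MemLp ((sob m).Γ e e) ∞ m := by
    rw [mem_top_iff]
    refine ⟨(|a| * Real.exp (|a| * δ)) ^ 2 * ((Real.toNNReal √(2 * δ) : ℝ≥0) : ℝ) ^ 2, ?_⟩
    have hs := hD.symm w hW e heA.1
    filter_upwards [heΓ e heA.1, heΓ w hW, hΓb, hwB, hD.Γ_nonneg_ae hW] with x h1 h2 h3 h4 h5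
    rw [h1, hs, h2]
    have h6 : Real.exp (a * w x) ≤ Real.exp (|a| * δ) := by
      refine Real.exp_le_exp.2 ((le_abs_self _).trans ?_)
      rw [abs_mul]
      exact mul_le_mul_of_nonneg_left h4 (abs_nonneg _)
    have h7 := Real.exp_pos (a * w x)
    have e1 : a * Real.exp (a * w x) * (a * Real.exp (a * w x) * (sob m).Γ w w x)
        = (|a| * Real.exp (a * w x)) ^ 2 * (sob m).Γ w w x := by
      rw [mul_pow, sq_abs]
      ring
    rw [e1, abs_of_nonneg (by positivity)]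
    have h8 : (|a| * Real.exp (a * w x)) ^ 2 ≤ (|a| * Real.exp (|a| * δ)) ^ 2 :=
      pow_le_pow_left₀ (by positivity) (mul_le_mul_of_nonneg_left h6 (abs_nonneg _)) 2
    exact mul_le_mul h8 h3 h5 (by positivity)
  have hprod : e * ψ ∈ (sob m).W := hD.mul_mem_lip heA hee hψ
  have hφW : ψ + e * ψ ∈ (sob m).W := hD.add_mem _ hψ _ hprod
  set φ := ψ + e * ψ with hφ
  have hφae : ∀ᵐ x ∂m, φ x = Real.exp (a * w x) * ψ x := by
    filter_upwards [add_ae ψ (e * ψ), mul_ae e ψ, he] with x h1 h2 h3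
    rw [hφ, h1, h2, h3]
    ring
  have hφ0 : 0 ≤ φ := by
    rw [nonneg_iff_ae]
    filter_upwards [hφae, nonneg_iff_ae.1 hψ0] with x h1 h2
    rw [h1]
    positivity
  have hΓφ : ∀ᵐ x ∂m, (sob m).Γ w φ x
      = Real.exp (a * w x) * ((sob m).Γ w ψ x + a * ψ x * (sob m).Γ w w x) := by
    have h1 : (sob m).Γ w φ = (sob m).Γ ψ w + (e * (sob m).Γ ψ w + ψ * (sob m).Γ e w) := by
      rw [hD.symm w hW φ hφW, hφ, hD.add_left ψ hψ _ hprod w hW,
        hD.Γ_mul_left_lip heA hee hψ hW]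
    rw [h1, hD.symm ψ hψ w hW]
    filter_upwards [add_ae ((sob m).Γ w ψ) (e * (sob m).Γ w ψ + ψ * (sob m).Γ e w),
      add_ae (e * (sob m).Γ w ψ) (ψ * (sob m).Γ e w), mul_ae e ((sob m).Γ w ψ),
      mul_ae ψ ((sob m).Γ e w), he, heΓ w hW] with x a1 a2 a3 a4 a5 a6
    rw [a1, a2, a3, a4, a5, a6]
    ring
  have hst := star' h hfin hD hδ p hφW hφ0
  rw [← hw, int_mV, int_mV] at hst
  set E := closedBall p √(2 * δ) with hE
  have hEm : MeasurableSet E := isClosed_closedBall.measurableSet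
  -- on `E`
  have e1 : ∫ x in E, VV K p x * (sob m).Γ w φ x ∂m
      = ∫ x in E, Real.exp (K / 3 * δ) * ((sob m).Γ w ψ x - 2 * K / 3 * gg p x * ψ x) ∂m := by
    refine setIntegral_congr_ae hEm ?_
    filter_upwards [hΓφ, hwae, hEq] with x h1 h2 h3 hx
    have hg : gg p x ≤ δ := (gg_le_iff hδ.le p x).2 hx
    have h4 : VV K p x * Real.exp (a * w x) = Real.exp (K / 3 * δ) := by
      rw [h2, min_eq_left hg, VV, ← Real.exp_add, ha]
      congr 1
      unfold gg
      ring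
    rw [h1, h3 hg, ← mul_assoc, h4, ha]
    ring
  have e2 : ∫ x in E, VV K p x * φ x ∂m = ∫ x in E, Real.exp (K / 3 * δ) * ψ x ∂m := by
    refine setIntegral_congr_ae hEm ?_
    filter_upwards [hφae, hwae] with x h1 h2 hx
    have hg : gg p x ≤ δ := (gg_le_iff hδ.le p x).2 hx
    have h4 : VV K p x * Real.exp (a * w x) = Real.exp (K / 3 * δ) := by
      rw [h2, min_eq_left hg, VV, ← Real.exp_add, ha]
      congr 1
      unfold gg
      ring
    rw [h1, ← mul_assoc, h4]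
  rw [e1, e2, integral_const_mul, integral_const_mul] at hst
  have hc : 0 < Real.exp (K / 3 * δ) := Real.exp_pos _
  have hst2 : -∫ x in E, ((sob m).Γ w ψ x - 2 * K / 3 * gg p x * ψ x) ∂m
      ≤ n * ∫ x in E, ψ x ∂m := by
    have : Real.exp (K / 3 * δ) * (-∫ x in E, ((sob m).Γ w ψ x - 2 * K / 3 * gg p x * ψ x) ∂m)
        ≤ Real.exp (K / 3 * δ) * (n * ∫ x in E, ψ x ∂m) := by linarith
    exact le_of_mul_le_mul_left this hc
  -- integrability
  have iΓ : Integrable ((sob m).Γ w ψ) m := int_of_mem (hD.Γ_mem1 hW hψ)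
  have hEfin : m E < ∞ :=
    (measure_mono (closedBall_subset_ball (lt_add_one _))).trans_lt (hfin p _)
  haveI : IsFiniteMeasure (m.restrict E) := ⟨by rwa [Measure.restrict_apply_univ]⟩
  have iψ : IntegrableOn ψ E m := ((hD.memLp _ hψ).restrict E).integrable (by norm_num)
  have igψ : IntegrableOn (fun x => 2 * K / 3 * gg p x * ψ x) E m := by
    refine Integrable.bdd_mul (c := |2 * K / 3| * δ) iψ ?_ ?_
    · exact (((H339.continuous_gg p).measurable.const_mul _).aestronglyMeasurable)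
    · rw [ae_restrict_iff' hEm]
      refine Eventually.of_forall fun x hx => ?_
      have hg : gg p x ≤ δ := (gg_le_iff hδ.le p x).2 hx
      rw [Real.norm_eq_abs, abs_mul, abs_of_nonneg (H339.gg_nonneg p x)]
      exact mul_le_mul_of_nonneg_left hg (abs_nonneg _)
  rw [integral_sub iΓ.integrableOn igψ] at hst2
  -- off `E`
  have hoff : ∀ᵐ x ∂m, x ∉ E → (sob m).Γ w ψ x = 0 := by
    filter_upwards [hwae, hD.Γ_zero_ae hW, hD.Γ_cs_ae hW hψ] with x h1 h2 h3 hx
    have hg : δ ≤ gg p x := by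
      by_contra hlt
      exact hx ((gg_le_iff hδ.le p x).1 (not_le.1 hlt).le)
    have h4 : w x = 0 := by rw [h1, min_eq_right hg, sub_self]
    rw [h2 h4, zero_mul] at h3
    exact pow_eq_zero_iff two_ne_zero |>.1 (le_antisymm h3 (sq_nonneg _))
  have hψoff : ∀ᵐ x ∂m, x ∉ E → ψ x = 0 := by
    filter_upwards [hψE] with x h1 hx
    refine h1 ?_
    by_contra hlt
    exact hx ((gg_le_iff hδ.le p x).1 (not_le.1 hlt).le)
  have e3 : ∫ x in E, (sob m).Γ w ψ x ∂m = I ((sob m).Γ w ψ) := by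
    unfold I
    exact setIntegral_eq_integral_of_ae_compl_eq_zero hoff
  have e4 : ∫ x, (n - 2 * K / 3 * gg p x) * ψ x ∂m
      = ∫ x in E, (n - 2 * K / 3 * gg p x) * ψ x ∂m := by
    refine (setIntegral_eq_integral_of_ae_compl_eq_zero ?_).symm
    filter_upwards [hψoff] with x h1 hx
    rw [h1 hx, mul_zero]
  have e5 : ∫ x in E, (n - 2 * K / 3 * gg p x) * ψ x ∂m
      = n * ∫ x in E, ψ x ∂m - ∫ x in E, 2 * K / 3 * gg p x * ψ x ∂m := by
    rw [← integral_const_mul, ← integral_sub (iψ.const_mul _) igψ]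
    refine integral_congr_ae (Eventually.of_forall fun x => ?_)
    simp only
    ring
  rw [e4, e5, ← e3]
  linarith

theorem blk_Lc : CD.Blk_Lc.{u} := by
  intro M _ _ _ _ _ m n K hn hG hQ hO
  have hfin := hG.fin
  have hD : IsDir (sob m) := isDir_sob hfin hQ
  refine ⟨fun p δ hδ φ hφ hφ0 hφE => lc_main hO hfin hD hδ p hφ hφ0 hφE, fun p δ hδ => ?_⟩
  have hW : cl m (ww δ p) ∈ (sob m).W := H339.ww_mem hfin hδ p
  filter_upwards [ww_eqE hO hfin hD hδ p, sob_Γ_self_ae hW, slope_ae hW] with x h1 h2 h3 hx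
  rw [h3, ← h2, h1 hx.le]

end Vale.Agent.P233.H227.Ch
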