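import Vale.Agent.P233.H227.IntoC
import Vale.Agent.P233.H457.GlueC

/-! P233: the literal input `PC.IntoC` of helper457's glue. -/

set_option linter.all false

open MeasureTheory Filter Topology Set
open scoped ENNReal NNReal InnerProductSpace MeasureTheory

universe u

namespace Vale.Agent.P233.PC

theorem intoC (hA1 : PA.Blk_A1.{u}) (hA : PA.Blk_A.{u}) (hB : Blk_AsmB.{u}) : IntoC.{u} := by
  intro M _ _ _ _ _ n κ h
  obtain ⟨P, E, i1, i2, i3, Gr, V, D, HO, e, hc⟩ := into_c hA1 hA hB M n κ h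
  exact ⟨P, E, i1, i2, i3, Gr, V, D, HO, e, hc.ehyp, fun p s₀ C₀ h1 h2 h3 =>
    ⟨hc.chyp h1 h2 h3, hc.lev p s₀ C₀ h1 h2 h3⟩⟩

end Vale.Agent.P233.PC
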