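import Vale.Agent.P233.H227.AsmBDef
import Vale.Agent.P233.Gig.Main
import Vale.Agent.P233.H183.Unit
import Vale.Agent.P233.H326.Curv
import Vale.Agent.P233.H131.StatT1
import Vale.Agent.P233.H853.BlkB
import Vale.Agent.P233.H825.BlkBSec
import Mathlib.Analysis.InnerProductSpace.l2Space

/-! P233: from the hypotheses (B) to the input of part C. -/

set_option linter.all false

open MeasureTheory Filter Topology Set
open scoped ENNReal NNReal InnerProductSpace MeasureTheory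

universe u

namespace Vale.Agent.P233.PC

open Vale.Agent.P233.PA (en OutA PotLim)

/-- The standing data and the inputs of part C for all centres. -/
structure CIn {M : Type u} [MetricSpace M] [MeasurableSpace M] (m : Measure M) (K N κ : ℝ)
    (P : ℝ → (M →ₘ[m] ℝ) → (M →ₘ[m] ℝ))
    {E : Type} [NormedAddCommGroup E] [InnerProductSpace ℝ E]
    (Gr : (M →ₘ[m] ℝ) → M → E) (V : (M →ₘ[m] ℝ) → (M →ₘ[m] ℝ) → M → E)
    (D : (M →ₘ[m] ℝ) → (M →ₘ[m] ℝ))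
    (HO : (M →ₘ[m] ℝ) → M → E →L[ℝ] E) (e : ℕ → M →ₘ[m] ℝ) : Prop where
  std : Std m K N
  hK : K ≤ 0
  atom : ∀ p : M, m {p} = 0
  heat : Heat (sob m) K P
  ehyp : EHyp m K N Gr V D HO e
  ctb : CtB (sob m) K N Gr V D
  sec : (sob m).Sec V κ
  lev : ∀ (p : M) (s₀ C₀ : ℝ), 0 < s₀ → s₀ ≤ 1 → 0 < C₀ →
    ∃ u φ, OutA m K N P p s₀ C₀ u φ ∧ LevB m Gr V D κ u φ

/-- The standing hypotheses of part C for one centre. -/
theorem CIn.chyp {M : Type u} [MetricSpace M] [MeasurableSpace M] {m : Measure M} {K N κ : ℝ}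
    {P : ℝ → (M →ₘ[m] ℝ) → (M →ₘ[m] ℝ)}
    {E : Type} [NormedAddCommGroup E] [InnerProductSpace ℝ E]
    {Gr : (M →ₘ[m] ℝ) → M → E} {V : (M →ₘ[m] ℝ) → (M →ₘ[m] ℝ) → M → E}
    {D : (M →ₘ[m] ℝ) → (M →ₘ[m] ℝ)}
    {HO : (M →ₘ[m] ℝ) → M → E →L[ℝ] E} {e : ℕ → M →ₘ[m] ℝ}
    (h : CIn m K N κ P Gr V D HO e) {p : M} {s₀ C₀ : ℝ} (h1 : 0 < s₀) (h2 : s₀ ≤ 1) (h3 : 0 < C₀) :
    CHyp M m K N P p s₀ C₀ := ⟨h.std, h.hK, h.atom p, h.heat, h1, h2, h3⟩

theorem std_mono {M : Type u} [MetricSpace M] [MeasurableSpace M] [BorelSpace M]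
    [SecondCountableTopology M] {m : Measure M} {K K' N : ℝ} (hN : 0 < N) (hK : K' ≤ K)
    (hf : m.IsOpenPosMeasure) (h : T.IsRCD m K N) : Std m K' N := by
  have hR := isRCD_of_S (T_rcd h)
  have hfin := ball_lt_top_of_growth hR.growth
  have hC : IsGamma (sob m) := isGamma_sob hfin hR.quadratic hR.sobolev_to_lipschitz
  exact ⟨hf, hN, ⟨hR.quadratic, hR.growth, hR.sobolev_to_lipschitz,
    hC.BE_mono hK hN hR.bochner⟩, hfin⟩

theorem sep_l2 : TopologicalSpace.SeparableSpace (lp (fun _ : ℕ => ℝ) 2) := by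
  have hb : HilbertBasis ℕ ℝ (lp (fun _ : ℕ => ℝ) 2) := ⟨LinearIsometryEquiv.refl ℝ _⟩
  have h := hb.dense_span
  have h2 : TopologicalSpace.IsSeparable
      (Submodule.span ℝ (Set.range hb) : Set (lp (fun _ : ℕ => ℝ) 2)) :=
    (Set.countable_range _).isSeparable.span (R := ℝ)
  rw [← TopologicalSpace.isSeparable_univ_iff]
  have h3 := h2.closure
  rw [← Submodule.topologicalClosure_coe, h] at h3
  simpa using h3

/-- From (B) to the input of part C. -/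
theorem into_c (hA1 : PA.Blk_A1.{u}) (hA : PA.Blk_A.{u}) (hB : Blk_AsmB.{u})
    (M : Type u) [MetricSpace M] [CompleteSpace M] [SecondCountableTopology M]
    [MeasurableSpace M] [BorelSpace M] (n : ℕ) (κ : ℝ) (h : Gig.HypB M n κ) :
    ∃ (P : ℝ → (M →ₘ[(μH[n] : Measure M)] ℝ) → (M →ₘ[(μH[n] : Measure M)] ℝ))
      (E : Type) (_ : NormedAddCommGroup E) (_ : InnerProductSpace ℝ E) (_ : CompleteSpace E)
      (Gr : (M →ₘ[(μH[n] : Measure M)] ℝ) → M → E)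
      (V : (M →ₘ[(μH[n] : Measure M)] ℝ) → (M →ₘ[(μH[n] : Measure M)] ℝ) → M → E)
      (D : (M →ₘ[(μH[n] : Measure M)] ℝ) → (M →ₘ[(μH[n] : Measure M)] ℝ))
      (HO : (M →ₘ[(μH[n] : Measure M)] ℝ) → M → E →L[ℝ] E) (e : ℕ → M →ₘ[(μH[n] : Measure M)] ℝ),
      CIn (μH[n] : Measure M) (min ((n - 1) * κ) 0) n κ P Gr V D HO e := by
  set m : Measure M := μH[n] with hm
  set K : ℝ := min ((n - 1) * κ) 0 with hKdef
  have hn : (0 : ℝ) < n := by
    have := h.two_le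
    exact_mod_cast (by omega : 0 < n)
  have hS : Std m K n := std_mono hn (min_le_left _ _) h.full h.rcd
  have hbase := H326.base_of_rcd hn h.rcd
  have hsf : SigmaFinite m := hbase.sf
  have hC : IsGamma (sob m) := hbase.hC
  have hBE : (sob m).BE K n := hS.rcd.bochner
  have hBi : (sob m).BEi K := hC.bei hn hBE
  have hat : ∀ p : M, m {p} = 0 := by
    intro p
    have := Measure.noAtoms_hausdorff M hn
    exact measure_singleton p
  obtain ⟨P, hP⟩ := hA1 M m K n hS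
  obtain ⟨Gr, HO, e, hst, -⟩ := H131.exists_stat_sob hS
  obtain ⟨V, hV⟩ := hC.exists_HU hBi hst.grad
  obtain ⟨D, hD⟩ := H853.blk_BHD M m (sob m) K n hC hn hBE _ Gr V hst.grad hV
  have hcb : CtB (sob m) K n Gr V D := ⟨hC, hn, hBE, hst.grad, hV, hD⟩
  have hsec : (sob m).Sec V κ := blk_BSec M m (sob m) K κ hC hBi _ Gr V hst.grad hV
    (H326.curv_pos hbase h.sec hst.grad hV)
  refine ⟨P, _, _, _, inferInstance, Gr, V, D, HO, e, hS, min_le_right _ _, hat, hP,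
    ⟨sep_l2, hst, hV, hD⟩, hcb,
    hsec, fun p s₀ C₀ h1 h2 h3 => ?_⟩
  obtain ⟨u, φ, hL⟩ := hA M m K n hS P hP p s₀ C₀ h1 h2 h3
  have hyp : CHyp M m K n P p s₀ C₀ := ⟨hS, min_le_right _ _, hat p, hP, h1, h2, h3⟩
  exact ⟨u, φ, hL, hB M m K n κ P p s₀ C₀ hyp _ Gr V D hcb hsec u φ hL⟩

end Vale.Agent.P233.PC
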