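import Vale.Agent.P233.RA.IfG
import Vale.Agent.P233.H715.RG1
import Vale.Agent.P233.H616.Bridge

/-! P233, RCDA, block L2 (helper227), real analysis: the radial functions `rho`, `lam`. -/

set_option linter.all false

open Filter Topology Set

namespace Vale.Agent.P233.H227.LC2

open Vale.Agent.P233.RG

variable {κ r R s : ℝ}

theorem d_sn (κ t : ℝ) : HasDerivAt (sn κ) (cs κ t) t := H616.hasDerivAt_sn κ t
theorem d_cs (κ t : ℝ) : HasDerivAt (cs κ) (-(κ * sn κ t)) t := H616.hasDerivAt_cs κ t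
theorem c_sn (κ : ℝ) : Continuous (sn κ) := H616.continuous_sn κ
theorem c_cs (κ : ℝ) : Continuous (cs κ) := H616.continuous_cs κ
theorem sn_0 (κ : ℝ) : sn κ 0 = 0 := H616.sn_at_zero κ
theorem cs_0 (κ : ℝ) : cs κ 0 = 1 := H616.cs_at_zero κ
theorem sn_pos (hr : 0 < r) (h : √κ * r < Real.pi) : 0 < sn κ r := H616.sn_pos hr fun _ => h
theorem sn_nonneg (hr : 0 ≤ r) (h : √κ * r ≤ Real.pi) : 0 ≤ sn κ r := H616.sn_nonneg hr fun _ => h

/-- admissible radii -/
def Ad (κ r : ℝ) : Prop := 0 ≤ r ∧ √κ * r < Real.pi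

theorem Ad.mono (h : Ad κ R) (h0 : 0 ≤ r) (h1 : r ≤ R) : Ad κ r :=
  ⟨h0, (mul_le_mul_of_nonneg_left h1 (Real.sqrt_nonneg _)).trans_lt h.2⟩

/-! ### the function `rho` -/

theorem rho_z (s r : ℝ) : rho 0 s r = Real.exp (-s) * r := by unfold rho; simp

theorem rho_p (h : 0 < κ) (s r : ℝ) :
    rho κ s r = 2 / √κ * Real.arctan (Real.exp (-s) * Real.tan (√κ * r / 2)) := by
  unfold rho; rw [if_neg h.ne', if_pos h]

theorem rho_n (h : κ < 0) (s r : ℝ) :
    rho κ s r = (Real.log (1 + Real.exp (-s) * Real.tanh (√(-κ) * r / 2))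
      - Real.log (1 - Real.exp (-s) * Real.tanh (√(-κ) * r / 2))) / √(-κ) := by
  unfold rho; rw [if_neg h.ne, if_neg (not_lt.2 h.le)]

theorem tanh_bd (hκ : κ < 0) (hr : 0 ≤ r) (hs : 0 ≤ s) :
    0 ≤ Real.exp (-s) * Real.tanh (√(-κ) * r / 2) ∧ Real.exp (-s) * Real.tanh (√(-κ) * r / 2) < 1 ∧
      Real.exp (-s) * Real.tanh (√(-κ) * r / 2) ≤ Real.tanh (√(-κ) * r / 2) := by
  have h1 : 0 ≤ Real.tanh (√(-κ) * r / 2) := by
    rw [Real.tanh_eq_sinh_div_cosh]
    exact div_nonneg (Real.sinh_nonneg_iff.2 (by positivity)) (Real.cosh_pos _).le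
  have h2 : Real.tanh (√(-κ) * r / 2) < 1 := Real.tanh_lt_one _
  have h3 : Real.exp (-s) ≤ 1 := Real.exp_le_one_iff.2 (by linarith)
  have h4 : 0 < Real.exp (-s) := Real.exp_pos _
  refine ⟨by positivity, ?_, ?_⟩ <;> nlinarith

theorem tan_bd (h : 0 < κ) (hr : Ad κ r) : 0 ≤ Real.tan (√κ * r / 2) ∧
    -(Real.pi / 2) < √κ * r / 2 ∧ √κ * r / 2 < Real.pi / 2 := by
  have h0 : 0 ≤ √κ * r / 2 := by have := hr.1; positivity
  have h1 : √κ * r / 2 < Real.pi / 2 := by have := hr.2; linarith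
  exact ⟨Real.tan_nonneg_of_nonneg_of_le_pi_div_two h0 h1.le, by linarith [Real.pi_pos], h1⟩

theorem rho_init (hr : Ad κ r) : rho κ 0 r = r := by
  rcases lt_trichotomy κ 0 with hk | hk | hk
  · have hs : 0 < √(-κ) := Real.sqrt_pos.2 (by linarith)
    rw [rho_n hk, neg_zero, Real.exp_zero, one_mul]
    set x := √(-κ) * r / 2 with hx
    have hc : 0 < Real.cosh x := Real.cosh_pos x
    have e1 : 1 + Real.tanh x = Real.exp x / Real.cosh x := by
      rw [Real.tanh_eq_sinh_div_cosh, ← Real.cosh_add_sinh]; field_simp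
    have e2 : 1 - Real.tanh x = Real.exp (-x) / Real.cosh x := by
      rw [Real.tanh_eq_sinh_div_cosh, ← Real.cosh_sub_sinh]; field_simp
    rw [e1, e2, Real.log_div (Real.exp_pos _).ne' hc.ne', Real.log_div (Real.exp_pos _).ne' hc.ne',
      Real.log_exp, Real.log_exp, hx]
    field_simp; ring
  · subst hk; rw [rho_z]; simp
  · have hs : 0 < √κ := Real.sqrt_pos.2 hk
    obtain ⟨h1, h2, h3⟩ := tan_bd hk hr
    rw [rho_p hk, neg_zero, Real.exp_zero, one_mul, Real.arctan_tan h2 h3]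
    field_simp

theorem d_rho (hr : Ad κ r) (hs : 0 ≤ s) :
    HasDerivAt (fun s => rho κ s r) (-sn κ (rho κ s r)) s := by
  have he : HasDerivAt (fun s : ℝ => Real.exp (-s)) (-Real.exp (-s)) s := by
    simpa using (hasDerivAt_id s).neg.exp
  rcases lt_trichotomy κ 0 with hk | hk | hk
  · have hs0 : 0 < √(-κ) := Real.sqrt_pos.2 (by linarith)
    obtain ⟨h1, h2, -⟩ := tanh_bd hk hr.1 hs
    have e : (fun s => rho κ s r) = fun s =>
        (Real.log (1 + Real.exp (-s) * Real.tanh (√(-κ) * r / 2))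
      - Real.log (1 - Real.exp (-s) * Real.tanh (√(-κ) * r / 2))) / √(-κ) :=
      funext fun s => rho_n hk s r
    rw [e, rho_n hk]
    set T := Real.tanh (√(-κ) * r / 2) with hT
    have hd1 := ((he.mul_const T).const_add 1).log (by linarith)
    have hd2 := ((he.mul_const T).const_sub 1).log (by linarith)
    refine ((hd1.sub hd2).div_const (√(-κ))).congr_deriv ?_
    set τ := Real.exp (-s) * T with hτ
    have hp : 0 < 1 + τ := by linarith
    have hm : 0 < 1 - τ := by linarith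
    have e3 : √(-κ) * ((Real.log (1 + τ) - Real.log (1 - τ)) / √(-κ))
        = Real.log ((1 + τ) / (1 - τ)) := by
      rw [Real.log_div hp.ne' hm.ne']; field_simp
    have e4 : sn κ ((Real.log (1 + τ) - Real.log (1 - τ)) / √(-κ))
        = Real.sinh (√(-κ) * ((Real.log (1 + τ) - Real.log (1 - τ)) / √(-κ))) / √(-κ) :=
      H616.sn_neg' hk _
    rw [e4, e3, Real.sinh_log (div_pos hp hm), inv_div]
    have e5 : -Real.exp (-s) * T = -τ := by rw [hτ]; ring
    rw [e5]
    field_simp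
    ring
  · subst hk
    have e : (fun s => rho 0 s r) = fun s => Real.exp (-s) * r := funext fun s => rho_z s r
    have e4 : sn 0 (Real.exp (-s) * r) = Real.exp (-s) * r := H616.sn_zero' _
    rw [e, rho_z, e4]
    exact (he.mul_const r).congr_deriv (by ring)
  · have hs0 : 0 < √κ := Real.sqrt_pos.2 hk
    have e : (fun s => rho κ s r) = fun s =>
        2 / √κ * Real.arctan (Real.exp (-s) * Real.tan (√κ * r / 2)) :=
      funext fun s => rho_p hk s r
    rw [e, rho_p hk]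
    set T := Real.tan (√κ * r / 2) with hT
    have hd := ((he.mul_const T).arctan).const_mul (2 / √κ)
    refine hd.congr_deriv ?_
    set τ := Real.exp (-s) * T with hτ
    have e4 : sn κ (2 / √κ * Real.arctan τ) = Real.sin (√κ * (2 / √κ * Real.arctan τ)) / √κ :=
      H616.sn_pos' hk _
    have e5 : √κ * (2 / √κ * Real.arctan τ) = 2 * Real.arctan τ := by field_simp
    have h1 : 0 < 1 + τ ^ 2 := by positivity
    rw [e4, e5, Real.sin_two_mul, Real.sin_arctan, Real.cos_arctan]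
    have e6 : -Real.exp (-s) * T = -τ := by rw [hτ]; ring
    have e7 : 2 * (τ / √(1 + τ ^ 2)) * (1 / √(1 + τ ^ 2)) = 2 * τ / (1 + τ ^ 2) := by
      rw [mul_assoc, div_mul_div_comm, Real.mul_self_sqrt h1.le]; ring
    rw [e6, e7]
    field_simp

theorem rho_le (hr : Ad κ r) (hs : 0 ≤ s) : rho κ s r ≤ r := by
  have h0 := rho_init hr
  rcases lt_trichotomy κ 0 with hk | hk | hk
  · have hs0 : 0 < √(-κ) := Real.sqrt_pos.2 (by linarith)
    obtain ⟨h1, h2, h3⟩ := tanh_bd hk hr.1 hs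
    rw [rho_n hk, neg_zero, Real.exp_zero, one_mul] at h0
    rw [rho_n hk]
    nth_rewrite 3 [← h0]
    have h4 : Real.tanh (√(-κ) * r / 2) < 1 := Real.tanh_lt_one _
    gcongr
  · subst hk; rw [rho_z]
    have h3 : Real.exp (-s) ≤ 1 := Real.exp_le_one_iff.2 (by linarith)
    have := hr.1
    nlinarith
  · have hs0 : 0 < √κ := Real.sqrt_pos.2 hk
    obtain ⟨h1, h2, h3⟩ := tan_bd hk hr
    rw [rho_p hk, neg_zero, Real.exp_zero, one_mul] at h0
    rw [rho_p hk]
    nth_rewrite 2 [← h0]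
    have h5 : Real.exp (-s) ≤ 1 := Real.exp_le_one_iff.2 (by linarith)
    refine mul_le_mul_of_nonneg_left (Real.arctan_strictMono.monotone ?_) (by positivity)
    nlinarith

theorem rho_pos (hr : Ad κ r) (hr0 : 0 < r) (hs : 0 ≤ s) : 0 < rho κ s r := by
  rcases lt_trichotomy κ 0 with hk | hk | hk
  · have hs0 : 0 < √(-κ) := Real.sqrt_pos.2 (by linarith)
    obtain ⟨h1, h2, h3⟩ := tanh_bd hk hr.1 hs
    have h4 : 0 < Real.exp (-s) * Real.tanh (√(-κ) * r / 2) :=
      mul_pos (Real.exp_pos _) (by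
        rw [Real.tanh_eq_sinh_div_cosh]
        exact div_pos (Real.sinh_pos_iff.2 (by positivity)) (Real.cosh_pos _))
    rw [rho_n hk]
    refine div_pos ?_ hs0
    have h5 := Real.log_pos (by linarith : 1 < 1 + Real.exp (-s) * Real.tanh (√(-κ) * r / 2))
    have h6 := Real.log_neg (by linarith : 0 < 1 - Real.exp (-s) * Real.tanh (√(-κ) * r / 2))
      (by linarith)
    linarith
  · subst hk; rw [rho_z]; have := Real.exp_pos (-s); positivity
  · have hs0 : 0 < √κ := Real.sqrt_pos.2 hk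
    obtain ⟨h1, h2, h3⟩ := tan_bd hk hr
    rw [rho_p hk]
    have h4 : 0 < Real.tan (√κ * r / 2) := Real.tan_pos_of_pos_of_lt_pi_div_two (by positivity) h3
    have h5 : 0 < Real.arctan (Real.exp (-s) * Real.tan (√κ * r / 2)) := by
      rw [Real.arctan_pos]; exact mul_pos (Real.exp_pos _) h4
    positivity

theorem rho_nonneg (hr : Ad κ r) (hs : 0 ≤ s) : 0 ≤ rho κ s r := by
  rcases hr.1.eq_or_lt with h | h
  · subst h
    unfold rho
    simp
  · exact (rho_pos hr h hs).le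

theorem rho_ad (hr : Ad κ r) (hs : 0 ≤ s) : Ad κ (rho κ s r) :=
  hr.mono (rho_nonneg hr hs) (rho_le hr hs)

/-- continuity in the radius -/
theorem c_rho (hs : 0 ≤ s) : ContinuousOn (rho κ s) {r | Ad κ r} := by
  rcases lt_trichotomy κ 0 with hk | hk | hk
  · have e : rho κ s = fun r => (Real.log (1 + Real.exp (-s) * Real.tanh (√(-κ) * r / 2))
      - Real.log (1 - Real.exp (-s) * Real.tanh (√(-κ) * r / 2))) / √(-κ) :=
      funext fun r => rho_n hk s r
    rw [e]
    have hc : Continuous fun r : ℝ => Real.exp (-s) * Real.tanh (√(-κ) * r / 2) := by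
      have e3 : (fun r : ℝ => Real.exp (-s) * Real.tanh (√(-κ) * r / 2)) = fun r : ℝ =>
          Real.exp (-s) * (Real.sinh (√(-κ) * r / 2) / Real.cosh (√(-κ) * r / 2)) :=
        funext fun r => by rw [Real.tanh_eq_sinh_div_cosh]
      rw [e3]
      refine continuous_const.mul (Continuous.div (by fun_prop) (by fun_prop) fun r => ?_)
      exact (Real.cosh_pos _).ne'
    refine ContinuousOn.div_const (ContinuousOn.sub ?_ ?_) _
    · refine ContinuousOn.log (continuous_const.add hc).continuousOn fun x hx => ?_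
      have := (tanh_bd hk hx.1 hs).1
      linarith
    · refine ContinuousOn.log (continuous_const.sub hc).continuousOn fun x hx => ?_
      have := (tanh_bd hk hx.1 hs).2.1
      linarith
  · subst hk
    have e : rho 0 s = fun r => Real.exp (-s) * r := funext fun r => rho_z s r
    rw [e]; fun_prop
  · have e : rho κ s = fun r => 2 / √κ * Real.arctan (Real.exp (-s) * Real.tan (√κ * r / 2)) :=
      funext fun r => rho_p hk s r
    rw [e]
    refine ContinuousOn.mul continuousOn_const (Real.continuous_arctan.comp_continuousOn ?_)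
    refine ContinuousOn.mul continuousOn_const ?_
    intro x hx
    obtain ⟨h1, h2, h3⟩ := tan_bd hk hx
    have h4 : ContinuousAt Real.tan (√κ * x / 2) :=
      Real.continuousAt_tan.2 (Real.cos_pos_of_mem_Ioo ⟨h2, h3⟩).ne'
    exact (h4.comp (f := fun x => √κ * x / 2) (by fun_prop)).continuousWithinAt

/-! ### bounds -/

theorem cs_le {t : ℝ} (h0 : 0 ≤ t) (h : t ≤ R) : |cs κ t| ≤ Real.cosh (√|κ| * R) :=
  H715.RG.abs_cs_le (by rwa [abs_of_nonneg h0])

theorem sn_le {t : ℝ} (h0 : 0 ≤ t) (h : t ≤ R) : |sn κ t| ≤ Real.cosh (√|κ| * R) * t := by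
  have := H715.RG.abs_sn_le (κ := κ) (t := t) (T := R) (by rwa [abs_of_nonneg h0])
  rwa [abs_of_nonneg h0] at this

/-- `sn` grows at least linearly -/
theorem sn_ge (hR : Ad κ R) : ∃ c > 0, ∀ t, 0 ≤ t → t ≤ R → c * t ≤ sn κ t := by
  rcases lt_trichotomy κ 0 with hk | hk | hk
  · refine ⟨1, one_pos, fun t h0 h1 => ?_⟩
    have hs0 : 0 < √(-κ) := Real.sqrt_pos.2 (by linarith)
    have e : sn κ t = Real.sinh (√(-κ) * t) / √(-κ) := H616.sn_neg' hk t
    rw [e, le_div_iff₀ hs0]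
    have := Real.self_le_sinh_iff.2 (by positivity : 0 ≤ √(-κ) * t)
    linarith
  · subst hk
    refine ⟨1, one_pos, fun t h0 h1 => ?_⟩
    have e : sn 0 t = t := H616.sn_zero' t
    rw [e, one_mul]
  · have hs0 : 0 < √κ := Real.sqrt_pos.2 hk
    rcases hR.1.eq_or_lt with h | h
    · refine ⟨1, one_pos, fun t h0 h1 => ?_⟩
      have ht : t = 0 := le_antisymm (h1.trans h.symm.le) h0
      rw [ht, sn_0]; simp
    · have hp : 0 < sn κ R := sn_pos h hR.2
      refine ⟨sn κ R / R, by positivity, fun t h0 h1 => ?_⟩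
      have e : ∀ t, sn κ t = Real.sin (√κ * t) / √κ := fun t => H616.sn_pos' hk t
      have m0 : (0 : ℝ) ∈ Icc (0 : ℝ) Real.pi := ⟨le_rfl, Real.pi_pos.le⟩
      have m1 : √κ * R ∈ Icc (0 : ℝ) Real.pi := ⟨by positivity, hR.2.le⟩
      have w0 : (0 : ℝ) ≤ 1 - t / R := by rw [sub_nonneg, div_le_one h]; exact h1
      have w1 : (0 : ℝ) ≤ t / R := by positivity
      have hconc := strictConcaveOn_sin_Icc.concaveOn.2 m0 m1 w0 w1 (by ring)
      simp only [smul_eq_mul, mul_zero, Real.sin_zero, zero_add] at hconc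
      have e2 : t / R * (√κ * R) = √κ * t := by field_simp
      rw [e2] at hconc
      rw [e, e]
      calc Real.sin (√κ * R) / √κ / R * t = (t / R * Real.sin (√κ * R)) / √κ := by field_simp
        _ ≤ _ := by gcongr

/-- `r cs r ≤ (1 - κ r²/3) sn r` -/
theorem ct_le (hr : Ad κ r) : r * cs κ r ≤ (1 - κ * r ^ 2 / 3) * sn κ r := by
  have hg : ∀ t ∈ Icc 0 r, 0 ≤ κ * (sn κ t - t * cs κ t) := by
    intro t ht
    have hm : MonotoneOn (fun t => κ * (sn κ t - t * cs κ t)) (Icc 0 r) := by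
      refine monotoneOn_of_deriv_nonneg (convex_Icc 0 r) ?_ ?_ ?_
      · have := c_sn κ; have := c_cs κ; fun_prop
      · intro x _
        exact (((d_sn κ x).sub ((hasDerivAt_id x).mul (d_cs κ x))).const_mul κ).differentiableAt.differentiableWithinAt
      · intro x hx
        rw [interior_Icc] at hx
        have hd := (((d_sn κ x).sub ((hasDerivAt_id x).mul (d_cs κ x))).const_mul κ)
        have hd' : HasDerivAt (fun t => κ * (sn κ t - t * cs κ t))
          (κ * (cs κ x - (1 * cs κ x + x * -(κ * sn κ x)))) x := hd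
        rw [hd'.deriv]
        have h1 : 0 ≤ sn κ x := sn_nonneg hx.1.le
          ((mul_le_mul_of_nonneg_left hx.2.le (Real.sqrt_nonneg _)).trans hr.2.le)
        have : κ * (cs κ x - (1 * cs κ x + x * -(κ * sn κ x))) = κ ^ 2 * (x * sn κ x) := by ring
        rw [this]
        have := hx.1
        positivity
    have h2 := hm ⟨le_rfl, ht.1.trans ht.2⟩ ht ht.1
    simpa [sn_0] using h2
  have hm : MonotoneOn (fun t => (1 - κ * t ^ 2 / 3) * sn κ t - t * cs κ t) (Icc 0 r) := by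
    have hd : ∀ x, HasDerivAt (fun t => (1 - κ * t ^ 2 / 3) * sn κ t - t * cs κ t)
        (-(κ * (2 * x) / 3) * sn κ x + (1 - κ * x ^ 2 / 3) * cs κ x
          - (1 * cs κ x + x * -(κ * sn κ x))) x := by
      intro x
      have h1 : HasDerivAt (fun t : ℝ => 1 - κ * t ^ 2 / 3) (-(κ * (2 * x) / 3)) x := by
        have := (((hasDerivAt_pow 2 x).const_mul κ).div_const 3).const_sub 1
        simpa using this
      exact (h1.mul (d_sn κ x)).sub ((hasDerivAt_id x).mul (d_cs κ x))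
    refine monotoneOn_of_deriv_nonneg (convex_Icc 0 r) ?_ ?_ ?_
    · have := c_sn κ; have := c_cs κ; fun_prop
    · intro x _
      exact (hd x).differentiableAt.differentiableWithinAt
    · intro x hx
      rw [interior_Icc] at hx
      rw [(hd x).deriv]
      have h1 := hg x ⟨hx.1.le, hx.2.le⟩
      have e : -(κ * (2 * x) / 3) * sn κ x + (1 - κ * x ^ 2 / 3) * cs κ x
          - (1 * cs κ x + x * -(κ * sn κ x)) = x / 3 * (κ * (sn κ x - x * cs κ x)) := by ring
      rw [e]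
      have := hx.1
      positivity
  have h2 := hm ⟨le_rfl, hr.1⟩ ⟨hr.1, le_rfl⟩ hr.1
  simp only [sn_0, mul_zero, zero_mul, sub_self] at h2
  linarith

/-- `H(r) = 1 + (n-1) r ct(r)` -/
noncomputable def HH (κ : ℝ) (n : ℕ) (r : ℝ) : ℝ := 1 + ((n : ℝ) - 1) * (r * cs κ r / sn κ r)

theorem HH_le {n : ℕ} (hn : 1 ≤ n) (hr : Ad κ r) (h0 : 0 < r) :
    HH κ n r ≤ n - 2 * (((n : ℝ) - 1) * κ) / 3 * (r ^ 2 / 2) := by
  have h1 : r * cs κ r / sn κ r ≤ 1 - κ * r ^ 2 / 3 := by
    rw [div_le_iff₀ (sn_pos h0 hr.2)]; exact ct_le hr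
  have h2 : (0 : ℝ) ≤ (n : ℝ) - 1 := by
    have : (1 : ℝ) ≤ n := by exact_mod_cast hn
    linarith
  have h3 := mul_le_mul_of_nonneg_left h1 h2
  unfold HH
  linarith

/-- the weight -/
noncomputable def FF (κ : ℝ) (n : ℕ) (s r : ℝ) : ℝ :=
  rho κ s r / sn κ (rho κ s r) * lam κ s r ^ n

theorem FF_zero {n : ℕ} (hr : Ad κ r) (h0 : 0 < r) : FF κ n 0 r = r / sn κ r := by
  unfold FF lam
  rw [rho_init hr, div_self (sn_pos h0 hr.2).ne', one_pow, mul_one]

theorem d_FF {n : ℕ} (hr : Ad κ r) (h0 : 0 < r) (hs : 0 ≤ s) :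
    HasDerivAt (fun s => FF κ n s r) (-(lam κ s r ^ n * HH κ n (rho κ s r))) s := by
  have hρ := d_rho hr hs
  have h1 : 0 < sn κ (rho κ s r) := sn_pos (rho_pos hr h0 hs) (rho_ad hr hs).2
  have h2 : 0 < sn κ r := sn_pos h0 hr.2
  have hσ : HasDerivAt (fun s => sn κ (rho κ s r)) (cs κ (rho κ s r) * -sn κ (rho κ s r)) s :=
    HasDerivAt.comp (h₂ := sn κ) (h := fun s => rho κ s r) s (d_sn κ (rho κ s r)) hρ
  have hl : HasDerivAt (fun s => lam κ s r) (cs κ (rho κ s r) * -sn κ (rho κ s r) / sn κ r) s :=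
    hσ.div_const _
  have hp : HasDerivAt (fun s => lam κ s r ^ n) ((n : ℝ) * lam κ s r ^ (n - 1) *
      (cs κ (rho κ s r) * -sn κ (rho κ s r) / sn κ r)) s := hl.pow n
  have hd : HasDerivAt (fun s => rho κ s r / sn κ (rho κ s r) * lam κ s r ^ n) _ s :=
    (hρ.div hσ h1.ne').mul hp
  refine hd.congr_deriv ?_
  set σ := sn κ (rho κ s r) with hσd
  have e1 : (n : ℝ) * lam κ s r ^ (n - 1) * (cs κ (rho κ s r) * -σ / sn κ r)
      = -(n * cs κ (rho κ s r) * lam κ s r ^ n) := by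
    rcases n with _ | n
    · simp
    · have e2 : cs κ (rho κ s r) * -σ / sn κ r = -(cs κ (rho κ s r) * lam κ s r) := by
        unfold lam; rw [hσd]; ring
      rw [e2, Nat.add_sub_cancel, pow_succ]; ring
  have e3 : ((fun s => rho κ s r) / fun s => sn κ (rho κ s r)) s = rho κ s r / σ := rfl
  rw [e1, e3]
  unfold HH
  rw [← hσd]
  field_simp
  ring

/-- All bounds that are needed for dominated convergence. -/
theorem bounds (n : ℕ) (hR : Ad κ R) : ∃ C : ℝ, 0 ≤ C ∧ ∀ r, 0 < r → r ≤ R → ∀ s, 0 ≤ s →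
    r - rho κ s r ≤ C * s ∧ 0 ≤ FF κ n s r ∧ FF κ n s r ≤ C ∧
    |FF κ n s r - r / sn κ r| ≤ C * s ∧ |HH κ n r| ≤ C ∧ r / sn κ r ≤ C := by
  obtain ⟨c, hc, hcs⟩ := sn_ge hR
  set D := Real.cosh (√|κ| * R) with hD
  have hD1 : 1 ≤ D := Real.one_le_cosh _
  -- the bound of `HH`
  have hHH : ∀ r, 0 < r → r ≤ R → |HH κ n r| ≤ 1 + |(n : ℝ) - 1| * (D / c) := by
    intro r h0 h1
    have h2 : 0 < sn κ r := sn_pos h0 (hR.mono h0.le h1).2
    have h3 : |r * cs κ r / sn κ r| ≤ D / c := by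
      rw [abs_div, abs_mul, abs_of_pos h0, abs_of_pos h2, div_le_div_iff₀ h2 hc]
      have h4 := cs_le (κ := κ) h0.le h1
      have h5 := hcs r h0.le h1
      calc r * |cs κ r| * c = |cs κ r| * (c * r) := by ring
        _ ≤ D * sn κ r := mul_le_mul h4 h5 (by positivity) (by linarith)
    unfold HH
    calc |1 + ((n : ℝ) - 1) * (r * cs κ r / sn κ r)|
        ≤ |1| + |((n : ℝ) - 1) * (r * cs κ r / sn κ r)| := abs_add_le _ _
      _ ≤ _ := by
        rw [abs_one, abs_mul]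
        gcongr
  have hq : ∀ r, 0 < r → r ≤ R → 0 ≤ r / sn κ r ∧ r / sn κ r ≤ 1 / c := by
    intro r h0 h1
    have h2 : 0 < sn κ r := sn_pos h0 (hR.mono h0.le h1).2
    refine ⟨by positivity, ?_⟩
    rw [div_le_div_iff₀ h2 hc]
    have := hcs r h0.le h1
    linarith
  have hlam : ∀ r, 0 < r → r ≤ R → ∀ s, 0 ≤ s → 0 ≤ lam κ s r ∧ lam κ s r ≤ D / c := by
    intro r h0 h1 s hs
    have hr := hR.mono h0.le h1
    have h2 : 0 < sn κ r := sn_pos h0 hr.2
    have h3 := rho_pos hr h0 hs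
    have h4 := rho_le hr hs
    have h5 : 0 < sn κ (rho κ s r) := sn_pos h3 (rho_ad hr hs).2
    unfold lam
    refine ⟨by positivity, ?_⟩
    rw [div_le_div_iff₀ h2 hc]
    have h6 := (le_abs_self _).trans (sn_le (κ := κ) h3.le (h4.trans h1))
    have h7 := hcs r h0.le h1
    calc sn κ (rho κ s r) * c ≤ (D * rho κ s r) * c := by gcongr
      _ ≤ (D * r) * c := by gcongr
      _ = D * (c * r) := by ring
      _ ≤ D * sn κ r := by gcongr
  set B := 1 + |(n : ℝ) - 1| * (D / c) with hB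
  have hB0 : 0 ≤ B := by positivity
  refine ⟨D * R + 1 / c * (D / c) ^ n + (D / c) ^ n * B + B + 1 / c, ?_, ?_⟩
  · have := hR.1; positivity
  intro r h0 h1 s hs
  have hR0 := hR.1
  have hr := hR.mono h0.le h1
  have p1 : 0 ≤ D * R := by positivity
  have p2 : 0 ≤ 1 / c * (D / c) ^ n := by positivity
  have p3 : 0 ≤ (D / c) ^ n * B := by positivity
  have p4 : 0 ≤ 1 / c := by positivity
  have hρ0 : ∀ s, 0 ≤ s → 0 < rho κ s r ∧ rho κ s r ≤ R := fun s hs =>
    ⟨rho_pos hr h0 hs, (rho_le hr hs).trans h1⟩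
  refine ⟨?_, ?_, ?_, ?_, ?_, ?_⟩
  · have h2 := (convex_Icc (0 : ℝ) s).norm_image_sub_le_of_norm_hasDerivWithin_le
      (f := fun s => rho κ s r) (f' := fun s => -sn κ (rho κ s r)) (C := D * R)
      (fun x hx => (d_rho hr hx.1).hasDerivWithinAt) (fun x hx => by
        rw [norm_neg, Real.norm_eq_abs]
        refine (sn_le (κ := κ) (hρ0 x hx.1).1.le (hρ0 x hx.1).2).trans ?_
        exact mul_le_mul_of_nonneg_left (hρ0 x hx.1).2 (by linarith))
      (left_mem_Icc.2 hs) (right_mem_Icc.2 hs)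
    rw [Real.norm_eq_abs, Real.norm_eq_abs, sub_zero, abs_of_nonneg hs, rho_init hr] at h2
    have h3 := (abs_le.1 h2).1
    have : D * R * s ≤ (D * R + 1 / c * (D / c) ^ n + (D / c) ^ n * B + B + 1 / c) * s :=
      mul_le_mul_of_nonneg_right (by linarith) hs
    linarith
  · unfold FF
    obtain ⟨h2, -⟩ := hq _ (hρ0 s hs).1 (hρ0 s hs).2
    obtain ⟨h3, -⟩ := hlam r h0 h1 s hs
    positivity
  · unfold FF
    obtain ⟨h2, h2'⟩ := hq _ (hρ0 s hs).1 (hρ0 s hs).2
    obtain ⟨h3, h3'⟩ := hlam r h0 h1 s hs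
    have : rho κ s r / sn κ (rho κ s r) * lam κ s r ^ n ≤ 1 / c * (D / c) ^ n := by gcongr
    linarith
  · have h2 := (convex_Icc (0 : ℝ) s).norm_image_sub_le_of_norm_hasDerivWithin_le
      (f := fun s => FF κ n s r) (f' := fun s => -(lam κ s r ^ n * HH κ n (rho κ s r)))
      (C := (D / c) ^ n * B)
      (fun x hx => (d_FF hr h0 hx.1).hasDerivWithinAt) (fun x hx => by
        obtain ⟨h3, h3'⟩ := hlam r h0 h1 x hx.1
        rw [norm_neg, Real.norm_eq_abs, abs_mul, abs_of_nonneg (by positivity)]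
        refine mul_le_mul ?_ (hHH _ (hρ0 x hx.1).1 (hρ0 x hx.1).2) (abs_nonneg _) (by positivity)
        gcongr)
      (left_mem_Icc.2 hs) (right_mem_Icc.2 hs)
    rw [Real.norm_eq_abs, Real.norm_eq_abs, sub_zero, abs_of_nonneg hs, FF_zero hr h0] at h2
    have : (D / c) ^ n * B * s ≤ (D * R + 1 / c * (D / c) ^ n + (D / c) ^ n * B + B + 1 / c) * s :=
      mul_le_mul_of_nonneg_right (by linarith) hs
    linarith
  · have := hHH r h0 h1
    linarith
  · have := (hq r h0 h1).2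
    linarith

end Vale.Agent.P233.H227.LC2
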