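import Vale.Agent.P233.H227.L2a

/-! P233, RCDA, block L2 (helper227): the lower envelope on the fibres of the radial contraction
and the integrated form of `Star`. -/

set_option linter.all false

open MeasureTheory Filter Topology Set
open scoped ENNReal NNReal MeasureTheory

universe u

namespace Vale.Agent.P233.H227.LC2

open Vale.Agent.P233.RG

variable {M : Type u} [MetricSpace M] {κ R s : ℝ} {p : M} {φ : M → ℝ}

/-- the fibre over `x` of the radial contraction -/
def Fi (κ : ℝ) (p : M) (s : ℝ) (x : M) : Set M :=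
  {z | dist p z = rho κ s (dist p x) ∧ dist z x = dist p x - rho κ s (dist p x)}

/-- the lower envelope -/
noncomputable def hh (κ : ℝ) (p : M) (s : ℝ) (φ : M → ℝ) (x : M) : ℝ := sInf (φ '' Fi κ p s x)

/-- punctured ball -/
def Bp (p : M) (R : ℝ) : Set M := {x | 0 < dist p x ∧ dist p x < R}

theorem Bp_open (p : M) (R : ℝ) : IsOpen (Bp p R) := by
  have h : Continuous fun x : M => dist p x := by fun_prop
  exact (isOpen_lt continuous_const h).inter (isOpen_lt h continuous_const)

theorem Bp_ad (hR : Ad κ R) {x : M} (hx : x ∈ Bp p R) : Ad κ (dist p x) :=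
  hR.mono dist_nonneg hx.2.le

theorem Fi_nonempty (hg : Gig.Geo M) (hs : 0 ≤ s) {x : M} (hx : Ad κ (dist p x)) :
    (Fi κ p s x).Nonempty := by
  obtain ⟨z, h1, h2⟩ := hg p x (rho κ s (dist p x)) (dist p x - rho κ s (dist p x))
    (rho_nonneg hx hs) (by linarith [rho_le hx hs]) (by ring)
  exact ⟨z, h1, h2⟩

theorem Fi_compact [ProperSpace M] (x : M) : IsCompact (Fi κ p s x) := by
  refine (isCompact_closedBall p (rho κ s (dist p x))).of_isClosed_subset ?_ ?_
  · exact (isClosed_eq (by fun_prop) continuous_const).inter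
      (isClosed_eq (by fun_prop) continuous_const)
  · intro z hz
    rw [Metric.mem_closedBall, dist_comm]
    exact hz.1.le

theorem hh_le [ProperSpace M] (hφ : Continuous φ) {x z : M} (hz : z ∈ Fi κ p s x) :
    hh κ p s φ x ≤ φ z :=
  csInf_le ((Fi_compact x).image hφ).bddBelow (mem_image_of_mem φ hz)

theorem hh_mem [ProperSpace M] (hg : Gig.Geo M) (hφ : Continuous φ) (hs : 0 ≤ s) {x : M}
    (hx : Ad κ (dist p x)) : ∃ z ∈ Fi κ p s x, hh κ p s φ x = φ z := by
  have h := ((Fi_compact x).image hφ).sInf_mem ((Fi_nonempty hg hs hx).image φ)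
  obtain ⟨z, hz, h2⟩ := h
  exact ⟨z, hz, h2.symm⟩

theorem hh_nonneg [ProperSpace M] (hg : Gig.Geo M) (hφ : Continuous φ) (h0 : ∀ x, 0 ≤ φ x)
    (hs : 0 ≤ s) {x : M} (hx : Ad κ (dist p x)) : 0 ≤ hh κ p s φ x := by
  obtain ⟨z, -, h⟩ := hh_mem (p := p) hg hφ hs hx
  rw [h]; exact h0 z

theorem hh_closed [ProperSpace M] (hR : Ad κ R) (hφ : Continuous φ) (hs : 0 ≤ s) (a : ℝ) :
    IsClosed {x : M | dist p x ≤ R ∧ ∃ z ∈ Fi κ p s x, φ z ≤ a} := by
  set S : Set (M × M) := {w | dist p w.1 ≤ R} with hS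
  have hSc : IsClosed S := isClosed_le (by fun_prop) continuous_const
  have hρ : ContinuousOn (fun w : M × M => rho κ s (dist p w.1)) S := by
    refine (c_rho (κ := κ) hs).comp (f := fun w : M × M => dist p w.1) (by fun_prop) ?_
    intro w hw
    exact hR.mono dist_nonneg hw
  set f : M × M → ℝ × ℝ × ℝ := fun w => (dist p w.2 - rho κ s (dist p w.1),
    dist w.2 w.1 - (dist p w.1 - rho κ s (dist p w.1)), φ w.2) with hf
  have hfc : ContinuousOn f S := by
    have h1 : Continuous fun w : M × M => dist p w.2 := by fun_prop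
    have h2 : Continuous fun w : M × M => dist w.2 w.1 := by fun_prop
    have h3 : Continuous fun w : M × M => dist p w.1 := by fun_prop
    have h4 : Continuous fun w : M × M => φ w.2 := hφ.comp continuous_snd
    exact (h1.continuousOn.sub hρ).prodMk
      ((h2.continuousOn.sub (h3.continuousOn.sub hρ)).prodMk h4.continuousOn)
  set t : Set (ℝ × ℝ × ℝ) := {0} ×ˢ ({0} ×ˢ Iic a) with ht
  have htc : IsClosed t := isClosed_singleton.prod (isClosed_singleton.prod isClosed_Iic)
  have hK : IsClosed (S ∩ f ⁻¹' t) := hfc.preimage_isClosed_of_isClosed hSc htc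
  have hKc : IsCompact (S ∩ f ⁻¹' t) := by
    refine ((isCompact_closedBall p R).prod (isCompact_closedBall p R)).of_isClosed_subset hK ?_
    rintro ⟨x, z⟩ ⟨h1, h2⟩
    have h1' : dist p x ≤ R := h1
    simp only [hf, ht, mem_preimage, mem_prod, mem_singleton_iff, mem_Iic] at h2
    have h3 := rho_le (hR.mono (r := dist p x) dist_nonneg h1') hs
    refine ⟨?_, ?_⟩
    · rw [Metric.mem_closedBall, dist_comm]; exact h1'
    · rw [Metric.mem_closedBall, dist_comm]
      show dist p z ≤ R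
      linarith [h2.1]
  have e : {x : M | dist p x ≤ R ∧ ∃ z ∈ Fi κ p s x, φ z ≤ a} = Prod.fst '' (S ∩ f ⁻¹' t) := by
    ext x
    constructor
    · rintro ⟨h1, z, ⟨h2, h3⟩, h4⟩
      refine ⟨(x, z), ⟨h1, ?_⟩, rfl⟩
      simp only [hf, ht, mem_preimage, mem_prod, mem_singleton_iff, mem_Iic]
      exact ⟨by linarith, by linarith, h4⟩
    · rintro ⟨⟨y, z⟩, ⟨h1, h2⟩, rfl⟩
      simp only [hf, ht, mem_preimage, mem_prod, mem_singleton_iff, mem_Iic] at h2
      exact ⟨h1, z, ⟨by linarith [h2.1], by linarith [h2.2.1]⟩, h2.2.2⟩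
  rw [e]
  exact (hKc.image continuous_fst).isClosed

variable [MeasurableSpace M] [BorelSpace M]

theorem hh_meas [ProperSpace M] (hg : Gig.Geo M) (hR : Ad κ R) (hφ : Continuous φ) (hs : 0 ≤ s) :
    Measurable ((Bp p R).indicator (hh κ p s φ)) := by
  classical
  refine measurable_of_Iic fun a => ?_
  have hB : MeasurableSet (Bp p R) := (Bp_open p R).measurableSet
  have h1 := (hh_closed (p := p) hR hφ hs a).measurableSet
  have e : (Bp p R).indicator (hh κ p s φ) ⁻¹' Iic a
      = (Bp p R ∩ {x : M | dist p x ≤ R ∧ ∃ z ∈ Fi κ p s x, φ z ≤ a})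
        ∪ ((Bp p R)ᶜ ∩ {x | (0 : ℝ) ≤ a}) := by
    ext x
    by_cases hx : x ∈ Bp p R
    · simp only [mem_preimage, indicator_of_mem hx, mem_Iic, mem_union, mem_inter_iff, hx,
        true_and, mem_compl_iff, not_true_eq_false, false_and, or_false, mem_setOf_eq]
      constructor
      · intro h
        obtain ⟨z, hz, h2⟩ := hh_mem (p := p) (φ := φ) hg hφ hs (Bp_ad hR hx)
        exact ⟨hx.2.le, z, hz, h2 ▸ h⟩
      · rintro ⟨-, z, hz, h2⟩
        exact (hh_le hφ hz).trans h2
    · simp [indicator_of_notMem hx, hx]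
  rw [e]
  refine (hB.inter h1).union (hB.compl.inter ?_)
  by_cases h : (0 : ℝ) ≤ a <;> simp [h]

theorem ind_meas {f : M → ℝ} (hf : ContinuousOn f (Bp p R)) : Measurable ((Bp p R).indicator f) := by
  classical
  have hB : MeasurableSet (Bp p R) := (Bp_open p R).measurableSet
  have := hf.measurable_piecewise (g := (0 : M → ℝ)) continuousOn_const hB
  rwa [piecewise_eq_indicator] at this

theorem c_snr (hR : Ad κ R) (hs : 0 ≤ s) :
    ContinuousOn (fun x : M => sn κ (rho κ s (dist p x))) (Bp p R) := by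
  refine (c_sn κ).comp_continuousOn ?_
  refine (c_rho (κ := κ) hs).comp (f := fun x : M => dist p x) (by fun_prop) ?_
  intro x hx
  exact Bp_ad hR hx

theorem c_q (hR : Ad κ R) (hs : 0 ≤ s) :
    ContinuousOn (fun x : M => rho κ s (dist p x) / sn κ (rho κ s (dist p x))) (Bp p R) := by
  refine ContinuousOn.div ?_ (c_snr hR hs) ?_
  · refine (c_rho (κ := κ) hs).comp (f := fun x : M => dist p x) (by fun_prop) ?_
    intro x hx
    exact Bp_ad hR hx
  · intro x hx
    have h := Bp_ad hR hx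
    exact (sn_pos (rho_pos h hx.1 hs) (rho_ad h hs).2).ne'

theorem c_lam (hR : Ad κ R) (hs : 0 ≤ s) :
    ContinuousOn (fun x : M => lam κ s (dist p x)) (Bp p R) := by
  unfold lam
  refine ContinuousOn.div (c_snr hR hs) ((c_sn κ).comp_continuousOn (by fun_prop)) ?_
  intro x hx
  exact (sn_pos hx.1 (Bp_ad hR hx).2).ne'

theorem c_q0 (hR : Ad κ R) :
    ContinuousOn (fun x : M => dist p x / sn κ (dist p x)) (Bp p R) := by
  refine ContinuousOn.div (by fun_prop) ((c_sn κ).comp_continuousOn (by fun_prop)) ?_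
  intro x hx
  exact (sn_pos hx.1 (Bp_ad hR hx).2).ne'

/-- **Star in integrated form.** -/
theorem star_int [ProperSpace M] {n : ℕ} (hg : Gig.Geo M) (hS : Star M κ n) (hR : Ad κ R)
    (hs : 0 ≤ s) (hφ : Continuous φ) (h0 : ∀ x, 0 ≤ φ x) (p : M) :
    ∫⁻ x in Bp p R, ENNReal.ofReal (hh κ p s φ x * FF κ n s (dist p x)) ∂μH[n]
      ≤ ∫⁻ x in Bp p R, ENNReal.ofReal (φ x * (dist p x / sn κ (dist p x))) ∂μH[n] := by
  classical
  set B := Bp p R with hB
  have hBm : MeasurableSet B := (Bp_open p R).measurableSet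
  set m : Measure M := μH[(n : ℝ)] with hm
  set q : M → ℝ := fun x => rho κ s (dist p x) / sn κ (rho κ s (dist p x)) with hq
  set U : M → ℝ := B.indicator fun x => hh κ p s φ x * q x with hU
  set V : M → ℝ := B.indicator fun x => φ x * (dist p x / sn κ (dist p x)) with hV
  set w : M → ℝ≥0∞ := fun x => ENNReal.ofReal (B.indicator (fun x => lam κ s (dist p x) ^ n) x)
    with hw
  have hUm : Measurable U := by
    have e : U = B.indicator (hh κ p s φ) * B.indicator q := by
      rw [hU]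
      ext x
      by_cases hx : x ∈ B
      · simp [hx]
      · simp [hx]
    rw [e]
    exact (hh_meas hg hR hφ hs).mul (ind_meas (c_q hR hs))
  have hVm : Measurable V := ind_meas (hφ.continuousOn.mul (c_q0 hR))
  have hwm : Measurable w := (ind_meas ((c_lam hR hs).pow n)).ennreal_ofReal
  have hqn : ∀ x ∈ B, 0 ≤ q x := fun x hx =>
    div_nonneg (rho_nonneg (Bp_ad hR hx) hs)
      (sn_pos (rho_pos (Bp_ad hR hx) hx.1 hs) (rho_ad (Bp_ad hR hx) hs).2).le
  have hUn : ∀ x, 0 ≤ U x := by
    intro x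
    refine indicator_nonneg (fun x hx => ?_) x
    exact mul_nonneg (hh_nonneg hg hφ h0 hs (Bp_ad hR hx)) (hqn x hx)
  have hVn : ∀ x, 0 ≤ V x := by
    intro x
    refine indicator_nonneg (fun x hx => ?_) x
    exact mul_nonneg (h0 x) (div_nonneg dist_nonneg (sn_pos hx.1 (Bp_ad hR hx).2).le)
  set ν : Measure M := (m.restrict B).withDensity w with hν
  have e1 : ∫⁻ x in B, ENNReal.ofReal (hh κ p s φ x * FF κ n s (dist p x)) ∂m
      = ∫⁻ x, ENNReal.ofReal (U x) ∂ν := by
    rw [hν, lintegral_withDensity_eq_lintegral_mul₀ hwm.aemeasurable hUm.ennreal_ofReal.aemeasurable]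
    refine setLIntegral_congr_fun hBm fun x hx => ?_
    simp only [Pi.mul_apply, hw, hU, indicator_of_mem hx]
    have hl : 0 ≤ lam κ s (dist p x) ^ n := by
      have h := Bp_ad hR hx
      refine pow_nonneg (div_nonneg (sn_pos (rho_pos h hx.1 hs) (rho_ad h hs).2).le
        (sn_pos hx.1 h.2).le) n
    rw [← ENNReal.ofReal_mul hl]
    congr 1
    simp only [FF, hq]
    ring
  have e2 : ∫⁻ x in B, ENNReal.ofReal (φ x * (dist p x / sn κ (dist p x))) ∂m
      = ∫⁻ x in B, ENNReal.ofReal (V x) ∂m := by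
    refine setLIntegral_congr_fun hBm fun x hx => ?_
    simp only [hV, indicator_of_mem hx]
  rw [e1, e2, lintegral_eq_lintegral_meas_lt ν (Eventually.of_forall hUn) hUm.aemeasurable,
    lintegral_eq_lintegral_meas_lt (m.restrict B) (Eventually.of_forall hVn) hVm.aemeasurable]
  refine lintegral_mono_ae ?_
  filter_upwards [self_mem_ae_restrict (measurableSet_Ioi (a := (0 : ℝ)))] with a ha
  have ha0 : (0 : ℝ) < a := ha
  have hUa : MeasurableSet {x | a < U x} := hUm measurableSet_Ioi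
  have hVa : MeasurableSet {x | a < V x} := hVm measurableSet_Ioi
  rw [hν, withDensity_apply _ hUa, Measure.restrict_restrict hUa, Measure.restrict_apply hVa]
  have h3 : ∫⁻ x in {x | a < U x} ∩ B, w x ∂m
      = ∫⁻ x in {x | a < U x} ∩ B, ENNReal.ofReal (lam κ s (dist p x) ^ n) ∂m := by
    refine setLIntegral_congr_fun (hUa.inter hBm) fun x hx => ?_
    simp only [hw, indicator_of_mem hx.2]
  rw [h3]
  refine hS p s hs _ _ (hUa.inter hBm) (fun x hx => (Bp_ad hR hx.2).2) fun x hx => ?_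
  have hxB := hx.2
  have had := Bp_ad hR hxB
  obtain ⟨z, hz⟩ := Fi_nonempty (p := p) hg hs had
  refine ⟨z, ⟨?_, ?_⟩, hz.1, hz.2⟩
  · have hzB : z ∈ B := ⟨by rw [hz.1]; exact rho_pos had hxB.1 hs,
      by rw [hz.1]; exact (rho_le had hs).trans_lt hxB.2⟩
    have h4 : a < U x := hx.1
    simp only [hU, indicator_of_mem hxB] at h4
    show a < V z
    simp only [hV, indicator_of_mem hzB]
    refine h4.trans_le ?_
    rw [hz.1]
    exact mul_le_mul_of_nonneg_right (hh_le hφ hz) (hqn x hxB)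
  · exact ⟨by rw [hz.1]; exact rho_pos had hxB.1 hs,
      by rw [hz.1]; exact (rho_le had hs).trans_lt hxB.2⟩

end Vale.Agent.P233.H227.LC2
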