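import Vale.Agent.P233.H227.L2b

/-! P233, RCDA, block L2 (helper227): the limit `s → 0` in the integrated form of `Star`. -/

set_option linter.all false

open MeasureTheory Filter Topology Set
open scoped ENNReal NNReal MeasureTheory

universe u

namespace Vale.Agent.P233.H227.LC2

open Vale.Agent.P233.RG

variable {M : Type u} [MetricSpace M] {κ R s : ℝ} {p : M} {φ : M → ℝ}

/-- `(r - ρ_s(r))/s → sn r` -/
theorem lim_t {r : ℝ} (hr : Ad κ r) :
    Tendsto (fun s => (r - rho κ s r) / s) (𝓝[>] 0) (𝓝 (sn κ r)) := by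
  have h := (d_rho hr le_rfl).tendsto_slope
  rw [rho_init hr] at h
  have h2 := (h.mono_left (nhdsWithin_mono 0 (fun s (hs : (0 : ℝ) < s) => hs.ne'))).neg
  rw [neg_neg] at h2
  refine h2.congr fun s => ?_
  rw [slope_def_field, rho_init hr]
  ring

/-- derivative of the weight -/
theorem lim_F {n : ℕ} {r : ℝ} (hr : Ad κ r) (h0 : 0 < r) :
    Tendsto (fun s => (FF κ n s r - r / sn κ r) / s) (𝓝[>] 0) (𝓝 (-HH κ n r)) := by
  have h := (d_FF (n := n) hr h0 le_rfl).tendsto_slope
  have e : lam κ 0 r = 1 := by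
    unfold lam; rw [rho_init hr, div_self (sn_pos h0 hr.2).ne']
  rw [rho_init hr, e, one_pow, one_mul] at h
  have h2 := h.mono_left (nhdsWithin_mono 0 (fun s (hs : (0 : ℝ) < s) => hs.ne'))
  refine h2.congr fun s => ?_
  rw [slope_def_field, FF_zero hr h0]
  ring

theorem lim_F0 {n : ℕ} {r : ℝ} (hr : Ad κ r) (h0 : 0 < r) :
    Tendsto (fun s => FF κ n s r) (𝓝[>] 0) (𝓝 (r / sn κ r)) := by
  have h := (d_FF (n := n) hr h0 le_rfl).continuousAt
  have h2 : Tendsto (fun s => FF κ n s r) (𝓝 0) (𝓝 (FF κ n 0 r)) := h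
  rw [FF_zero hr h0] at h2
  exact h2.mono_left nhdsWithin_le_nhds

/-- derivative of the lower envelope -/
theorem lim_h [ProperSpace M] (hg : Gig.Geo M) (hφ : Continuous φ) {x : M}
    (hx : Ad κ (dist p x)) {C : ℝ} (hC : 0 ≤ C) (hCs : ∀ s, 0 ≤ s → dist p x - rho κ s (dist p x) ≤ C * s)
    {a : ℝ} (hFV : PD.FV φ p x a) :
    Tendsto (fun s => (φ x - hh κ p s φ x) / s) (𝓝[>] 0) (𝓝 (sn κ (dist p x) * a)) := by
  have h1 : Tendsto (fun s => (dist p x - rho κ s (dist p x)) / s * a) (𝓝[>] 0)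
      (𝓝 (sn κ (dist p x) * a)) := (lim_t hx).mul_const a
  have h2 : Tendsto (fun s => (φ x - hh κ p s φ x) / s
      - (dist p x - rho κ s (dist p x)) / s * a) (𝓝[>] 0) (𝓝 0) := by
    rw [Metric.tendsto_nhds]
    intro ε hε
    obtain ⟨δ, hδ, hF⟩ := hFV (ε / (C + 1)) (by positivity)
    have hev : ∀ᶠ s in 𝓝[>] (0 : ℝ), s < δ / (C + 1) := by
      have : Iio (δ / (C + 1)) ∈ 𝓝 (0 : ℝ) := Iio_mem_nhds (by positivity)
      exact nhdsWithin_le_nhds this
    filter_upwards [self_mem_nhdsWithin, hev] with s hs hsδ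
    have hs0 : (0 : ℝ) < s := hs
    obtain ⟨z, hz, hhz⟩ := hh_mem (p := p) hg hφ hs0.le hx
    set t := dist p x - rho κ s (dist p x) with ht
    have ht0 : 0 ≤ t := by rw [ht]; linarith [rho_le hx hs0.le]
    have htC : t ≤ C * s := hCs s hs0.le
    have e1 : dist x z = t := by rw [dist_comm, hz.2]
    have e2 : dist z p = rho κ s (dist p x) := by rw [dist_comm, hz.1]
    have h3 : dist x z < δ := by
      rw [e1]
      calc t ≤ C * s := htC
        _ ≤ (C + 1) * s := by nlinarith
        _ < (C + 1) * (δ / (C + 1)) := by gcongr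
        _ = δ := by field_simp
    have h4 := hF z h3 (by rw [e1, e2, ht, dist_comm x p]; ring)
    rw [e1] at h4
    rw [Real.dist_eq, sub_zero, hhz]
    have e3 : (φ x - φ z) / s - t / s * a = -((φ z - φ x + t * a) / s) := by ring
    rw [e3, abs_neg, abs_div, abs_of_pos hs0, div_lt_iff₀ hs0]
    calc |φ z - φ x + t * a| ≤ ε / (C + 1) * t := h4
      _ ≤ ε / (C + 1) * (C * s) := by gcongr
      _ = ε * s * (C / (C + 1)) := by field_simp
      _ < ε * s * 1 := by
        refine mul_lt_mul_of_pos_left ?_ (by positivity)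
        rw [div_lt_one (by positivity)]; linarith
      _ = ε * s := mul_one _
  have h3 := h2.add h1
  rw [zero_add] at h3
  refine h3.congr fun s => ?_
  ring

variable [MeasurableSpace M] [BorelSpace M]

/-- **Laplacian comparison, core inequality.** -/
theorem core [ProperSpace M] {n : ℕ} (hn : 1 ≤ n) (hg : Gig.Geo M) (hS : Star M κ n)
    (hfin : ∀ (x : M) (r : ℝ), (μH[(n : ℝ)] : Measure M) (Metric.ball x r) < ∞) (hR : Ad κ R)
    {L : ℝ≥0} (hφ : LipschitzWith L φ) (h0 : ∀ x, 0 ≤ φ x) (p : M) {G : M → ℝ}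
    (hFV : ∀ᵐ x ∂(μH[(n : ℝ)] : Measure M), dist p x < R → PD.FV φ p x (G x)) :
    -∫ x in Bp p R, dist p x * G x ∂μH[(n : ℝ)]
      ≤ ∫ x in Bp p R, (n - 2 * (((n : ℝ) - 1) * κ) / 3 * (dist p x ^ 2 / 2)) * φ x ∂μH[(n : ℝ)] := by
  set m : Measure M := μH[(n : ℝ)] with hm
  set B := Bp p R with hB
  have hBm : MeasurableSet B := (Bp_open p R).measurableSet
  have hBfin : m B < ∞ := by
    refine (measure_mono ?_).trans_lt (hfin p R)
    intro x hx
    rw [Metric.mem_ball, dist_comm]; exact hx.2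
  haveI : IsFiniteMeasure (m.restrict B) := ⟨by rwa [Measure.restrict_apply_univ]⟩
  obtain ⟨C, hC, hb⟩ := bounds (κ := κ) n hR
  obtain ⟨D, hD⟩ : ∃ D : ℝ, ∀ x ∈ B, φ x ≤ D := by
    obtain ⟨D, hD⟩ := (isCompact_closedBall p R).bddAbove_image hφ.continuous.continuousOn
    refine ⟨D, fun x hx => hD (mem_image_of_mem φ ?_)⟩
    rw [Metric.mem_closedBall, dist_comm]; exact hx.2.le
  have hD0 : ∀ x ∈ B, |φ x| ≤ D := fun x hx => by rw [abs_of_nonneg (h0 x)]; exact hD x hx
  have had : ∀ x ∈ B, Ad κ (dist p x) := fun x hx => Bp_ad hR hx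
  have hbd : ∀ x ∈ B, ∀ s, 0 ≤ s → dist p x - rho κ s (dist p x) ≤ C * s ∧
      0 ≤ FF κ n s (dist p x) ∧ FF κ n s (dist p x) ≤ C ∧
      |FF κ n s (dist p x) - dist p x / sn κ (dist p x)| ≤ C * s ∧ |HH κ n (dist p x)| ≤ C ∧
      dist p x / sn κ (dist p x) ≤ C := fun x hx s hs => hb _ hx.1 hx.2.le s hs
  -- the envelope
  have hhb : ∀ x ∈ B, ∀ s, 0 ≤ s → |φ x - hh κ p s φ x| ≤ L * C * s := by
    intro x hx s hs
    obtain ⟨z, hz, hhz⟩ := hh_mem (p := p) hg hφ.continuous hs (had x hx)
    have h1 := hφ.dist_le_mul x z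
    rw [Real.dist_eq, dist_comm x z, hz.2] at h1
    rw [hhz]
    refine h1.trans ?_
    rw [mul_assoc]
    exact mul_le_mul_of_nonneg_left (hbd x hx s hs).1 L.coe_nonneg
  have hhn : ∀ x ∈ B, ∀ s, 0 ≤ s → 0 ≤ hh κ p s φ x := fun x hx s hs =>
    hh_nonneg hg hφ.continuous h0 hs (had x hx)
  have hhD : ∀ x ∈ B, ∀ s, 0 ≤ s → hh κ p s φ x ≤ φ x + L * C * s := by
    intro x hx s hs
    have := (abs_le.1 (hhb x hx s hs)).1
    linarith
  -- measurability
  have mφ : AEStronglyMeasurable φ (m.restrict B) := hφ.continuous.aestronglyMeasurable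
  have mh : ∀ s, 0 ≤ s → AEStronglyMeasurable (hh κ p s φ) (m.restrict B) := fun s hs => by
    rw [← aestronglyMeasurable_indicator_iff hBm]
    exact (hh_meas hg hR hφ.continuous hs).aestronglyMeasurable
  have mF : ∀ s, 0 ≤ s → AEStronglyMeasurable (fun x => FF κ n s (dist p x)) (m.restrict B) :=
    fun s hs => ((c_q hR hs).mul ((c_lam hR hs).pow n)).aestronglyMeasurable hBm
  have mq : AEStronglyMeasurable (fun x => dist p x / sn κ (dist p x)) (m.restrict B) :=
    (c_q0 hR).aestronglyMeasurable hBm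
  have aeB : ∀ᵐ x ∂(m.restrict B), x ∈ B := ae_restrict_mem hBm
  -- integrability
  have i1 : ∀ s, 0 ≤ s → Integrable (fun x => hh κ p s φ x * FF κ n s (dist p x)) (m.restrict B) := by
    intro s hs
    refine Integrable.of_bound ((mh s hs).mul (mF s hs)) ((D + L * C * s) * C) ?_
    filter_upwards [aeB] with x hx
    have h1 := hbd x hx s hs
    have h2 := hhn x hx s hs
    have h3 := hhD x hx s hs
    have h4 := hD x hx
    rw [Real.norm_eq_abs, abs_of_nonneg (mul_nonneg h2 h1.2.1)]
    exact mul_le_mul (by linarith) h1.2.2.1 h1.2.1 (by linarith)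
  have i2 : Integrable (fun x => φ x * (dist p x / sn κ (dist p x))) (m.restrict B) := by
    refine Integrable.of_bound (mφ.mul mq) (D * C) ?_
    filter_upwards [aeB] with x hx
    have h1 := hbd x hx 0 le_rfl
    have h5 : 0 ≤ dist p x / sn κ (dist p x) :=
      div_nonneg dist_nonneg (sn_pos hx.1 (had x hx).2).le
    rw [Real.norm_eq_abs, abs_of_nonneg (mul_nonneg (h0 x) h5)]
    exact mul_le_mul (hD x hx) h1.2.2.2.2.2 h5 ((h0 x).trans (hD x hx))
  have i3 : ∀ s, 0 ≤ s → Integrable (fun x => φ x * FF κ n s (dist p x)) (m.restrict B) := by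
    intro s hs
    refine Integrable.of_bound (mφ.mul (mF s hs)) (D * C) ?_
    filter_upwards [aeB] with x hx
    have h1 := hbd x hx s hs
    rw [Real.norm_eq_abs, abs_of_nonneg (mul_nonneg (h0 x) h1.2.1)]
    exact mul_le_mul (hD x hx) h1.2.2.1 h1.2.1 ((h0 x).trans (hD x hx))
  -- the inequality for `s`
  have key : ∀ s, 0 ≤ s → ∫ x in B, hh κ p s φ x * FF κ n s (dist p x) ∂m
      ≤ ∫ x in B, φ x * (dist p x / sn κ (dist p x)) ∂m := by
    intro s hs
    have h1 := star_int hg hS hR hs hφ.continuous h0 p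
    rw [integral_eq_lintegral_of_nonneg_ae _ (i1 s hs).aestronglyMeasurable,
      integral_eq_lintegral_of_nonneg_ae _ i2.aestronglyMeasurable]
    · refine ENNReal.toReal_mono ?_ h1
      exact i2.lintegral_lt_top.ne
    · filter_upwards [aeB] with x hx
      exact mul_nonneg (h0 x) (div_nonneg dist_nonneg (sn_pos hx.1 (had x hx).2).le)
    · filter_upwards [aeB] with x hx
      exact mul_nonneg (hhn x hx s hs) (hbd x hx s hs).2.1
  have key2 : ∀ s, 0 < s → ∫ x in B, φ x * ((FF κ n s (dist p x) - dist p x / sn κ (dist p x)) / s) ∂m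
      ≤ ∫ x in B, (φ x - hh κ p s φ x) / s * FF κ n s (dist p x) ∂m := by
    intro s hs
    have h1 := key s hs.le
    have e1 : ∫ x in B, φ x * ((FF κ n s (dist p x) - dist p x / sn κ (dist p x)) / s) ∂m
        = (∫ x in B, φ x * FF κ n s (dist p x) ∂m
          - ∫ x in B, φ x * (dist p x / sn κ (dist p x)) ∂m) / s := by
      rw [← integral_sub (i3 s hs.le) i2, ← integral_div]
      congr 1; ext x; ring
    have e2 : ∫ x in B, (φ x - hh κ p s φ x) / s * FF κ n s (dist p x) ∂m
        = (∫ x in B, φ x * FF κ n s (dist p x) ∂m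
          - ∫ x in B, hh κ p s φ x * FF κ n s (dist p x) ∂m) / s := by
      rw [← integral_sub (i3 s hs.le) (i1 s hs.le), ← integral_div]
      congr 1; ext x; ring
    rw [e1, e2]
    gcongr
  -- limits
  have l1 : Tendsto (fun s => ∫ x in B,
      φ x * ((FF κ n s (dist p x) - dist p x / sn κ (dist p x)) / s) ∂m) (𝓝[>] 0)
      (𝓝 (∫ x in B, φ x * -HH κ n (dist p x) ∂m)) := by
    refine tendsto_integral_filter_of_dominated_convergence (fun _ => D * C) ?_ ?_
      (integrable_const _) ?_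
    · filter_upwards [self_mem_nhdsWithin] with s hs
      have hs0 : (0 : ℝ) < s := hs
      exact mφ.mul ((((mF s hs0.le).sub mq).aemeasurable.div_const s).aestronglyMeasurable)
    · filter_upwards [self_mem_nhdsWithin] with s hs
      have hs0 : (0 : ℝ) < s := hs
      filter_upwards [aeB] with x hx
      have h1 := (hbd x hx s hs0.le).2.2.2.1
      rw [Real.norm_eq_abs, abs_mul, abs_div, abs_of_pos hs0]
      refine mul_le_mul (hD0 x hx) ?_ (by positivity) ((abs_nonneg _).trans (hD0 x hx))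
      rw [div_le_iff₀ hs0]; exact h1
    · filter_upwards [aeB] with x hx
      exact (lim_F (had x hx) hx.1).const_mul (φ x)
  have l2 : Tendsto (fun s => ∫ x in B, (φ x - hh κ p s φ x) / s * FF κ n s (dist p x) ∂m)
      (𝓝[>] 0) (𝓝 (∫ x in B, dist p x * G x ∂m)) := by
    refine tendsto_integral_filter_of_dominated_convergence (fun _ => L * C * C) ?_ ?_
      (integrable_const _) ?_
    · filter_upwards [self_mem_nhdsWithin] with s hs
      have hs0 : (0 : ℝ) < s := hs
      exact ((mφ.sub (mh s hs0.le)).aemeasurable.div_const s).aestronglyMeasurable.mul (mF s hs0.le)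
    · filter_upwards [self_mem_nhdsWithin] with s hs
      have hs0 : (0 : ℝ) < s := hs
      filter_upwards [aeB] with x hx
      have h1 := hbd x hx s hs0.le
      rw [Real.norm_eq_abs, abs_mul, abs_div, abs_of_pos hs0, abs_of_nonneg h1.2.1]
      refine mul_le_mul ?_ h1.2.2.1 h1.2.1 (by positivity)
      rw [div_le_iff₀ hs0]; exact hhb x hx s hs0.le
    · filter_upwards [aeB, ae_restrict_of_ae hFV] with x hx hx2
      have h1 := lim_h hg hφ.continuous (had x hx) hC (fun s hs => (hbd x hx s hs).1)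
        (hx2 hx.2)
      have h2 := h1.mul (lim_F0 (n := n) (had x hx) hx.1)
      have h3 : sn κ (dist p x) ≠ 0 := (sn_pos hx.1 (had x hx).2).ne'
      have e : sn κ (dist p x) * G x * (dist p x / sn κ (dist p x)) = dist p x * G x := by
        field_simp
      rwa [e] at h2
  have l3 := le_of_tendsto_of_tendsto l1 l2 (by
    filter_upwards [self_mem_nhdsWithin] with s hs
    exact key2 s hs)
  -- the model inequality
  have mHH : AEStronglyMeasurable (fun x => HH κ n (dist p x)) (m.restrict B) := by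
    have : ContinuousOn (fun x : M => HH κ n (dist p x)) B := by
      unfold HH
      refine continuousOn_const.add (continuousOn_const.mul (ContinuousOn.div ?_ ?_ ?_))
      · exact ContinuousOn.mul (by fun_prop) ((c_cs κ).comp_continuousOn (by fun_prop))
      · exact (c_sn κ).comp_continuousOn (by fun_prop)
      · intro x hx
        exact (sn_pos hx.1 (had x hx).2).ne'
    exact this.aestronglyMeasurable hBm
  have l4 : ∫ x in B, φ x * HH κ n (dist p x) ∂m
      ≤ ∫ x in B, (n - 2 * (((n : ℝ) - 1) * κ) / 3 * (dist p x ^ 2 / 2)) * φ x ∂m := by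
    refine integral_mono_ae ?_ ?_ ?_
    · refine Integrable.of_bound (mφ.mul mHH) (D * C) ?_
      filter_upwards [aeB] with x hx
      rw [Real.norm_eq_abs, abs_mul]
      exact mul_le_mul (hD0 x hx) (hbd x hx 0 le_rfl).2.2.2.2.1 (abs_nonneg _)
        ((abs_nonneg _).trans (hD0 x hx))
    · have hc : Continuous fun x : M =>
          (n - 2 * (((n : ℝ) - 1) * κ) / 3 * (dist p x ^ 2 / 2)) * φ x := by
        have := hφ.continuous
        fun_prop
      obtain ⟨E, hE⟩ := (isCompact_closedBall p R).bddAbove_image hc.norm.continuousOn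
      refine Integrable.of_bound hc.aestronglyMeasurable E ?_
      filter_upwards [aeB] with x hx
      refine hE (mem_image_of_mem _ ?_)
      rw [Metric.mem_closedBall, dist_comm]; exact hx.2.le
    · filter_upwards [aeB] with x hx
      have := mul_le_mul_of_nonneg_left (HH_le hn (had x hx) hx.1) (h0 x)
      linarith
  have l5 : ∫ x in B, φ x * -HH κ n (dist p x) ∂m = -∫ x in B, φ x * HH κ n (dist p x) ∂m := by
    rw [← integral_neg]; congr 1; ext x; ring
  rw [l5] at l3
  linarith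

end Vale.Agent.P233.H227.LC2
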