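import Vale.Agent.P233.H227.L2c
import Vale.Agent.P233.H183.BlkD0
import Vale.Agent.P233.H457.Cont
import Vale.Agent.P233.H589.Lat

/-! P233, RCDA, block L2 (helper227): Laplacian comparison for Alexandrov spaces. -/

set_option linter.all false

open MeasureTheory Filter Topology Set
open scoped ENNReal NNReal MeasureTheory

universe u

namespace Vale.Agent.P233.H227.LC2

open Vale.Agent.P233.RG Vale.Agent.P233.RA

section

variable {M : Type u} [MetricSpace M]

theorem ww_eq (p : M) (δ : ℝ) : ww δ p = zr p 0 δ 1 := by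
  funext x
  unfold ww cc zr
  rw [add_zero, mul_one, dist_comm x p]
  have h := min_sub_sub_right (dist p x ^ 2 / 2) δ δ
  rw [sub_self] at h
  exact h.symm

theorem dom_iff {δ : ℝ} (hδ : 0 < δ) (p x : M) : gg p x < δ ↔ dist p x < √(2 * δ) := by
  unfold gg
  rw [Real.lt_sqrt dist_nonneg, dist_comm x p]
  constructor <;> intro h <;> linarith

variable [CompleteSpace M] [SecondCountableTopology M] [MeasurableSpace M] [BorelSpace M]
  {n : ℕ} {κ : ℝ}

omit [CompleteSpace M] [SecondCountableTopology M] in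
theorem core' [ProperSpace M] {m : Measure M} (hm : m = μH[(n : ℝ)]) (hn : 1 ≤ n) (hg : Gig.Geo M)
    (hS : Star M κ n) (hfin : ∀ (x : M) (r : ℝ), m (Metric.ball x r) < ∞) {R : ℝ} (hR : Ad κ R)
    {L : ℝ≥0} {φ : M → ℝ} (hφ : LipschitzWith L φ) (h0 : ∀ x, 0 ≤ φ x) (p : M) {G : M → ℝ}
    (hFV : ∀ᵐ x ∂m, dist p x < R → PD.FV φ p x (G x)) :
    -∫ x in Bp p R, dist p x * G x ∂m
      ≤ ∫ x in Bp p R, (n - 2 * (((n : ℝ) - 1) * κ) / 3 * (dist p x ^ 2 / 2)) * φ x ∂m := by
  subst hm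
  exact core hn hg hS hfin hR hφ h0 p hFV

/-- the comparison for nonnegative Lipschitz functions -/
theorem lc_lip {m : Measure M} (hm : m = μH[(n : ℝ)]) (hA : Alex M n κ) (hS : Star M κ n)
    (hM : Myers M κ) (hG : GeoN m n) (hQ : Quadr m) (hL : LOut m n) (p : M) {δ : ℝ} (hδ : 0 < δ)
    {h : M →ₘ[m] ℝ} {b : M → ℝ} (hb : PD.LW m h b) (h0 : ∀ x, 0 ≤ b x) :
    -I ((sob m).Γ (cl m (ww δ p)) h) ≤
      ∫ x in Bp p √(2 * δ), (n - 2 * (((n : ℝ) - 1) * κ) / 3 * (dist p x ^ 2 / 2)) * b x ∂m := by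
  have hC : IsDir (sob m) := isDir_sob hG.fin hQ
  haveI := hG.geo.proper
  have hg : Gig.Geo M := hA.alex.geodesic
  have hn : 1 ≤ n := le_trans (by norm_num) hA.two_le
  set ρ : ℝ := √(2 * δ) with hρ
  have hρ0 : 0 < ρ := Real.sqrt_pos.2 (by linarith)
  have hρ2 : ρ ^ 2 = 2 * δ * (1 + 0) := by rw [hρ, Real.sq_sqrt (by linarith)]; ring
  have h1 := H183.Γ_zr (m := m) hC hG.fin (p := p) (s₀ := 0) (C₀ := δ) (t := 1) (by norm_num)
    hρ0.le hρ2 hb.1
  have h2 := H183.Γ_dtr_zero (m := m) hC hG.fin p ρ hb.1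
  have hdW : PD.dp m p ρ ∈ (sob m).W := H183.dtr_mem hG.fin p ρ
  have hsym : (sob m).Γ (cl m (dtr p ρ)) h = (sob m).Γ h (PD.dp m p ρ) := hC.symm _ hdW _ hb.1
  have hzW : cl m (zr p 0 δ 1) ∈ (sob m).W :=
    (H183.zr_mem_A (m := m) hC hG.fin (p := p) (by norm_num) hρ0.le hρ2).1
  set G : M → ℝ := fun x => (sob m).Γ h (PD.dp m p ρ) x with hGd
  have hint : Integrable (fun x => (sob m).Γ (cl m (zr p 0 δ 1)) h x) m :=
    int_of_mem (hC.Γ_mem1 hzW hb.1)
  have hae : (fun x => (sob m).Γ (cl m (zr p 0 δ 1)) h x)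
      =ᵐ[m] (Bp p ρ).indicator fun x => dist p x * G x := by
    filter_upwards [h1, h2] with x a1 a2
    by_cases hx : x ∈ Bp p ρ
    · rw [indicator_of_mem hx, a1, min_eq_left hx.2.le, hGd, hsym]; simp
    · rw [indicator_of_notMem hx, a1]
      rcases lt_or_ge (dist p x) ρ with hlt | hge
      · have : dist p x = 0 := by
          by_contra hne
          exact hx ⟨lt_of_le_of_ne dist_nonneg (Ne.symm hne), hlt⟩
        rw [this, min_eq_left hρ0.le]; simp
      · rw [a2 hge, mul_zero]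
  have hBm : ∀ R, MeasurableSet (Bp p R) := fun R => (Bp_open p R).measurableSet
  have hIon : IntegrableOn (fun x => dist p x * G x) (Bp p ρ) m :=
    (integrable_indicator_iff (hBm ρ)).1 (hint.congr hae)
  have e1 : I ((sob m).Γ (cl m (ww δ p)) h) = ∫ x in Bp p ρ, dist p x * G x ∂m := by
    rw [ww_eq]
    unfold I
    rw [integral_congr_ae hae, integral_indicator (hBm ρ)]
  rw [e1]
  have hFV : ∀ᵐ x ∂m, dist p x < ρ → PD.FV b p x (G x) := hL.fv h b hb p ρ
  obtain ⟨L, hLip⟩ := hb.2.1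
  by_cases hcase : √κ * ρ < Real.pi
  · exact core' hm hn hg hS hG.fin ⟨hρ0.le, hcase⟩ hLip h0 p hFV
  · -- `κ > 0`
    rw [not_lt] at hcase
    have hk : 0 < κ := by
      by_contra hk
      rw [Real.sqrt_eq_zero_of_nonpos (not_lt.1 hk), zero_mul] at hcase
      linarith [Real.pi_pos]
    have hs : 0 < √κ := Real.sqrt_pos.2 hk
    set D : ℝ := Real.pi / √κ with hD
    have hD0 : 0 < D := div_pos Real.pi_pos hs
    have hDρ : D ≤ ρ := by rw [hD, div_le_iff₀ hs]; linarith
    have hsD : √κ * D = Real.pi := by rw [hD]; field_simp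
    set r : ℕ → ℝ := fun k => D * (1 - 1 / ((k : ℝ) + 2)) with hr
    have hk2 : ∀ k : ℕ, (0 : ℝ) < (k : ℝ) + 2 := fun k => by positivity
    have hr1 : ∀ k, 0 ≤ r k ∧ r k < D := by
      intro k
      have a1 : (0 : ℝ) < 1 / ((k : ℝ) + 2) := by positivity
      have a2 : 1 / ((k : ℝ) + 2) ≤ 1 := by
        rw [div_le_one (hk2 k)]; linarith [Nat.cast_nonneg (α := ℝ) k]
      refine ⟨mul_nonneg hD0.le (by linarith), ?_⟩
      have : D * (1 - 1 / ((k : ℝ) + 2)) < D * 1 := mul_lt_mul_of_pos_left (by linarith) hD0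
      simpa [hr] using this
    have had : ∀ k, Ad κ (r k) := fun k => ⟨(hr1 k).1, by
      calc √κ * r k < √κ * D := mul_lt_mul_of_pos_left (hr1 k).2 hs
        _ = Real.pi := hsD⟩
    have hmono : Monotone r := by
      intro i j hij
      simp only [hr]
      have : (i : ℝ) ≤ j := by exact_mod_cast hij
      gcongr
    have hU : ⋃ k, Bp p (r k) = Bp p D := by
      ext x
      simp only [mem_iUnion]
      constructor
      · rintro ⟨k, a1, a2⟩
        exact ⟨a1, a2.trans (hr1 k).2⟩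
      · rintro ⟨a1, a2⟩
        have hlim : Tendsto r atTop (𝓝 D) := by
          have h3 : Tendsto (fun k : ℕ => 1 / ((k : ℝ) + 2)) atTop (𝓝 0) := by
            have := tendsto_one_div_add_atTop_nhds_zero_nat (𝕜 := ℝ)
            have h4 := this.comp (tendsto_add_atTop_nat 1)
            refine h4.congr fun k => ?_
            simp only [Function.comp]
            push_cast
            congr 1
            ring
          have h5 := (h3.const_sub 1).const_mul D
          rw [sub_zero, mul_one] at h5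
          exact h5
        obtain ⟨k, hk⟩ := (hlim.eventually_const_lt a2).exists
        exact ⟨k, a1, hk⟩
    have hmB : Monotone fun k => Bp p (r k) := fun i j hij x hx =>
      ⟨hx.1, hx.2.trans_le (hmono hij)⟩
    have hcore : ∀ k, -∫ x in Bp p (r k), dist p x * G x ∂m
        ≤ ∫ x in Bp p (r k), (n - 2 * (((n : ℝ) - 1) * κ) / 3 * (dist p x ^ 2 / 2)) * b x ∂m := by
      intro k
      refine core' hm hn hg hS hG.fin (had k) hLip h0 p ?_
      filter_upwards [hFV] with x hx hxr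
      exact hx (hxr.trans ((hr1 k).2.trans_le hDρ))
    have hIon2 : IntegrableOn (fun x =>
        (n - 2 * (((n : ℝ) - 1) * κ) / 3 * (dist p x ^ 2 / 2)) * b x) (Bp p D) m := by
      have hc : Continuous fun x : M =>
          (n - 2 * (((n : ℝ) - 1) * κ) / 3 * (dist p x ^ 2 / 2)) * b x := by
        have := hLip.continuous
        fun_prop
      have h3 : IntegrableOn (fun x : M =>
          (n - 2 * (((n : ℝ) - 1) * κ) / 3 * (dist p x ^ 2 / 2)) * b x) (Metric.closedBall p D) m := by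
        obtain ⟨E, hE⟩ := (isCompact_closedBall p D).bddAbove_image hc.norm.continuousOn
        have hfinB : m (Metric.closedBall p D) < ∞ :=
          (measure_mono (Metric.closedBall_subset_ball (by linarith : D < D + 1))).trans_lt
            (hG.fin p (D + 1))
        refine Measure.integrableOn_of_bounded (M := E) hfinB.ne hc.aestronglyMeasurable ?_
        filter_upwards [ae_restrict_mem Metric.isClosed_closedBall.measurableSet] with x hx
        exact hE (mem_image_of_mem _ hx)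
      refine h3.mono_set fun x hx => ?_
      rw [Metric.mem_closedBall, dist_comm]; exact hx.2.le
    have hset : (Bp p D : Set M) =ᵐ[m] Bp p ρ := by
      filter_upwards [hL.unit.sphere hG.fin p D] with x hx
      refine propext ⟨fun h => ⟨h.1, h.2.trans_le hDρ⟩, fun h => ⟨h.1, ?_⟩⟩
      exact lt_of_le_of_ne (hM hk p x) hx
    have l1 := tendsto_setIntegral_of_monotone (fun k => hBm (r k)) hmB
      (by rw [hU]; exact hIon.mono_set fun x hx => ⟨hx.1, hx.2.trans_le hDρ⟩ :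
        IntegrableOn (fun x => dist p x * G x) (⋃ k, Bp p (r k)) m)
    have l2 := tendsto_setIntegral_of_monotone (fun k => hBm (r k)) hmB
      (by rw [hU]; exact hIon2 : IntegrableOn (fun x =>
        (n - 2 * (((n : ℝ) - 1) * κ) / 3 * (dist p x ^ 2 / 2)) * b x) (⋃ k, Bp p (r k)) m)
    have l3 := le_of_tendsto_of_tendsto' l1.neg l2 hcore
    rw [hU, setIntegral_congr_set hset, setIntegral_congr_set hset] at l3
    exact l3

/-- **Laplacian comparison.** -/
theorem lc_all {m : Measure M} (hm : m = μH[(n : ℝ)]) (hA : Alex M n κ) (hS : Star M κ n)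
    (hM : Myers M κ) (hG : GeoN m n) (hQ : Quadr m) (hL : LOut m n) : LC m n (((n : ℝ) - 1) * κ) := by
  intro p δ hδ φ hφ h0 hsupp
  have hC : IsDir (sob m) := isDir_sob hG.fin hQ
  have hCG : IsGamma (sob m) := isGamma_sob hG.fin hQ hL.s2l
  haveI := hG.geo.proper
  set ρ : ℝ := √(2 * δ) with hρ
  have hρ0 : 0 < ρ := Real.sqrt_pos.2 (by linarith)
  have hρ2 : ρ ^ 2 = 2 * δ * (1 + 0) := by rw [hρ, Real.sq_sqrt (by linarith)]; ring
  set B := Bp p ρ with hB
  have hBm : MeasurableSet B := (Bp_open p ρ).measurableSet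
  have hwW : cl m (ww δ p) ∈ (sob m).W := by
    rw [ww_eq]
    exact (H183.zr_mem_A (m := m) hC hG.fin (p := p) (by norm_num) hρ0.le hρ2).1
  -- approximation
  have hex : ∀ k : ℕ, ∃ g ∈ (sob m).W, MemLp g ∞ m ∧ MemLp ((sob m).Γ g g) ∞ m ∧
      (sob m).nrm2 (φ - g) < ((k : ℝ) + 1)⁻¹ := fun k => hCG.dense_lip φ hφ _ (by positivity)
  choose g hgW hgt hgΓ hgn using hex
  have hrep : ∀ k, ∃ u : M → ℝ, (∃ K, LipschitzWith K u) ∧ (∃ K : ℝ, ∀ x, |u x| ≤ K) ∧
      g k =ᵐ[m] u := fun k => (hCG.lip_iff (g k) (hgW k)).2 ⟨hgt k, hgΓ k⟩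
  choose u huL hub hgu using hrep
  set F : ℕ → M →ₘ[m] ℝ := fun k => g k ⊔ 0 with hF
  have hFW : ∀ k, F k ∈ (sob m).W := fun k => hC.pos_mem (hgW k)
  have hFae : ∀ k, ⇑(F k) =ᵐ[m] fun x => max (g k x) 0 := by
    intro k
    filter_upwards [AEEqFun.coeFn_sup (g k) 0, AEEqFun.coeFn_zero (α := M) (β := ℝ) (μ := m)]
      with x h1 h2
    show (g k ⊔ 0 : M →ₘ[m] ℝ) x = _
    rw [h1, h2]; rfl
  have hLW : ∀ k, PD.LW m (F k) fun x => max (u k x) 0 := by
    intro k
    obtain ⟨K, hK⟩ := huL k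
    refine ⟨hFW k, ⟨K, hK.max_const 0⟩, ?_⟩
    filter_upwards [hFae k, hgu k] with x h1 h2
    rw [h1, h2]
  have h2φ : MemLp φ 2 m := hC.memLp φ hφ
  have hkey : ∀ k, -I ((sob m).Γ (cl m (ww δ p)) (F k)) ≤
      ∫ x in B, (n - 2 * (((n : ℝ) - 1) * κ) / 3 * (dist p x ^ 2 / 2)) * max (u k x) 0 ∂m :=
    fun k => lc_lip hm hA hS hM hG hQ hL p hδ (hLW k) fun x => le_max_right _ _
  -- `L²` convergence
  have hL2 : Tendsto (fun k => I ((F k - φ) ^ 2)) atTop (𝓝 0) := by
    have hz : Tendsto (fun k : ℕ => ((k : ℝ) + 1)⁻¹) atTop (𝓝 0) := by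
      simpa [one_div] using tendsto_one_div_add_atTop_nhds_zero_nat (𝕜 := ℝ)
    refine squeeze_zero (fun k => I_sq_nonneg _) (fun k => ?_) hz
    have h1 : I ((F k - φ) ^ 2) ≤ I ((φ - g k) ^ 2) := by
      refine I_mono (mem_sq (hC.memLp _ (hC.sub_mem (hFW k) hφ)))
        (mem_sq (hC.memLp _ (hC.sub_mem hφ (hgW k)))) ?_
      rw [le_iff_ae]
      filter_upwards [sq_ae (F k - φ), sq_ae (φ - g k), sub_ae (F k) φ, sub_ae φ (g k), hFae k,
        nonneg_iff_ae.1 h0] with x a1 a2 a3 a4 a5 a6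
      rw [a1, a2, a3, a4, a5, sq_le_sq]
      have a7 : |max (g k x) 0 - max (φ x) 0| ≤ |g k x - φ x| := abs_max_sub_max_le_abs _ _ _
      rw [max_eq_left a6] at a7
      rw [abs_sub_comm (φ x)]
      exact a7
    exact h1.trans ((hC.I_sq_le_nrm2 (hC.sub_mem hφ (hgW k))).trans (hgn k).le)
  -- bounded energy
  have hE : ∀ k, I ((sob m).Γ (F k) (F k)) ≤ 2 * I ((sob m).Γ φ φ) + 2 := by
    intro k
    have h1 : I ((sob m).Γ (F k) (F k)) ≤ I ((sob m).Γ (g k) (g k)) :=
      I_mono (hC.Γ_mem1 (hFW k) (hFW k)) (hC.Γ_mem1 (hgW k) (hgW k)) (hC.Γ_pos_le (hgW k))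
    have hd := hC.sub_mem hφ (hgW k)
    have h2 : I ((sob m).Γ (φ - g k) (φ - g k)) ≤ 1 := by
      refine (hC.E_le_nrm2 _).trans ((hgn k).le.trans ?_)
      rw [inv_le_one₀ (by positivity)]
      linarith [Nat.cast_nonneg (α := ℝ) k]
    have h3 : 0 ≤ I ((sob m).Γ (φ + (φ - g k)) (φ + (φ - g k))) :=
      hC.E_nonneg (hC.add_mem _ hφ _ hd)
    rw [hC.E_add hφ hd] at h3
    have e : g k = φ - (φ - g k) := by abel
    have h4 : I ((sob m).Γ (g k) (g k)) = I ((sob m).Γ φ φ) - 2 * I ((sob m).Γ φ (φ - g k))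
        + I ((sob m).Γ (φ - g k) (φ - g k)) := by
      conv_lhs => rw [e]
      rw [hC.E_sub hφ hd]
    linarith
  have lim1 : Tendsto (fun k => -I ((sob m).Γ (cl m (ww δ p)) (F k))) atTop
      (𝓝 (-I ((sob m).Γ (cl m (ww δ p)) φ))) := by
    have h1 := hC.E_tendsto_weak (l := atTop) (F := F) (Eventually.of_forall hFW) hφ hwW
      (Eventually.of_forall hE) hL2
    have e1 : ∀ k, I ((sob m).Γ (F k) (cl m (ww δ p))) = I ((sob m).Γ (cl m (ww δ p)) (F k)) :=
      fun k => by rw [hC.symm _ (hFW k) _ hwW]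
    rw [hC.symm _ hφ _ hwW] at h1
    exact (h1.congr e1).neg
  -- the right side
  set c : M → ℝ := B.indicator fun x => n - 2 * (((n : ℝ) - 1) * κ) / 3 * (dist p x ^ 2 / 2)
    with hc
  have hBfin : m B < ∞ := by
    refine (measure_mono ?_).trans_lt (hG.fin p ρ)
    intro x hx
    rw [Metric.mem_ball, dist_comm]; exact hx.2
  have hcm : Measurable c := by
    refine Measurable.indicator ?_ hBm
    have : Continuous fun x : M => (n : ℝ) - 2 * (((n : ℝ) - 1) * κ) / 3 * (dist p x ^ 2 / 2) := by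
      fun_prop
    exact this.measurable
  obtain ⟨E, hEb⟩ : ∃ E : ℝ, ∀ x, |c x| ≤ E := by
    have hcont : Continuous fun x : M =>
        |(n : ℝ) - 2 * (((n : ℝ) - 1) * κ) / 3 * (dist p x ^ 2 / 2)| := by fun_prop
    obtain ⟨E, hE'⟩ := (isCompact_closedBall p ρ).bddAbove_image hcont.continuousOn
    refine ⟨max E 0, fun x => ?_⟩
    by_cases hx : x ∈ B
    · rw [hc, indicator_of_mem hx]
      refine le_trans (hE' (mem_image_of_mem _ ?_)) (le_max_left _ _)
      rw [Metric.mem_closedBall, dist_comm]; exact hx.2.le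
    · rw [hc, indicator_of_notMem hx, abs_zero]; exact le_max_right _ _
  have hc2 : MemLp c 2 m := by
    have h1 : MemLp (B.indicator fun _ => E) 2 m :=
      memLp_indicator_const 2 hBm E (Or.inr hBfin.ne)
    refine h1.mono hcm.aestronglyMeasurable ?_
    refine Eventually.of_forall fun x => ?_
    have hE0 : 0 ≤ E := (abs_nonneg _).trans (hEb x)
    by_cases hx : x ∈ B
    · rw [indicator_of_mem hx, Real.norm_eq_abs, Real.norm_eq_abs, abs_of_nonneg hE0]; exact hEb x
    · rw [indicator_of_notMem hx, hc, indicator_of_notMem hx]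
  set χ : M →ₘ[m] ℝ := AEEqFun.mk c hcm.aestronglyMeasurable with hχ
  have hχae : ⇑χ =ᵐ[m] c := AEEqFun.coeFn_mk c _
  have hχ2 : MemLp χ 2 m := (memLp_congr_ae hχae).2 hc2
  have er : ∀ (f : M →ₘ[m] ℝ) (v : M → ℝ), f =ᵐ[m] v →
      ∫ x in B, (n - 2 * (((n : ℝ) - 1) * κ) / 3 * (dist p x ^ 2 / 2)) * v x ∂m = I (χ * f) := by
    intro f v hfv
    unfold I
    rw [← integral_indicator hBm]
    refine integral_congr_ae ?_
    filter_upwards [hχae, hfv, mul_ae χ f] with x a1 a2 a3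
    rw [a3, a1, a2, hc]
    by_cases hx : x ∈ B
    · rw [indicator_of_mem hx, indicator_of_mem hx]
    · rw [indicator_of_notMem hx, indicator_of_notMem hx, zero_mul]
  have lim2 : Tendsto (fun k => I (χ * F k)) atTop (𝓝 (I (χ * φ))) := by
    have h1 : Tendsto (fun k => √(I (χ ^ 2)) * √(I ((F k - φ) ^ 2))) atTop (𝓝 0) := by
      have := (hL2.sqrt).const_mul (√(I (χ ^ 2)))
      simpa using this
    have h2 : Tendsto (fun k => I (χ * F k) - I (χ * φ)) atTop (𝓝 0) := by
      refine squeeze_zero_norm (fun k => ?_) h1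
      have hd := hC.memLp _ (hC.sub_mem (hFW k) hφ)
      have e : I (χ * F k) - I (χ * φ) = I (χ * (F k - φ)) := by
        rw [mul_sub, I_sub (mem_mul_22 hχ2 (hC.memLp _ (hFW k))) (mem_mul_22 hχ2 h2φ)]
      rw [e, Real.norm_eq_abs]
      exact I_abs_le hχ2 hd
    simpa using h2.add_const (I (χ * φ))
  have hfin := le_of_tendsto_of_tendsto' lim1 lim2 fun k => by
    rw [← er (F k) _ (hLW k).2.2]; exact hkey k
  refine hfin.trans (le_of_eq ?_)
  unfold I
  refine integral_congr_ae ?_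
  filter_upwards [hχae, mul_ae χ φ, hsupp, hL.unit.sphere hG.fin p 0] with x a1 a2 a3 a4
  rw [a2, a1, hc]
  by_cases hx : x ∈ B
  · rw [indicator_of_mem hx]
    unfold gg
    rw [dist_comm x p]
  · rw [indicator_of_notMem hx, zero_mul]
    have h5 : δ ≤ gg p x := by
      by_contra hlt
      rw [not_le, dom_iff hδ] at hlt
      exact hx ⟨lt_of_le_of_ne dist_nonneg (Ne.symm a4), hlt⟩
    rw [a3 h5, mul_zero]

end

end Vale.Agent.P233.H227.LC2
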