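import Vale.Agent.P233.H227.L2c
import Vale.Agent.P233.RA.IfL2
import Vale.Agent.P233.H183.BlkD0
import Vale.Agent.P233.H457.Cont

/-! P233, RCDA, block EC (helper227): the comparison for Lipschitz functions from the Euler form of
the radial contraction. -/

set_option linter.all false

open MeasureTheory Filter Topology Set
open scoped ENNReal NNReal MeasureTheory

universe u

namespace Vale.Agent.P233.H227.LCE

open Vale.Agent.P233.RG Vale.Agent.P233.RA Vale.Agent.P233.H227.LC2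

section metric

variable {M : Type u} [MetricSpace M] {κ R s : ℝ} {p : M} {φ : M → ℝ}

/-- the fibre over `x` of the radial contraction, Euler form -/
def Fe (κ : ℝ) (p : M) (s : ℝ) (x : M) : Set M :=
  {z | dist p z = dist p x - s * sn κ (dist p x) ∧ dist z x = s * sn κ (dist p x)}

/-- the lower envelope -/
noncomputable def he (κ : ℝ) (p : M) (s : ℝ) (φ : M → ℝ) (x : M) : ℝ := sInf (φ '' Fe κ p s x)

theorem Fe_nonempty (hg : Gig.Geo M) (hs : 0 ≤ s) {x : M} (h1 : 0 ≤ sn κ (dist p x))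
    (h2 : s * sn κ (dist p x) ≤ dist p x) : (Fe κ p s x).Nonempty := by
  obtain ⟨z, h1, h2⟩ := hg p x (dist p x - s * sn κ (dist p x)) (s * sn κ (dist p x))
    (by linarith) (mul_nonneg hs h1) (by ring)
  exact ⟨z, h1, h2⟩

theorem Fe_compact [ProperSpace M] (x : M) : IsCompact (Fe κ p s x) := by
  refine (isCompact_closedBall p (dist p x - s * sn κ (dist p x))).of_isClosed_subset ?_ ?_
  · exact (isClosed_eq (by fun_prop) continuous_const).inter
      (isClosed_eq (by fun_prop) continuous_const)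
  · intro z hz
    rw [Metric.mem_closedBall, dist_comm]
    exact hz.1.le

theorem he_le [ProperSpace M] (hφ : Continuous φ) {x z : M} (hz : z ∈ Fe κ p s x) :
    he κ p s φ x ≤ φ z :=
  csInf_le ((Fe_compact x).image hφ).bddBelow (mem_image_of_mem φ hz)

theorem he_mem [ProperSpace M] (hφ : Continuous φ) {x : M} (hx : (Fe κ p s x).Nonempty) :
    ∃ z ∈ Fe κ p s x, he κ p s φ x = φ z := by
  obtain ⟨z, hz, h2⟩ := ((Fe_compact x).image hφ).sInf_mem (hx.image φ)
  exact ⟨z, hz, h2.symm⟩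

theorem he_closed [ProperSpace M] (hφ : Continuous φ) (r a : ℝ) :
    IsClosed {x : M | dist p x ≤ r ∧ ∃ z ∈ Fe κ p s x, φ z ≤ a} := by
  have hs : Continuous (sn κ) := c_sn κ
  have h1 : Continuous fun w : M × M => dist p w.2 := by fun_prop
  have h2 : Continuous fun w : M × M => dist w.2 w.1 := by fun_prop
  have h3 : Continuous fun w : M × M => dist p w.1 := by fun_prop
  have h4 : Continuous fun w : M × M => φ w.2 := hφ.comp continuous_snd
  have h5 : Continuous fun w : M × M => sn κ (dist p w.1) := hs.comp h3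
  set K : Set (M × M) := {w | dist p w.1 ≤ r ∧ dist p w.2 = dist p w.1 - s * sn κ (dist p w.1) ∧
    dist w.2 w.1 = s * sn κ (dist p w.1) ∧ φ w.2 ≤ a} with hK
  have hKc : IsClosed K := by
    refine (isClosed_le h3 continuous_const).inter ((isClosed_eq h1 (by fun_prop)).inter
      ((isClosed_eq h2 (by fun_prop)).inter (isClosed_le h4 continuous_const)))
  obtain ⟨D, hD⟩ := (isCompact_Icc (a := (0 : ℝ)) (b := r)).bddAbove_image
    (f := fun t => t - s * sn κ t) (by fun_prop)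
  have hKK : IsCompact K := by
    refine ((isCompact_closedBall p r).prod (isCompact_closedBall p D)).of_isClosed_subset hKc ?_
    rintro ⟨x, z⟩ ⟨k1, k2, -, -⟩
    have k1' : dist p x ≤ r := k1
    have k2' : dist p z = dist p x - s * sn κ (dist p x) := k2
    refine ⟨?_, ?_⟩
    · rw [Metric.mem_closedBall, dist_comm]; exact k1
    · rw [Metric.mem_closedBall, dist_comm]
      show dist p z ≤ D
      rw [k2']
      exact hD (mem_image_of_mem _ ⟨dist_nonneg, k1'⟩)
  have e : {x : M | dist p x ≤ r ∧ ∃ z ∈ Fe κ p s x, φ z ≤ a} = Prod.fst '' K := by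
    ext x
    constructor
    · rintro ⟨k1, z, ⟨k2, k3⟩, k4⟩
      exact ⟨(x, z), ⟨k1, k2, k3, k4⟩, rfl⟩
    · rintro ⟨⟨y, z⟩, ⟨k1, k2, k3, k4⟩, rfl⟩
      exact ⟨k1, z, ⟨k2, k3⟩, k4⟩
  rw [e]
  exact (hKK.image continuous_fst).isClosed

/-- derivative of the lower envelope -/
theorem lim_he [ProperSpace M] (hφ : Continuous φ) {x : M} (h0 : 0 < sn κ (dist p x))
    (hne : ∀ᶠ s in 𝓝[>] (0 : ℝ), (Fe κ p s x).Nonempty)
    {a : ℝ} (hFV : PD.FV φ p x a) :
    Tendsto (fun s => (φ x - he κ p s φ x) / s) (𝓝[>] 0) (𝓝 (sn κ (dist p x) * a)) := by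
  set σ := sn κ (dist p x) with hσ
  rw [Metric.tendsto_nhds]
  intro ε hε
  obtain ⟨δ, hδ, hF⟩ := hFV (ε / (2 * σ)) (by positivity)
  have hev : ∀ᶠ s in 𝓝[>] (0 : ℝ), s < δ / σ := by
    have : Iio (δ / σ) ∈ 𝓝 (0 : ℝ) := Iio_mem_nhds (by positivity)
    exact nhdsWithin_le_nhds this
  filter_upwards [self_mem_nhdsWithin, hev, hne] with s hs hsδ hn
  have hs0 : (0 : ℝ) < s := hs
  obtain ⟨z, hz, hhz⟩ := he_mem (p := p) hφ hn
  have e1 : dist x z = s * σ := by rw [dist_comm, hz.2]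
  have e2 : dist z p = dist p x - s * σ := by rw [dist_comm, hz.1]
  have h3 : dist x z < δ := by
    rw [e1]; rwa [lt_div_iff₀ h0] at hsδ
  have h4 := hF z h3 (by rw [e1, e2, dist_comm x p]; ring)
  rw [e1] at h4
  rw [Real.dist_eq, hhz]
  have e3 : (φ x - φ z) / s - σ * a = -((φ z - φ x + s * σ * a) / s) := by
    field_simp; ring
  rw [e3, abs_neg, abs_div, abs_of_pos hs0, div_lt_iff₀ hs0]
  calc |φ z - φ x + s * σ * a| ≤ ε / (2 * σ) * (s * σ) := h4
    _ = ε * s * (1 / 2) := by field_simp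
    _ < ε * s * 1 := by
      refine mul_lt_mul_of_pos_left (by norm_num) (by positivity)
    _ = ε * s := mul_one _

end metric

/-! ### the weight -/

/-- the weight `(1 - s c - C s²)^n` -/
noncomputable def wt (n : ℕ) (C c s : ℝ) : ℝ := (1 - s * c - C * s ^ 2) ^ n

theorem d_wt (n : ℕ) (C c s : ℝ) :
    HasDerivAt (wt n C c) (n * (1 - s * c - C * s ^ 2) ^ (n - 1) * (-c - C * (2 * s))) s := by
  have h1 : HasDerivAt (fun s : ℝ => 1 - s * c - C * s ^ 2) (-c - C * (2 * s)) s := by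
    have h2 := (((hasDerivAt_id s).mul_const c).const_sub 1).sub ((hasDerivAt_pow 2 s).const_mul C)
    refine h2.congr_deriv ?_
    simp
  exact h1.pow n

theorem lim_wt (n : ℕ) (C c : ℝ) :
    Tendsto (fun s => (wt n C c s - 1) / s) (𝓝[>] 0) (𝓝 (-(n * c))) := by
  have h := (d_wt n C c 0).tendsto_slope
  have h2 := h.mono_left (nhdsWithin_mono 0 (fun s (hs : (0 : ℝ) < s) => hs.ne'))
  have e : (n : ℝ) * (1 - 0 * c - C * 0 ^ 2) ^ (n - 1) * (-c - C * (2 * 0)) = -(n * c) := by simp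
  rw [e] at h2
  refine h2.congr fun s => ?_
  rw [slope_def_field]
  simp [wt]

theorem lim_wt0 (n : ℕ) (C c : ℝ) : Tendsto (wt n C c) (𝓝[>] 0) (𝓝 1) := by
  have h : Tendsto (wt n C c) (𝓝 0) (𝓝 (wt n C c 0)) := (d_wt n C c 0).continuousAt
  have e : wt n C c 0 = 1 := by simp [wt]
  rw [e] at h
  exact h.mono_left nhdsWithin_le_nhds

theorem wt_bounds (n : ℕ) {C D : ℝ} (hC : 0 ≤ C) (hD : 0 ≤ D) : ∃ E : ℝ, 0 ≤ E ∧ ∀ c, |c| ≤ D →
    ∀ s, 0 ≤ s → s ≤ 1 → |wt n C c s| ≤ E ∧ |wt n C c s - 1| ≤ E * s := by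
  have hb : ∀ c, |c| ≤ D → ∀ s, 0 ≤ s → s ≤ 1 → |1 - s * c - C * s ^ 2| ≤ 1 + D + C := by
    intro c hc s hs hs1
    have h1 : |s * c| ≤ D := by
      rw [abs_mul, abs_of_nonneg hs]
      calc s * |c| ≤ 1 * D := mul_le_mul hs1 hc (abs_nonneg _) zero_le_one
        _ = D := one_mul D
    have h2 : 0 ≤ C * s ^ 2 ∧ C * s ^ 2 ≤ C := by
      refine ⟨by positivity, ?_⟩
      have : s ^ 2 ≤ 1 := pow_le_one₀ hs hs1
      calc C * s ^ 2 ≤ C * 1 := by gcongr
        _ = C := mul_one C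
    rw [abs_le] at h1 ⊢
    constructor <;> linarith [h1.1, h1.2, h2.1, h2.2]
  refine ⟨(1 + D + C) ^ n + n * (1 + D + C) ^ (n - 1) * (D + 2 * C), by positivity, ?_⟩
  intro c hc s hs hs1
  have p1 : 0 ≤ (1 + D + C) ^ n := by positivity
  have p2 : 0 ≤ n * (1 + D + C) ^ (n - 1) * (D + 2 * C) := by positivity
  constructor
  · have : |wt n C c s| ≤ (1 + D + C) ^ n := by
      unfold wt
      rw [abs_pow]
      exact pow_le_pow_left₀ (abs_nonneg _) (hb c hc s hs hs1) n
    linarith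
  · have h2 := (convex_Icc (0 : ℝ) s).norm_image_sub_le_of_norm_hasDerivWithin_le
      (f := wt n C c) (f' := fun s => n * (1 - s * c - C * s ^ 2) ^ (n - 1) * (-c - C * (2 * s)))
      (C := n * (1 + D + C) ^ (n - 1) * (D + 2 * C))
      (fun x hx => (d_wt n C c x).hasDerivWithinAt) (fun x hx => by
        have hx1 : x ≤ 1 := hx.2.trans hs1
        rw [Real.norm_eq_abs, abs_mul, abs_mul, abs_pow, Nat.abs_cast]
        have h3 := hb c hc x hx.1 hx1
        have h4 : |-c - C * (2 * x)| ≤ D + 2 * C := by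
          have h5 : 0 ≤ C * (2 * x) := by have := hx.1; positivity
          have h6 : C * (2 * x) ≤ 2 * C := by nlinarith
          rw [abs_le] at hc ⊢
          constructor <;> linarith [hc.1, hc.2]
        have h7 : |1 - x * c - C * x ^ 2| ^ (n - 1) ≤ (1 + D + C) ^ (n - 1) :=
          pow_le_pow_left₀ (abs_nonneg _) h3 _
        gcongr)
      (left_mem_Icc.2 hs) (right_mem_Icc.2 hs)
    have e : wt n C c 0 = 1 := by simp [wt]
    rw [Real.norm_eq_abs, Real.norm_eq_abs, sub_zero, abs_of_nonneg hs, e] at h2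
    refine h2.trans ?_
    gcongr
    linarith

section

variable {M : Type u} [MetricSpace M] [MeasurableSpace M] [BorelSpace M] {κ R s : ℝ} {p : M}
  {φ : M → ℝ}

/-- small times -/
def Sm (κ R C s : ℝ) : Prop := 0 < s ∧ s ≤ 1 ∧ (∀ r, 0 ≤ r → r ≤ R → s * sn κ r ≤ r) ∧
  ∀ r, 0 ≤ r → r ≤ R → 0 ≤ 1 - s * cs κ r - C * s ^ 2

theorem sm_ev {C : ℝ} (hC : 0 ≤ C) : ∀ᶠ s in 𝓝[>] (0 : ℝ), Sm κ R C s := by
  set D := Real.cosh (√|κ| * R) with hD
  have hD1 : 1 ≤ D := Real.one_le_cosh _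
  have h1 : Iio (1 / (2 * (D + C + 1))) ∈ 𝓝 (0 : ℝ) := Iio_mem_nhds (by positivity)
  filter_upwards [self_mem_nhdsWithin, nhdsWithin_le_nhds h1] with s hs hs1
  have hs0 : (0 : ℝ) < s := hs
  have hs2 : s * (2 * (D + C + 1)) < 1 := by
    have : s < 1 / (2 * (D + C + 1)) := hs1
    rwa [lt_div_iff₀ (by positivity)] at this
  have hsC : 0 ≤ s * C := by positivity
  have hsD : s ≤ s * D := by nlinarith
  have hs3 : s ≤ 1 := by nlinarith
  refine ⟨hs0, hs3, fun r h0 h1 => ?_, fun r h0 h1 => ?_⟩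
  · have h2 := (le_abs_self _).trans (sn_le (κ := κ) h0 h1)
    calc s * sn κ r ≤ s * (D * r) := by gcongr
      _ = (s * D) * r := by ring
      _ ≤ 1 * r := by
        refine mul_le_mul_of_nonneg_right ?_ h0
        nlinarith
      _ = r := one_mul r
  · have h2 := (le_abs_self _).trans (cs_le (κ := κ) h0 h1)
    have h3 : s * cs κ r ≤ s * D := by gcongr
    have h4 : C * s ^ 2 ≤ s * C := by nlinarith
    nlinarith

theorem Fe_ne [ProperSpace M] (hg : Gig.Geo M) (hR : Ad κ R) {C : ℝ} (hs : Sm κ R C s) {x : M}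
    (hx : dist p x ≤ R) : (Fe κ p s x).Nonempty :=
  Fe_nonempty hg hs.1.le (sn_nonneg dist_nonneg (hR.mono dist_nonneg hx).2.le)
    (hs.2.2.1 _ dist_nonneg hx)

theorem he_meas [ProperSpace M] (hg : Gig.Geo M) (hR : Ad κ R) {C : ℝ} (hs : Sm κ R C s)
    (hφ : Continuous φ) : Measurable ((Bp p R).indicator (he κ p s φ)) := by
  classical
  refine measurable_of_Iic fun a => ?_
  have hB : MeasurableSet (Bp p R) := (Bp_open p R).measurableSet
  have h1 := (he_closed (κ := κ) (s := s) (p := p) hφ R a).measurableSet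
  have e : (Bp p R).indicator (he κ p s φ) ⁻¹' Iic a
      = (Bp p R ∩ {x : M | dist p x ≤ R ∧ ∃ z ∈ Fe κ p s x, φ z ≤ a})
        ∪ ((Bp p R)ᶜ ∩ {x | (0 : ℝ) ≤ a}) := by
    ext x
    by_cases hx : x ∈ Bp p R
    · simp only [mem_preimage, indicator_of_mem hx, mem_Iic, mem_union, mem_inter_iff, hx,
        true_and, mem_compl_iff, not_true_eq_false, false_and, or_false, mem_setOf_eq]
      constructor
      · intro h
        obtain ⟨z, hz, h2⟩ := he_mem (p := p) (φ := φ) hφ (Fe_ne hg hR hs hx.2.le)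
        exact ⟨hx.2.le, z, hz, h2 ▸ h⟩
      · rintro ⟨-, z, hz, h2⟩
        exact (he_le hφ hz).trans h2
    · simp [indicator_of_notMem hx, hx]
  rw [e]
  refine (hB.inter h1).union (hB.compl.inter ?_)
  by_cases h : (0 : ℝ) ≤ a <;> simp [h]

theorem c_wt (n : ℕ) (C s R : ℝ) (p : M) :
    ContinuousOn (fun x : M => wt n C (cs κ (dist p x)) s) (Bp p R) := by
  have := c_cs κ
  unfold wt
  fun_prop

/-- **StarE in integrated form.** -/
theorem starE_int [ProperSpace M] {m : Measure M} {n : ℕ} (hg : Gig.Geo M) (hR : Ad κ R) {C : ℝ}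
    (hs : Sm κ R C s) (p : M)
    (hS : ∀ B G : Set M, MeasurableSet B → B ⊆ Metric.ball p R →
      (∀ x ∈ B, √κ * dist p x < Real.pi) →
      (∀ x ∈ B, ∃ z ∈ G, dist p z = dist p x - s * sn κ (dist p x) ∧
        dist z x = s * sn κ (dist p x)) →
      ∫⁻ x in B, ENNReal.ofReal (1 - s * cs κ (dist p x) - C * s ^ 2) ^ n ∂m ≤ m G)
    (hφ : Continuous φ) (h0 : ∀ x, 0 ≤ φ x) :
    ∫⁻ x in Bp p R, ENNReal.ofReal (he κ p s φ x * wt n C (cs κ (dist p x)) s) ∂m
      ≤ ∫⁻ x, ENNReal.ofReal (φ x) ∂m := by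
  classical
  set B := Bp p R with hB
  have hBm : MeasurableSet B := (Bp_open p R).measurableSet
  set U : M → ℝ := B.indicator (he κ p s φ) with hU
  set w : M → ℝ≥0∞ := fun x =>
    ENNReal.ofReal (B.indicator (fun x => wt n C (cs κ (dist p x)) s) x) with hw
  have hUm : Measurable U := he_meas hg hR hs hφ
  have hwm : Measurable w := (ind_meas (c_wt n C s R p)).ennreal_ofReal
  have hne : ∀ x ∈ B, (Fe κ p s x).Nonempty := fun x hx => Fe_ne hg hR hs hx.2.le
  have hhn : ∀ x ∈ B, 0 ≤ he κ p s φ x := by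
    intro x hx
    obtain ⟨z, -, h⟩ := he_mem (p := p) hφ (hne x hx)
    rw [h]; exact h0 z
  have hUn : ∀ x, 0 ≤ U x := fun x => indicator_nonneg hhn x
  set ν : Measure M := (m.restrict B).withDensity w with hν
  have hwp : ∀ x ∈ B, 0 ≤ 1 - s * cs κ (dist p x) - C * s ^ 2 := fun x hx =>
    hs.2.2.2 _ dist_nonneg hx.2.le
  have e1 : ∫⁻ x in B, ENNReal.ofReal (he κ p s φ x * wt n C (cs κ (dist p x)) s) ∂m
      = ∫⁻ x, ENNReal.ofReal (U x) ∂ν := by
    rw [hν, lintegral_withDensity_eq_lintegral_mul₀ hwm.aemeasurable hUm.ennreal_ofReal.aemeasurable]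
    refine setLIntegral_congr_fun hBm fun x hx => ?_
    simp only [Pi.mul_apply, hw, hU, indicator_of_mem hx]
    have hwx : 0 ≤ wt n C (cs κ (dist p x)) s := pow_nonneg (hwp x hx) n
    rw [← ENNReal.ofReal_mul hwx, mul_comm]
  rw [e1, lintegral_eq_lintegral_meas_lt ν (Eventually.of_forall hUn) hUm.aemeasurable,
    lintegral_eq_lintegral_meas_lt m (Eventually.of_forall h0) hφ.measurable.aemeasurable]
  refine lintegral_mono_ae ?_
  filter_upwards [self_mem_ae_restrict (measurableSet_Ioi (a := (0 : ℝ)))] with a ha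
  have ha0 : (0 : ℝ) < a := ha
  have hUa : MeasurableSet {x | a < U x} := hUm measurableSet_Ioi
  rw [hν, withDensity_apply _ hUa, Measure.restrict_restrict hUa]
  have h3 : ∫⁻ x in {x | a < U x} ∩ B, w x ∂m
      = ∫⁻ x in {x | a < U x} ∩ B, ENNReal.ofReal (1 - s * cs κ (dist p x) - C * s ^ 2) ^ n ∂m := by
    refine setLIntegral_congr_fun (hUa.inter hBm) fun x hx => ?_
    simp only [hw, indicator_of_mem hx.2]
    rw [← ENNReal.ofReal_pow (hwp x hx.2)]
    rfl
  rw [h3]
  refine hS _ _ (hUa.inter hBm) (fun x hx => ?_) (fun x hx => (Bp_ad hR hx.2).2) fun x hx => ?_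
  · rw [Metric.mem_ball, dist_comm]; exact hx.2.2
  · obtain ⟨z, hz⟩ := hne x hx.2
    refine ⟨z, ?_, hz.1, hz.2⟩
    have h4 : a < U x := hx.1
    simp only [hU, indicator_of_mem hx.2] at h4
    exact h4.trans_le (he_le hφ hz)

/-- **core inequality** -/
theorem coreE [ProperSpace M] {m : Measure M} {n : ℕ} (hmH : m = μH[(n : ℝ)]) (hg : Gig.Geo M)
    (hS : StarE M κ n)
    (hfin : ∀ (x : M) (r : ℝ), m (Metric.ball x r) < ∞) (hR : Ad κ R) (hR0 : 0 < R)
    {L : ℝ≥0} (hφ : LipschitzWith L φ) (h0 : ∀ x, 0 ≤ φ x) (p : M)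
    (hφR : ∀ᵐ x ∂m, x ∉ Bp p R → φ x = 0) {G : M → ℝ}
    (hFV : ∀ᵐ x ∂m, dist p x < R → PD.FV φ p x (G x)) :
    -∫ x in Bp p R, sn κ (dist p x) * G x ∂m ≤ ∫ x in Bp p R, n * cs κ (dist p x) * φ x ∂m := by
  obtain ⟨s₀, hs₀, C, hC, hSt⟩ := hS R hR0
  set B := Bp p R with hB
  have hBm : MeasurableSet B := (Bp_open p R).measurableSet
  have hBfin : m B < ∞ := by
    refine (measure_mono ?_).trans_lt (hfin p R)
    intro x hx
    rw [Metric.mem_ball, dist_comm]; exact hx.2
  haveI : IsFiniteMeasure (m.restrict B) := ⟨by rwa [Measure.restrict_apply_univ]⟩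
  set D := Real.cosh (√|κ| * R) with hD
  have hD1 : 1 ≤ D := Real.one_le_cosh _
  obtain ⟨E, hE, hwb⟩ := wt_bounds n hC (by linarith : (0 : ℝ) ≤ D)
  obtain ⟨A, hA⟩ : ∃ A : ℝ, ∀ x ∈ B, φ x ≤ A := by
    obtain ⟨A, hA⟩ := (isCompact_closedBall p R).bddAbove_image hφ.continuous.continuousOn
    refine ⟨A, fun x hx => hA (mem_image_of_mem φ ?_)⟩
    rw [Metric.mem_closedBall, dist_comm]; exact hx.2.le
  have hA0 : ∀ x ∈ B, |φ x| ≤ A := fun x hx => by rw [abs_of_nonneg (h0 x)]; exact hA x hx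
  have had : ∀ x ∈ B, Ad κ (dist p x) := fun x hx => Bp_ad hR hx
  have hcs : ∀ x ∈ B, |cs κ (dist p x)| ≤ D := fun x hx => cs_le dist_nonneg hx.2.le
  have hsnp : ∀ x ∈ B, 0 < sn κ (dist p x) := fun x hx => sn_pos hx.1 (had x hx).2
  have hsn : ∀ x ∈ B, sn κ (dist p x) ≤ D * R := fun x hx =>
    ((le_abs_self _).trans (sn_le (κ := κ) dist_nonneg hx.2.le)).trans
      (mul_le_mul_of_nonneg_left hx.2.le (by linarith))
  -- good times
  have hgood : ∀ᶠ s in 𝓝[>] (0 : ℝ), Sm κ R C s ∧ s ≤ s₀ :=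
    (sm_ev hC).and (nhdsWithin_le_nhds (Iic_mem_nhds hs₀))
  have hhb : ∀ x ∈ B, ∀ s, Sm κ R C s → |φ x - he κ p s φ x| ≤ L * (D * R) * s ∧
      0 ≤ he κ p s φ x := by
    intro x hx s hs
    obtain ⟨z, hz, hhz⟩ := he_mem (p := p) hφ.continuous (Fe_ne hg hR hs hx.2.le)
    have h1 := hφ.dist_le_mul x z
    rw [Real.dist_eq, dist_comm x z, hz.2] at h1
    rw [hhz]
    refine ⟨h1.trans ?_, h0 z⟩
    calc (L : ℝ) * (s * sn κ (dist p x)) ≤ L * (s * (D * R)) := by
          have := hsn x hx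
          have := hs.1
          gcongr
      _ = L * (D * R) * s := by ring
  -- measurability
  have mφ : AEStronglyMeasurable φ (m.restrict B) := hφ.continuous.aestronglyMeasurable
  have mh : ∀ s, Sm κ R C s → AEStronglyMeasurable (he κ p s φ) (m.restrict B) := fun s hs => by
    rw [← aestronglyMeasurable_indicator_iff hBm]
    exact (he_meas hg hR hs hφ.continuous).aestronglyMeasurable
  have mw : ∀ s, AEStronglyMeasurable (fun x => wt n C (cs κ (dist p x)) s) (m.restrict B) :=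
    fun s => (c_wt n C s R p).aestronglyMeasurable hBm
  have aeB : ∀ᵐ x ∂(m.restrict B), x ∈ B := ae_restrict_mem hBm
  have hwn : ∀ s, Sm κ R C s → ∀ x ∈ B, 0 ≤ wt n C (cs κ (dist p x)) s := fun s hs x hx =>
    pow_nonneg (hs.2.2.2 _ dist_nonneg hx.2.le) n
  -- integrability
  have i1 : ∀ s, Sm κ R C s →
      Integrable (fun x => he κ p s φ x * wt n C (cs κ (dist p x)) s) (m.restrict B) := by
    intro s hs
    refine Integrable.of_bound ((mh s hs).mul (mw s)) ((A + L * (D * R) * s) * E) ?_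
    filter_upwards [aeB] with x hx
    obtain ⟨h1, h2⟩ := hhb x hx s hs
    have h3 := (hwb _ (hcs x hx) s hs.1.le hs.2.1).1
    have h4 := hA x hx
    have h5 := (abs_le.1 h1).1
    rw [Real.norm_eq_abs, abs_mul, abs_of_nonneg h2]
    exact mul_le_mul (by linarith) h3 (abs_nonneg _) (by linarith)
  have i2 : Integrable φ (m.restrict B) := by
    refine Integrable.of_bound mφ A ?_
    filter_upwards [aeB] with x hx
    exact hA0 x hx
  have i3 : ∀ s, Sm κ R C s → Integrable (fun x => φ x * wt n C (cs κ (dist p x)) s)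
      (m.restrict B) := by
    intro s hs
    refine Integrable.of_bound (mφ.mul (mw s)) (A * E) ?_
    filter_upwards [aeB] with x hx
    rw [Real.norm_eq_abs, abs_mul]
    exact mul_le_mul (hA0 x hx) (hwb _ (hcs x hx) s hs.1.le hs.2.1).1 (abs_nonneg _)
      ((abs_nonneg _).trans (hA0 x hx))
  -- the inequality for `s`
  have eφ : ∫⁻ x, ENNReal.ofReal (φ x) ∂m = ∫⁻ x in B, ENNReal.ofReal (φ x) ∂m := by
    rw [← lintegral_indicator hBm]
    refine lintegral_congr_ae ?_
    filter_upwards [hφR] with x hx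
    by_cases h : x ∈ B
    · rw [indicator_of_mem h]
    · rw [indicator_of_notMem h, hx h, ENNReal.ofReal_zero]
  have key : ∀ s, Sm κ R C s → s ≤ s₀ →
      ∫ x in B, he κ p s φ x * wt n C (cs κ (dist p x)) s ∂m ≤ ∫ x in B, φ x ∂m := by
    intro s hs hss
    have h1 := starE_int (m := m) (n := n) hg hR hs p (fun B' G' a1 a2 a3 a4 => by
      subst hmH; exact hSt p s hs.1 hss B' G' a1 a2 a3 a4) hφ.continuous h0
    rw [eφ] at h1
    rw [integral_eq_lintegral_of_nonneg_ae _ (i1 s hs).aestronglyMeasurable,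
      integral_eq_lintegral_of_nonneg_ae _ i2.aestronglyMeasurable]
    · exact ENNReal.toReal_mono i2.lintegral_lt_top.ne h1
    · exact Eventually.of_forall h0
    · filter_upwards [aeB] with x hx
      exact mul_nonneg (hhb x hx s hs).2 (hwn s hs x hx)
  have key2 : ∀ s, Sm κ R C s → s ≤ s₀ →
      ∫ x in B, φ x * ((wt n C (cs κ (dist p x)) s - 1) / s) ∂m
        ≤ ∫ x in B, (φ x - he κ p s φ x) / s * wt n C (cs κ (dist p x)) s ∂m := by
    intro s hs hss
    have h1 := key s hs hss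
    have e1 : ∫ x in B, φ x * ((wt n C (cs κ (dist p x)) s - 1) / s) ∂m
        = (∫ x in B, φ x * wt n C (cs κ (dist p x)) s ∂m - ∫ x in B, φ x ∂m) / s := by
      rw [← integral_sub (i3 s hs) i2, ← integral_div]
      congr 1; ext x; ring
    have e2 : ∫ x in B, (φ x - he κ p s φ x) / s * wt n C (cs κ (dist p x)) s ∂m
        = (∫ x in B, φ x * wt n C (cs κ (dist p x)) s ∂m
          - ∫ x in B, he κ p s φ x * wt n C (cs κ (dist p x)) s ∂m) / s := by
      rw [← integral_sub (i3 s hs) (i1 s hs), ← integral_div]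
      congr 1; ext x; ring
    rw [e1, e2]
    have := hs.1
    gcongr
  -- limits
  have l1 : Tendsto (fun s => ∫ x in B, φ x * ((wt n C (cs κ (dist p x)) s - 1) / s) ∂m) (𝓝[>] 0)
      (𝓝 (∫ x in B, φ x * -(n * cs κ (dist p x)) ∂m)) := by
    refine tendsto_integral_filter_of_dominated_convergence (fun _ => A * E) ?_ ?_
      (integrable_const _) ?_
    · refine Eventually.of_forall fun s => ?_
      exact mφ.mul ((((mw s).sub aestronglyMeasurable_const).aemeasurable.div_const s).aestronglyMeasurable)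
    · filter_upwards [hgood] with s hs
      filter_upwards [aeB] with x hx
      have h1 := (hwb _ (hcs x hx) s hs.1.1.le hs.1.2.1).2
      rw [Real.norm_eq_abs, abs_mul, abs_div, abs_of_pos hs.1.1]
      refine mul_le_mul (hA0 x hx) ?_ (div_nonneg (abs_nonneg _) hs.1.1.le)
        ((abs_nonneg _).trans (hA0 x hx))
      rw [div_le_iff₀ hs.1.1]; exact h1
    · exact Eventually.of_forall fun x => (lim_wt n C _).const_mul (φ x)
  have l2 : Tendsto (fun s => ∫ x in B, (φ x - he κ p s φ x) / s * wt n C (cs κ (dist p x)) s ∂m)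
      (𝓝[>] 0) (𝓝 (∫ x in B, sn κ (dist p x) * G x ∂m)) := by
    refine tendsto_integral_filter_of_dominated_convergence (fun _ => L * (D * R) * E) ?_ ?_
      (integrable_const _) ?_
    · filter_upwards [hgood] with s hs
      exact ((mφ.sub (mh s hs.1)).aemeasurable.div_const s).aestronglyMeasurable.mul (mw s)
    · filter_upwards [hgood] with s hs
      filter_upwards [aeB] with x hx
      rw [Real.norm_eq_abs, abs_mul, abs_div, abs_of_pos hs.1.1]
      refine mul_le_mul ?_ (hwb _ (hcs x hx) s hs.1.1.le hs.1.2.1).1 (abs_nonneg _) (by positivity)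
      rw [div_le_iff₀ hs.1.1]; exact (hhb x hx s hs.1).1
    · filter_upwards [aeB, ae_restrict_of_ae hFV] with x hx hx2
      have h1 := lim_he (p := p) hφ.continuous (hsnp x hx)
        (hgood.mono fun s hs => Fe_ne hg hR hs.1 hx.2.le) (hx2 hx.2)
      have h2 := h1.mul (lim_wt0 n C (cs κ (dist p x)))
      rwa [mul_one] at h2
  have l3 := le_of_tendsto_of_tendsto l1 l2 (by
    filter_upwards [hgood] with s hs
    exact key2 s hs.1 hs.2)
  have l5 : ∫ x in B, φ x * -(n * cs κ (dist p x)) ∂m = -∫ x in B, n * cs κ (dist p x) * φ x ∂m := by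
    rw [← integral_neg]; congr 1; ext x; ring
  rw [l5] at l3
  linarith

end

/-- **Block EC.** -/
theorem blk_EC : Blk_EC.{u} := by
  intro M _ _ _ _ _ n κ hA hM hG hQ hL hS
  suffices H : ∀ m : Measure M, m = μH[(n : ℝ)] → GeoN m n → Quadr m → LOut m n → EC m n κ from
    H _ rfl hG hQ hL
  clear hG hQ hL
  intro m hmH hG hQ hL p R ψ L hψ h0 hR hη
  have hC : IsDir (sob m) := isDir_sob hG.fin hQ
  haveI := hG.geo.proper
  have hg : Gig.Geo M := hA.alex.geodesic
  have hψW : cl m ψ ∈ (sob m).W := H183.cl_mem_W hG.fin hψ hR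
  have hdW : PD.dp m p R ∈ (sob m).W := H183.dtr_mem hG.fin p R
  have hψae : ⇑(cl m ψ) =ᵐ[m] ψ := H183.cl_cont hψ.continuous
  have hloc := H183.Γ_loc0 hC hψW hdW 0
  by_cases hex : ∃ x₀, ψ x₀ ≠ 0
  swap
  · simp only [not_exists, not_not] at hex
    have e1 : ∫ x, sn κ (dist p x) * (sob m).Γ (cl m ψ) (PD.dp m p R) x ∂m = 0 := by
      rw [← integral_zero M ℝ (μ := m)]
      refine integral_congr_ae ?_
      filter_upwards [hψae, hloc] with x a1 a2
      rw [a2 (by rw [a1, hex x]), mul_zero]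
    have e2 : ∫ x, n * cs κ (dist p x) * ψ x ∂m = 0 := by
      rw [← integral_zero M ℝ (μ := m)]
      refine integral_congr_ae (Eventually.of_forall fun x => ?_)
      simp only [hex x, mul_zero]
    rw [e1, e2, neg_zero]
  · obtain ⟨x₀, hx₀⟩ := hex
    obtain ⟨η, hη0, hη⟩ := hη
    have b1 : dist p x₀ < R := by
      by_contra h; exact hx₀ (hR x₀ (not_lt.1 h))
    have b2 : √κ * dist p x₀ < Real.pi - η := by
      by_contra h; exact hx₀ (hη x₀ (not_lt.1 h))
    have hR0 : 0 < R := dist_nonneg.trans_lt b1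
    -- a radius
    obtain ⟨R', c1, c2, c3, c4⟩ : ∃ R', 0 < R' ∧ R' ≤ R ∧ Ad κ R' ∧
        ∀ x, R' ≤ dist p x → ψ x = 0 := by
      rcases le_or_gt κ 0 with hk | hk
      · refine ⟨R, hR0, le_rfl, ⟨hR0.le, ?_⟩, hR⟩
        rw [Real.sqrt_eq_zero_of_nonpos hk, zero_mul]; exact Real.pi_pos
      · have hs : 0 < √κ := Real.sqrt_pos.2 hk
        have hπη : 0 < Real.pi - η := lt_of_le_of_lt (by positivity) b2
        refine ⟨min R ((Real.pi - η) / √κ), lt_min hR0 (by positivity), min_le_left _ _,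
          ⟨(lt_min hR0 (by positivity)).le, ?_⟩, fun x hx => ?_⟩
        · calc √κ * min R ((Real.pi - η) / √κ) ≤ √κ * ((Real.pi - η) / √κ) := by
                gcongr; exact min_le_right _ _
            _ = Real.pi - η := by field_simp
            _ < Real.pi := by linarith
        · rcases le_total R ((Real.pi - η) / √κ) with h | h
          · rw [min_eq_left h] at hx; exact hR x hx
          · rw [min_eq_right h, div_le_iff₀ hs] at hx
            exact hη x (by linarith)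
    have hBm : MeasurableSet (Bp p R') := (Bp_open p R').measurableSet
    have hsph := hL.unit.sphere hG.fin p 0
    have hφR : ∀ᵐ x ∂m, x ∉ Bp p R' → ψ x = 0 := by
      filter_upwards [hsph] with x hx hn
      refine c4 x ?_
      by_contra hlt
      exact hn ⟨lt_of_le_of_ne dist_nonneg (Ne.symm hx), not_le.1 hlt⟩
    have hLW : PD.LW m (cl m ψ) ψ := ⟨hψW, ⟨L, hψ⟩, hψae⟩
    have hFV : ∀ᵐ x ∂m, dist p x < R' → PD.FV ψ p x ((sob m).Γ (cl m ψ) (PD.dp m p R) x) := by
      filter_upwards [hL.fv _ _ hLW p R] with x hx hxR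
      exact hx (hxR.trans_le c2)
    have hcore := coreE hmH hg hS hG.fin c3 c1 hψ h0 p hφR hFV
    have e1 : ∫ x, sn κ (dist p x) * (sob m).Γ (cl m ψ) (PD.dp m p R) x ∂m
        = ∫ x in Bp p R', sn κ (dist p x) * (sob m).Γ (cl m ψ) (PD.dp m p R) x ∂m := by
      rw [← integral_indicator hBm]
      refine integral_congr_ae ?_
      filter_upwards [hψae, hloc, hφR] with x a1 a2 a3
      by_cases hx : x ∈ Bp p R'
      · rw [indicator_of_mem hx]
      · rw [indicator_of_notMem hx, a2 (by rw [a1, a3 hx]), mul_zero]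
    have e2 : ∫ x, n * cs κ (dist p x) * ψ x ∂m
        = ∫ x in Bp p R', n * cs κ (dist p x) * ψ x ∂m := by
      rw [← integral_indicator hBm]
      refine integral_congr_ae ?_
      filter_upwards [hφR] with x a3
      by_cases hx : x ∈ Bp p R'
      · rw [indicator_of_mem hx]
      · rw [indicator_of_notMem hx, a3 hx, mul_zero]
    rw [e1, e2]
    exact hcore

end Vale.Agent.P233.H227.LCE
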